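import Vale.Agent.P030.H641.CntLem

/-!
# P030, odd primes: the dip near `p = n/3` of design A
-/

open Finset

namespace Vale.Agent.P030.H641

open Vale.Agent.P030.T Vale.Agent.P030.H792

/-- orders for which the reductions are used: below `p` for the groups at `c2`, `c3` -/
def NvA (p s c0 : ℕ) (g : Gp) : ℕ :=
  match g with
  | .v2 | .vl | .v8 | .vb | .x2 | .xl | .x1 => min (H579.parA.ht g * s + c0) p
  | _ => H579.parA.ht g * s + c0

/-- the reduced rows of design A at the prime `p` -/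
def RedA (p s c0 : ℕ) [Fact p.Prime] (x : ℚ) (Nv : Gp → ℕ) : Prop :=
  ∃ (d : CD p) (h : ℕ → ZMod p) (ent : ℕ → Fin 8 → Cl → ZMod p),
    d.D = H579.parA.D0 * s ∧ (∀ g, d.N g = H579.parA.ht g * s + c0) ∧ HypE d h Nv ent ∧
    ∀ r : Fin (H579.parA.D0 * s) × Fin 8, ∀ c : Cl, c.2 < H579.parA.ht c.1 * s + c0 →
      ((latRow p (H579.parA.D0 * s) wr8 1 2 H678.hK x r c * (p : ℚ) ^ (-H678.wg c.1) : ℚ)
        : ZMod p) = ent r.1 r.2 c

/-- integrality of the rows of the Frobenius lattice -/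
theorem latRow_int {p s c0 : ℕ} [hp : Fact p.Prime] (hp5 : 5 ≤ p) {x : ℚ}
    (hx : padicNorm p x ≤ 1) (hN : ∀ g, H579.parA.ht g * s + c0 + 2 ≤ p ^ 2) :
    ∀ c : Cl, c.2 < H579.parA.ht c.1 * s + c0 → ∀ r : Fin (H579.parA.D0 * s) × Fin 8,
      padicNorm p (latRow p (H579.parA.D0 * s) wr8 1 2 H678.hK x r c)
        ≤ (p : ℚ) ^ (-H678.wg c.1) := by
  have hL := locIn p hp5 (H579.parA.D0 * s) (fun g => H579.parA.ht g * s + c0) hN
  intro c hc r
  have h1 := hL.z1
  exact latRow_le hx hL.z1 hL.le2 (N := fun g => H579.parA.ht g * s + c0)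
    hL.o2 hL.o2' hL.o1 hL.o1' c hc r

/-- **the bound at one prime from a class count** -/
theorem le_val_A {p s c0 : ℕ} [hp : Fact p.Prime] (hp5 : 5 ≤ p) {x : ℚ}
    (hx : padicNorm p x ≤ 1) (hN : 32 * s + c0 + 2 ≤ p ^ 2) (hpD : p ≤ 27 * s)
    {σ : Fin (H579.parA.D0 * s) × Fin 8 → Cl} (hσ : Adm H579.parA c0 s σ)
    (hdet : (Mx (H579.parA.D0 * s) x σ).det ≠ 0) {Nv : Gp → ℕ} (hR : RedA p s c0 x Nv)
    (A : Finset ℕ) (J : Gp → ℕ)
    (hNv : ∀ g k, k < H579.parA.ht g * s + c0 → (¬ (g.cusp = 0 ∨ g.cusp = 1) → k < p * J g)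
      → k < Nv g) {B : ℤ}
    (hB : ∀ d : CD p, d.D = 27 * s → (∀ g, d.N g = H579.parA.ht g * s + c0) →
      (d.cnt A J : ℤ) ≤ B) :
    216 * (s : ℤ) - B - (65 * s + p) - 8 * c0
      ≤ padicValRat p (Mx (H579.parA.D0 * s) x σ).det := by
  obtain ⟨d, h, ent, hdD, hdN, hE, hent⟩ := hR
  have hN' : ∀ g, H579.parA.ht g * s + c0 + 2 ≤ p ^ 2 := by
    intro g
    have h1 : H579.parA.ht g ≤ 32 := by cases g <;> decide
    have h2 := Nat.mul_le_mul_right s h1
    omega
  have h6 := le_val_of_count hσ hdet (latRow_int hp5 hx hN') d hdD hdN hE hent A J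
    (fun g k hk => hNv g k (by rw [← hdN]; exact hk))
  have h7 := sum_wg_A hσ
  have h8 := latIdx_B (p := p) (D := H579.parA.D0 * s) (by omega) (by
    have : H579.parA.D0 = 27 := rfl
    rw [this]; omega)
  rw [h8] at h6
  have hD : ((H579.parA.D0 * s : ℕ) : ℤ) = 27 * s := by
    have : H579.parA.D0 = 27 := rfl
    rw [this]; push_cast; ring
  rw [hD] at h6
  have h9 := hB d hdD hdN
  linarith

/-- the classes of the dip -/
def Adip (s p : ℕ) : Finset ℕ := Ico (max (27 * s + 1 - 2 * p) (p - 5 * s)) (min p (32 * s - 2 * p))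

/-- `v2` and `x2` of order zero -/
def Jdip : Gp → ℕ
  | .v2 => 1
  | .x2 => 1
  | _ => 0

variable {p : ℕ} [hp : Fact p.Prime]

theorem cnt_dip {s c0 : ℕ} (d : CD p) (hD : d.D = 27 * s)
    (hN : ∀ g, d.N g = H579.parA.ht g * s + c0) (h13 : 2 * p ≤ 27 * s) (h9 : 9 * s ≤ p) :
    (d.cnt (Adip s p) Jdip : ℤ) ≤ 194 * s + 15 * c0 - (Adip s p).card + 2 * p
      + ((12 * s + c0 - p : ℕ) : ℤ) + ((10 * s + c0 - p : ℕ) : ℤ) := by
  have hp0 := hp.out.pos
  set A := Adip s p with hA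
  have hmem : ∀ i ∈ A, 27 * s + 1 ≤ i + 2 * p ∧ p ≤ i + 5 * s ∧ i < p ∧ i + 2 * p < 32 * s := by
    intro i hi
    rw [hA, Adip, mem_Ico] at hi
    omega
  have hAp : ∀ i ∈ A, i < p := fun i hi => (hmem i hi).2.2.1
  have hcp : ∀ i ∈ A, d.cp i + p + i + 1 = 27 * s := by
    intro i hi
    obtain ⟨a1, a2, a3, a4⟩ := hmem i hi
    unfold CD.cp
    rw [Nat.mod_eq_of_lt a3, hD]
    have e1 : 27 * s - 1 + (p - i) = (27 * s - 1 - i - p) + p * 2 := by omega
    rw [e1, Nat.add_mul_mod_self_left, Nat.mod_eq_of_lt (by omega)]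
    omega
  -- rows
  have hrows := d.rows_le (A := A) (m := 1) (fun i hi => by
    have := (hmem i hi).1
    rw [hD]; omega)
  -- main columns
  have hc0 : ∀ g : Gp, g.cusp = 0 → d.N g = 32 * s + c0 →
      ((range (d.N g)).filter (fun k => d.cl g k ∉ A)).card + 3 * A.card ≤ d.N g := by
    intro g hg hNg
    refine d.cols_le hAp g (m := 3) fun i hi t ht => ?_
    have a4 := (hmem i hi).2.2.2
    unfold CD.lo
    rw [if_pos hg, hNg]
    have : p * t ≤ p * 2 := Nat.mul_le_mul_left p (by omega)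
    omega
  have hc1 : ∀ g : Gp, g.cusp = 1 → d.N g = 32 * s + c0 →
      ((range (d.N g)).filter (fun k => d.cl g k ∉ A)).card + 3 * A.card ≤ d.N g := by
    intro g hg hNg
    refine d.cols_le hAp g (m := 3) fun i hi t ht => ?_
    obtain ⟨a1, a2, a3, a4⟩ := hmem i hi
    have a5 := hcp i hi
    unfold CD.lo
    rw [if_neg (by rw [hg]; decide), hNg]
    have : p * t ≤ p * 2 := Nat.mul_le_mul_left p (by omega)
    omega
  have hfl : ∀ g : Gp, ((range (d.N g)).filter (fun k => d.cl g k ∉ A)).card ≤ d.N g := by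
    intro g
    have := d.cols_le hAp g (m := 0) fun i _ t ht => absurd ht (Nat.not_lt_zero _)
    omega
  have hall : ((range p).filter (fun i => i ∉ A)).card + A.card = p := by
    have h4 := Finset.card_filter_add_card_filter_not (s := range p) (fun k => k ∈ A)
    rw [card_range] at h4
    have h5 : (range p).filter (fun k => k ∈ A) = A := by
      ext i
      rw [mem_filter, mem_range]
      exact ⟨fun h => h.2, fun h => ⟨hAp i h, h⟩⟩
    rw [h5] at h4
    omega
  have key : d.cnt A Jdip + A.card ≤ 194 * s + 15 * c0 + 2 * p + (12 * s + c0 - p)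
      + (10 * s + c0 - p) := by
    unfold CD.cnt
    rw [CD.sum_c01, CD.sum_c23, CD.sum_c23]
    have b1 := hc0 .z1 rfl (hN .z1)
    have b2 := hc0 .zl rfl (hN .zl)
    have b3 := hc1 .w1 rfl (hN .w1)
    have b4 := hc1 .wl rfl (hN .wl)
    have b5 := hc1 .wy rfl (hN .wy)
    have f1 := hfl .z8
    have f2 := hfl .zab
    have f3 := hfl .w8
    have f4 := hfl .wab
    have f5 := hfl .wf7
    have r1 : ∀ g : Gp, ((range (d.N g)).filter (fun k => p * Jdip g ≤ k)).card
        = d.N g - p * Jdip g := fun g => card_rest _ _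
    rw [r1, r1, r1, r1, r1, r1, r1]
    have n1 : d.N .z1 = 32 * s + c0 := hN .z1
    have n2 : d.N .zl = 32 * s + c0 := hN .zl
    have n3 : d.N .w1 = 32 * s + c0 := hN .w1
    have n4 : d.N .wl = 32 * s + c0 := hN .wl
    have n5 : d.N .wy = 32 * s + c0 := hN .wy
    have n6 : d.N .z8 = 4 * s + c0 := hN .z8
    have n7 : d.N .zab = 4 * s + c0 := hN .zab
    have n8 : d.N .w8 = 2 * s + c0 := hN .w8
    have n9 : d.N .wab = 2 * s + c0 := hN .wab
    have n10 : d.N .wf7 = 2 * s + c0 := hN .wf7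
    have n11 : d.N .v2 = 12 * s + c0 := hN .v2
    have n12 : d.N .vl = 4 * s + c0 := hN .vl
    have n13 : d.N .v8 = 4 * s + c0 := hN .v8
    have n14 : d.N .vb = 4 * s + c0 := hN .vb
    have n15 : d.N .x2 = 10 * s + c0 := hN .x2
    have n16 : d.N .xl = 4 * s + c0 := hN .xl
    have n17 : d.N .x1 = 4 * s + c0 := hN .x1
    rw [n11, n12, n13, n14, n15, n16, n17]
    simp only [Jdip, mul_one, mul_zero, Nat.sub_zero]
    omega
  omega

/-- the reductions for all primes -/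
def RedAll (c0 : ℕ) : Prop :=
  ∀ (p : ℕ) [Fact p.Prime], 5 ≤ p → ∀ (s : ℕ) (x : ℚ), padicNorm p x ≤ 1 → p ≤ 27 * s →
    32 * s + c0 + 2 ≤ p ^ 2 → RedA p s c0 x (NvA p s c0)

/-- the profile of the dip -/
noncomputable def phiDip (q : ℝ) : ℝ :=
  if q < 10 then 92 - 2 * q else if q < 32 / 3 then 82 - q else 18 + 5 * q

theorem dip_bound {s c0 : ℕ} (hp5 : 5 ≤ p) {x : ℚ}
    (hx : padicNorm p x ≤ 1) (hN : 32 * s + c0 + 2 ≤ p ^ 2)
    {σ : Fin (H579.parA.D0 * s) × Fin 8 → Cl} (hσ : Adm H579.parA c0 s σ)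
    (hdet : (Mx (H579.parA.D0 * s) x σ).det ≠ 0) (hR : RedA p s c0 x (NvA p s c0))
    (h9 : 9 * s ≤ p) (h12 : p ≤ 12 * s) :
    22 * (s : ℤ) + (Adip s p).card - 2 * p - ((12 * s + c0 - p : ℕ) : ℤ)
      - ((10 * s + c0 - p : ℕ) : ℤ) - 23 * c0 - (65 * s + p)
      ≤ padicValRat p (Mx (H579.parA.D0 * s) x σ).det := by
  have h1 := le_val_A hp5 hx hN (by omega) hσ hdet hR (Adip s p) Jdip (fun g k hk hJ => by
    cases g
    case v8 => exact absurd (hJ (by decide)) (by simp [Jdip])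
    case vl => exact absurd (hJ (by decide)) (by simp [Jdip])
    case vb => exact absurd (hJ (by decide)) (by simp [Jdip])
    case xl => exact absurd (hJ (by decide)) (by simp [Jdip])
    case x1 => exact absurd (hJ (by decide)) (by simp [Jdip])
    case x2 =>
      have := hJ (by decide)
      simp only [Jdip, mul_one] at this
      exact lt_min hk this
    case v2 =>
      have := hJ (by decide)
      simp only [Jdip, mul_one] at this
      exact lt_min hk this
    all_goals exact hk)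
    (B := 194 * s + 15 * c0 - (Adip s p).card + 2 * p
      + ((12 * s + c0 - p : ℕ) : ℤ) + ((10 * s + c0 - p : ℕ) : ℤ))
    (fun d hD hN => cnt_dip d hD hN (by omega) h9)
  linarith

/-- **the local range of the dip** -/
theorem locRange_dip {c0 : ℕ} (h : RedAll c0) :
    LocRange H579.parA c0 9 (47 / 4) phiDip := by
  intro x η hη
  obtain ⟨s1, hs1⟩ := exists_nat_gt ((25 * c0 + 1) / η : ℝ)
  refine ⟨max s1 (c0 + 2), fun s hs p hpp hp2 hxp hap hbp σ hσ hdet => ?_⟩
  have := Fact.mk hpp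
  have hsc : c0 + 2 ≤ s := (le_max_right _ _).trans hs
  have hs0 : (0 : ℝ) < s := by
    have : 1 ≤ s := by omega
    exact_mod_cast this
  have hss1 : (s1 : ℝ) ≤ s := by exact_mod_cast (le_max_left _ _).trans hs
  have hC : (25 * c0 + 1 : ℝ) ≤ η * s := by
    have h1 := (div_lt_iff₀ hη).1 hs1
    have h2 := mul_le_mul_of_nonneg_right hss1 hη.le
    linarith
  have hap' := hap
  have hbp' := hbp
  rw [le_div_iff₀ hs0] at hap
  rw [div_lt_iff₀ hs0] at hbp
  have n1 : 9 * s ≤ p := by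
    have : (9 : ℝ) * s ≤ p := by linarith
    exact_mod_cast this
  have n2 : 4 * p < 47 * s := by
    have : (4 : ℝ) * p < 47 * s := by linarith
    exact_mod_cast this
  have hp5 : 5 ≤ p := by omega
  have hsq : 32 * s + c0 + 2 ≤ p ^ 2 := by nlinarith
  have hxn := norm_x_le_one hxp
  have g := dip_bound hp5 hxn hsq hσ hdet (h p hp5 s x hxn (by omega) hsq) n1 (by omega)
  have hcard : (Adip s p).card
      = min p (32 * s - 2 * p) - max (27 * s + 1 - 2 * p) (p - 5 * s) := by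
    unfold Adip; rw [Nat.card_Ico]
  rw [hcard] at g
  set v := padicValRat p (Mx (H579.parA.D0 * s) x σ).det with hv
  have hps : (s : ℝ) * ((p : ℝ) / s) = p := by field_simp
  unfold phiDip
  by_cases h10 : p < 10 * s
  · have hr : (p : ℝ) / s < 10 := by
      rw [div_lt_iff₀ hs0]; exact_mod_cast h10
    rw [if_pos hr]
    have g1 : (2 * p - 92 * s - 25 * c0 - 1 : ℤ) ≤ v := by omega
    have g2 : ((2 * p - 92 * s - 25 * c0 - 1 : ℤ) : ℝ) ≤ (v : ℝ) := by exact_mod_cast g1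
    push_cast at g2
    have e : (s : ℝ) * (92 - 2 * ((p : ℝ) / s) + η) = 92 * s - 2 * (s * ((p : ℝ) / s)) + η * s := by
      ring
    rw [e, hps]
    linarith
  · have hr : ¬ (p : ℝ) / s < 10 := by
      rw [not_lt, le_div_iff₀ hs0]; exact_mod_cast not_lt.1 h10
    rw [if_neg hr]
    by_cases h11 : 3 * p < 32 * s
    · have hr' : (p : ℝ) / s < 32 / 3 := by
        rw [div_lt_iff₀ hs0]
        have : (3 : ℝ) * p < 32 * s := by exact_mod_cast h11
        linarith
      rw [if_pos hr']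
      have g1 : (p - 82 * s - 25 * c0 - 1 : ℤ) ≤ v := by omega
      have g2 : ((p - 82 * s - 25 * c0 - 1 : ℤ) : ℝ) ≤ (v : ℝ) := by exact_mod_cast g1
      push_cast at g2
      have e : (s : ℝ) * (82 - ((p : ℝ) / s) + η) = 82 * s - (s * ((p : ℝ) / s)) + η * s := by
        ring
      rw [e, hps]
      linarith
    · have hr' : ¬ (p : ℝ) / s < 32 / 3 := by
        rw [not_lt, le_div_iff₀ hs0]
        have : (32 : ℝ) * s ≤ 3 * p := by exact_mod_cast not_lt.1 h11
        linarith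
      rw [if_neg hr']
      have g1 : (-5 * p - 18 * s - 25 * c0 - 1 : ℤ) ≤ v := by omega
      have g2 : ((-5 * p - 18 * s - 25 * c0 - 1 : ℤ) : ℝ) ≤ (v : ℝ) := by exact_mod_cast g1
      push_cast at g2
      have e : (s : ℝ) * (18 + 5 * ((p : ℝ) / s) + η) = 18 * s + 5 * (s * ((p : ℝ) / s)) + η * s := by
        ring
      rw [e, hps]
      linarith

end Vale.Agent.P030.H641
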