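import Vale.Agent.P030.H641.Dip
import Vale.Agent.P030.H792.MidAdapt

/-!
# P030, odd primes: from the table of the reduced series to the class count
-/

open PowerSeries

namespace Vale.Agent.P030.H641

open Vale.Agent.P030.T Vale.Agent.P030.H792

variable {p : ℕ} [hp : Fact p.Prime]

lemma PS_up (f : (ZMod p)⟦X⟧) : PS p (H392.up p f) := by
  intro k hk
  rw [H392.coeff_up, if_neg hk]

/-- the class data of the table -/
noncomputable def cdOf (p : ℕ) [hp : Fact p.Prime] (D : ℕ) (hD : 1 ≤ D) (N : Gp → ℕ)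
    (m : H392.MidDat p) : CD p where
  D := D
  hD := hD
  N := N
  kap := fun _ => 1
  U := H392.cA p
  V := H392.cB p
  hU := ⟨H392.gF p, rfl⟩
  hT := ⟨-(2 * C (1 / 2 : ZMod p)), by
    show -(C (1 / 2 : ZMod p) * (1 + X)) + C (1 / 2 : ZMod p) * (1 - X)
      = X * (-(2 * C (1 / 2 : ZMod p)))
    ring⟩
  φ := fun l g => if h : (l : ℕ) < 6 then H392.up p (m.phi g ⟨l, h⟩)
    else if (l : ℕ) = 6 then H392.up p (m.beta g) else H392.up p (m.tau g)
  hφ := by
    intro l g
    split_ifs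
    · exact PS_up _
    · exact PS_up _
    · exact PS_up _

/-- **the adapter** -/
theorem redA_of_tab (h2 : p ≠ 2) {s c0 : ℕ} (hD : 1 ≤ H579.parA.D0 * s) {x : ℚ}
    (hx : padicNorm p x ≤ 1) {m : H392.MidDat p} {Nv : Gp → ℕ} (hN : ∀ g, Nv g + 1 ≤ p ^ 2)
    (h : RdTab p m Nv) : RedA p s c0 x Nv := by
  have hM := midHyp_of_tab (D := H579.parA.D0 * s) h2 hx hN h
  refine ⟨cdOf p (H579.parA.D0 * s) hD (fun g => H579.parA.ht g * s + c0) m, m.h,
    fun a j c => if ha : a < H579.parA.D0 * s then entM p (H579.parA.D0 * s) x (⟨a, ha⟩, j) c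
      else 0, rfl, fun _ => rfl, ?_, ?_⟩
  · refine ⟨?_, ?_, ?_, ?_⟩
    · intro a ha j hj g k hk
      rw [dif_pos (show a < H579.parA.D0 * s from ha)]
      have e := hM.lo ⟨a, ha⟩ j hj g k hk
      rw [e]
      show _ = coeff k (1 * H392.cA p g.cusp ^ a * H392.cB p g.cusp ^ (H579.parA.D0 * s - 1 - a)
        * (if h : (j : ℕ) < 6 then H392.up p (m.phi g ⟨j, h⟩)
          else if (j : ℕ) = 6 then H392.up p (m.beta g) else H392.up p (m.tau g)))
      rw [dif_pos hj, one_mul]
    · intro a ha g k hk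
      rw [dif_pos (show a < H579.parA.D0 * s from ha)]
      have e := hM.six ⟨a, ha⟩ g k hk
      rw [e]
      show _ = coeff k (1 * H392.cA p g.cusp ^ a * H392.cB p g.cusp ^ (H579.parA.D0 * s - 1 - a)
        * ((H392.cB p g.cusp - H392.cA p g.cusp) * ∑ q ∈ Finset.range p,
          C (m.h q) * H392.cA p g.cusp ^ q * H392.cB p g.cusp ^ (p - 1 - q))
        * H392.up p (m.beta g))
      congr 1
      have e3 : ∑ q ∈ Finset.range p,
          C (m.h q) * H392.cA p g.cusp ^ q * H392.cB p g.cusp ^ (p - 1 - q)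
          = ∑ q ∈ Finset.range p,
          C (m.h q) * (H392.cA p g.cusp ^ q * H392.cB p g.cusp ^ (p - 1 - q)) :=
        Finset.sum_congr rfl fun q _ => by ring
      rw [e3]
      ring
    · intro a ha hap g k hk
      rw [dif_pos (show a < H579.parA.D0 * s from ha)]
      have hap' : H579.parA.D0 * s < a + p := hap
      have e := hM.top ⟨a, ha⟩ g k hk (by show ¬ a + p ≤ _; omega)
      rw [e]
      show _ = coeff k (1 * H392.cA p g.cusp ^ a * H392.cB p g.cusp ^ (H579.parA.D0 * s - 1 - a)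
        * ((H392.cB p g.cusp - H392.cA p g.cusp) * ∑ q ∈ Finset.range p,
          C ((q : ZMod p) * m.h q) * H392.cA p g.cusp ^ q * H392.cB p g.cusp ^ (p - 1 - q))
        * H392.up p (m.beta g))
      congr 1
      have e3 : ∑ q ∈ Finset.range p,
          C ((q : ZMod p) * m.h q) * H392.cA p g.cusp ^ q * H392.cB p g.cusp ^ (p - 1 - q)
          = ∑ q ∈ Finset.range p,
          C ((q : ZMod p) * m.h q) * (H392.cA p g.cusp ^ q * H392.cB p g.cusp ^ (p - 1 - q)) :=
        Finset.sum_congr rfl fun q _ => by ring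
      rw [e3]
      ring
    · intro a hap g k hk
      have hap' : a + p ≤ H579.parA.D0 * s := hap
      have ha : a < H579.parA.D0 * s := by have := hp.out.pos; omega
      rw [dif_pos ha]
      have e := hM.cor ⟨a, ha⟩ g k hk hap'
      rw [e]
      show _ = coeff k (1 * H392.cA p g.cusp ^ a * H392.cB p g.cusp ^ (H579.parA.D0 * s - p - a)
        * (H392.cA p g.cusp + H392.cB p g.cusp) ^ (p - 1) * H392.up p (m.tau g))
      congr 1
      unfold H392.cY
      ring
  · intro r c _
    beta_reduce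
    rw [dif_pos r.1.2]
    rfl

/-- the reductions for all primes from the tables -/
theorem redAll_of_tab {c0 : ℕ} (h : ∀ (p : ℕ) [Fact p.Prime], 5 ≤ p → ∀ N : Gp → ℕ,
    (∀ g, N g + 2 ≤ p ^ 2) → (∀ g : Gp, ¬ (g.cusp = 0 ∨ g.cusp = 1) → N g ≤ p) →
    ∃ m : H392.MidDat p, RdTab p m N) : RedAll c0 := by
  intro p hp hp5 s x hx hpD hsq
  have h1 : ∀ g, NvA p s c0 g + 2 ≤ p ^ 2 := by
    intro g
    have h2 : NvA p s c0 g ≤ H579.parA.ht g * s + c0 := by
      cases g <;> first | exact le_rfl | exact min_le_left _ _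
    have h3 : H579.parA.ht g ≤ 32 := by cases g <;> decide
    have h4 := Nat.mul_le_mul_right s h3
    omega
  have h2 : ∀ g : Gp, ¬ (g.cusp = 0 ∨ g.cusp = 1) → NvA p s c0 g ≤ p := by
    intro g hg
    cases g <;> first | exact min_le_right _ _ | exact absurd (by decide) hg
  obtain ⟨m, hm⟩ := h p hp5 (NvA p s c0) h1 h2
  have hD0 : H579.parA.D0 = 27 := rfl
  refine redA_of_tab (by omega) (by rw [hD0]; omega) hx (fun g => ?_) hm
  have := h1 g
  omega

end Vale.Agent.P030.H641
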