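import Vale.Agent.P030.H641.Glob
import Vale.Agent.P030.H678.Rows
import Vale.Agent.P030.H792.Lattice

/-!
# P030, odd primes: classes modulo `p`, the interface

`U, V` are homogeneous coordinates of `u = U/V` at the four cusps, `mon D c i = κ_c U^i V^(D-1-i)`.
(C1)-(C3): modulo `p` every function of the list is a common factor times a series in `X^p`.
-/

open PowerSeries

namespace Vale.Agent.P030.H641

open Vale.Agent.P030.T Vale.Agent.P030.H678 Vale.Agent.P030.H792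

variable {p : ℕ} [hp : Fact p.Prime]

/-- the first `N` coefficients modulo `p` -/
noncomputable def rs (p : ℕ) [Fact p.Prime] (N : ℕ) (f : ℚ⟦X⟧) : (ZMod p)⟦X⟧ :=
  mk fun k => if k < N then red p (coeff k f) else 0

/-- series in `X^p` -/
def PS (p : ℕ) [Fact p.Prime] (f : (ZMod p)⟦X⟧) : Prop := ∀ k, ¬ p ∣ k → coeff k f = 0

/-- equality of the first `N` coefficients -/
def EqN (N : ℕ) (f g : (ZMod p)⟦X⟧) : Prop := ∀ k < N, coeff k f = coeff k g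

/-- homogeneous coordinates at the four cusps, `u = U / V` -/
noncomputable def Uc (R : Type*) [CommRing R] : Fin 4 → R⟦X⟧ := ![X, -(1 + X), 1, 1 + X]
/-- homogeneous coordinates at the four cusps, `u = U / V` -/
noncomputable def Vc (R : Type*) [CommRing R] : Fin 4 → R⟦X⟧ := ![1, 1 - X, X, 1 - X]

/-- the Hasse polynomial, homogeneous of degree `p - 1` (`a = 0`), and its `θ`-derivative
(`a = 1`), modulo `p` -/
noncomputable def Hh (p : ℕ) [Fact p.Prime] (a : ℕ) (c : Fin 4) : (ZMod p)⟦X⟧ :=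
  ∑ q ∈ Finset.range p, C ((q : ZMod p) ^ a * hr p q) * Uc (ZMod p) c ^ q
    * Vc (ZMod p) c ^ (p - 1 - q)

/-- the same over `ℚ` with the coefficients of `K` -/
noncomputable def HQ (p a : ℕ) (c : Fin 4) : ℚ⟦X⟧ :=
  ∑ q ∈ Finset.range p, C ((q : ℚ) ^ a * hK q) * Uc ℚ c ^ q * Vc ℚ c ^ (p - 1 - q)

/-- (C1) the six polylogarithmic components -/
def Cl1 (p : ℕ) [Fact p.Prime] (N : ℕ) : Prop :=
  ∀ g : Gp, ∀ j : Fin 8, j.val < 6 →
    VB p N 0 (C ((p : ℚ) ^ (wr8 j - wg g)) * tup0 g j) ∧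
    PS p (rs p N (C ((p : ℚ) ^ (wr8 j - wg g)) * tup0 g j))

/-- (C2) the components `F`, `T` -/
def Cl2 (p : ℕ) [Fact p.Prime] (N : ℕ) : Prop :=
  ∀ g : Gp, VB p N 0 (C ((p : ℚ) ^ (2 - wg g)) * tup0 g 6) ∧
    VB p N 0 (C ((p : ℚ) ^ (2 - wg g)) * tup0 g 7) ∧
    ∃ β : (ZMod p)⟦X⟧, PS p β ∧
      EqN N (rs p N (C ((p : ℚ) ^ (2 - wg g)) * tup0 g 6))
        ((Vc (ZMod p) g.cusp - Uc (ZMod p) g.cusp) * Hh p 0 g.cusp * β) ∧
      EqN N (rs p N (C ((p : ℚ) ^ (2 - wg g)) * tup0 g 7))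
        ((Vc (ZMod p) g.cusp - Uc (ZMod p) g.cusp) * Hh p 1 g.cusp * β)

/-- (C3) the Wronskian rows -/
def Cl3 (p : ℕ) [Fact p.Prime] (N : ℕ) : Prop :=
  ∀ g : Gp, VB p N 0 (C ((p : ℚ) ^ (1 - wg g))
      * (HQ p 0 g.cusp * tup0 g 7 - HQ p 1 g.cusp * tup0 g 6)) ∧
    ∃ q : (ZMod p)⟦X⟧, PS p q ∧
      EqN N (rs p N (C ((p : ℚ) ^ (1 - wg g))
          * (HQ p 0 g.cusp * tup0 g 7 - HQ p 1 g.cusp * tup0 g 6)))
        ((Uc (ZMod p) g.cusp + Vc (ZMod p) g.cusp) ^ (p - 1) * q)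

end Vale.Agent.P030.H641
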