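import Vale.Agent.P030.H641.Link
import Vale.Agent.P030.H792.LocMid

/-!
# P030, odd primes: estimates of the class count
-/

open Finset

namespace Vale.Agent.P030.H641

open Vale.Agent.P030.T Vale.Agent.P030.H792

/-- rows of the classes in `A` -/
lemma card_rows_le {n p m : ℕ} (hp : 0 < p) {A : Finset ℕ} (h : ∀ i ∈ A, n ≤ i + p * m) :
    ((range n).filter (fun b => b % p ∈ A)).card ≤ m * A.card := by
  have h1 : ((range n).filter (fun b => b % p ∈ A)).card ≤ (A ×ˢ range m).card := by
    refine Finset.card_le_card_of_injOn (fun b => (b % p, b / p)) (fun b hb => ?_)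
      (fun b _ b' _ hbb => ?_)
    · rw [mem_coe, mem_filter, mem_range] at hb
      rw [mem_coe, mem_product, mem_range]
      refine ⟨hb.2, ?_⟩
      have h2 := h _ hb.2
      have h3 := Nat.mod_add_div b p
      have h4 : p * (b / p) < p * m := by omega
      exact lt_of_mul_lt_mul_left h4 (Nat.zero_le p)
    · have h2 := (Prod.ext_iff.1 hbb).1
      have h3 := (Prod.ext_iff.1 hbb).2
      simp only at h2 h3
      rw [← Nat.mod_add_div b p, ← Nat.mod_add_div b' p, h2, h3]
  rw [card_product, card_range, mul_comm] at h1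
  exact h1

/-- columns of the classes in `A` -/
lemma card_cols {n p m : ℕ} (hp : 0 < p) {A : Finset ℕ} {cl e : ℕ → ℕ}
    (h1 : ∀ i ∈ A, ∀ t, cl (e i + p * t) = i) (h2 : ∀ i ∈ A, ∀ t < m, e i + p * t < n) :
    ((range n).filter (fun k => cl k ∉ A)).card + m * A.card ≤ n := by
  have h3 : (A ×ˢ range m).card ≤ ((range n).filter (fun k => cl k ∈ A)).card := by
    refine Finset.card_le_card_of_injOn (fun x => e x.1 + p * x.2) (fun x hx => ?_)
      (fun x hx y hy hxy => ?_)
    · rw [mem_coe, mem_product, mem_range] at hx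
      rw [mem_coe, mem_filter, mem_range]
      exact ⟨h2 _ hx.1 _ hx.2, by rw [h1 _ hx.1]; exact hx.1⟩
    · rw [mem_coe, mem_product] at hx hy
      simp only at hxy
      have h4 : x.1 = y.1 := by
        have h5 := h1 _ hx.1 x.2
        rw [hxy, h1 _ hy.1] at h5
        exact h5.symm
      have h6 : x.2 = y.2 := by
        rw [h4] at hxy
        exact Nat.eq_of_mul_eq_mul_left hp (by omega)
      exact Prod.ext h4 h6
  have h4 := Finset.card_filter_add_card_filter_not (s := range n) (fun k => cl k ∈ A)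
  rw [card_range] at h4
  rw [card_product, card_range, mul_comm] at h3
  omega

lemma card_rest (n m : ℕ) : ((range n).filter (fun k => m ≤ k)).card = n - m := by
  have : (range n).filter (fun k => m ≤ k) = Ico m n := by
    ext k
    simp only [mem_filter, mem_range, mem_Ico]
    omega
  rw [this, Nat.card_Ico]

variable {p : ℕ} [hp : Fact p.Prime]

namespace CD

variable (d : CD p) {A : Finset ℕ}

/-- leading order of a class in a group at `c0`, `c1` -/
def lo (g : Gp) (i : ℕ) : ℕ := if g.cusp = 0 then i else d.cp i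

lemma cl_lo (hA : ∀ i ∈ A, i < p) (g : Gp) :
    ∀ i ∈ A, ∀ t, d.cl g (d.lo g i + p * t) = i := by
  intro i hi t
  unfold cl lo
  by_cases hg : g.cusp = 0
  · rw [if_pos hg, if_pos hg, Nat.add_mul_mod_self_left, Nat.mod_eq_of_lt (hA i hi)]
  · rw [if_neg hg, if_neg hg, ← d.cp_mod, Nat.add_mul_mod_self_left,
      Nat.mod_eq_of_lt (d.cp_lt i), d.cp_cp (hA i hi)]

lemma cols_le (hA : ∀ i ∈ A, i < p) (g : Gp) {m : ℕ}
    (h : ∀ i ∈ A, ∀ t < m, d.lo g i + p * t < d.N g) :
    ((range (d.N g)).filter (fun k => d.cl g k ∉ A)).card + m * A.card ≤ d.N g :=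
  card_cols hp.out.pos (d.cl_lo hA g) h

lemma sum_l (f : Fin 8 → ℕ) : ∑ l, f l = f 0 + f 1 + f 2 + f 3 + f 4 + f 5 + f 6 + f 7 :=
  Fin.sum_univ_eight f

lemma rows_le {m : ℕ} (h : ∀ i ∈ A, d.D + 1 ≤ i + p * (m + 1)) :
    ∑ l : Fin 8, ((range (d.Dl l)).filter (fun b => b % p ∈ A)).card ≤ 8 * (m + 1) * A.card := by
  have hp0 := hp.out.pos
  rw [sum_l]
  have h6 : ∀ l : Fin 8, l.val < 6 → ((range (d.Dl l)).filter (fun b => b % p ∈ A)).card
      ≤ (m + 1) * A.card := by
    intro l hl
    have : d.Dl l = d.D := by unfold Dl; rw [if_pos hl]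
    rw [this]
    exact card_rows_le hp0 fun i hi => by have := h i hi; omega
  have h7 : ((range (d.Dl 6)).filter (fun b => b % p ∈ A)).card ≤ (m + 2) * A.card := by
    have : d.Dl 6 = d.D + p := rfl
    rw [this]
    refine card_rows_le hp0 fun i hi => ?_
    have := h i hi
    have e : p * (m + 2) = p * (m + 1) + p := by ring
    omega
  have h8 : ((range (d.Dl 7)).filter (fun b => b % p ∈ A)).card ≤ m * A.card := by
    have : d.Dl 7 = d.D + 1 - p := rfl
    rw [this]
    refine card_rows_le hp0 fun i hi => ?_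
    have := h i hi
    have e : p * (m + 1) = p * m + p := by ring
    omega
  have g0 := h6 0 (by decide)
  have g1 := h6 1 (by decide)
  have g2 := h6 2 (by decide)
  have g3 := h6 3 (by decide)
  have g4 := h6 4 (by decide)
  have g5 := h6 5 (by decide)
  nlinarith

/-- sum over the groups at `c0`, `c1` -/
lemma sum_c01 (f : Gp → ℕ) : ∑ g ∈ univ.filter (fun g : Gp => g.cusp = 0 ∨ g.cusp = 1), f g
    = f .z1 + f .zl + f .z8 + f .zab + f .w1 + f .wl + f .wy + f .w8 + f .wab + f .wf7 := by
  have : univ.filter (fun g : Gp => g.cusp = 0 ∨ g.cusp = 1)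
      = {.z1, .zl, .z8, .zab, .w1, .wl, .wy, .w8, .wab, .wf7} := by decide
  rw [this]
  repeat rw [Finset.sum_insert (by decide)]
  rw [Finset.sum_singleton]
  ring

/-- sum over the groups at `c2`, `c3` -/
lemma sum_c23 (f : Gp → ℕ) : ∑ g ∈ univ.filter (fun g : Gp => ¬ (g.cusp = 0 ∨ g.cusp = 1)), f g
    = f .v2 + f .vl + f .v8 + f .vb + f .x2 + f .xl + f .x1 := by
  have : univ.filter (fun g : Gp => ¬ (g.cusp = 0 ∨ g.cusp = 1))
      = {.v2, .vl, .v8, .vb, .x2, .xl, .x1} := by decide
  rw [this]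
  repeat rw [Finset.sum_insert (by decide)]
  rw [Finset.sum_singleton]
  ring

end CD

end Vale.Agent.P030.H641
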