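import Vale.Agent.P030.H641.Cls

/-!
# P030, odd primes: counting the rank by classes modulo `p`
-/

open PowerSeries Finset

namespace Vale.Agent.P030.H641

open Vale.Agent.P030.T

variable {p : ℕ} [hp : Fact p.Prime]

/-! ### series in `X^p` -/

lemma PS_iff {f : (ZMod p)⟦X⟧} : PS p f ↔ derivative (ZMod p) f = 0 := by
  constructor
  · intro h
    ext n
    rw [coeff_derivative, map_zero]
    by_cases hn : p ∣ n + 1
    · have : ((n : ZMod p) + 1) = 0 := by
        have h2 : (((n + 1 : ℕ)) : ZMod p) = 0 := (ZMod.natCast_eq_zero_iff _ _).2 hn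
        push_cast at h2
        exact h2
      rw [this, mul_zero]
    · rw [h _ hn, zero_mul]
  · intro h k hk
    rcases k with _ | n
    · exact absurd (dvd_zero p) hk
    · have h1 := congrArg (coeff n) h
      rw [coeff_derivative, map_zero] at h1
      have h2 : ((n : ZMod p) + 1) ≠ 0 := by
        have := cast_ne hk
        push_cast at this
        exact this
      exact (mul_eq_zero.1 h1).resolve_right h2

lemma PS.mul {f g : (ZMod p)⟦X⟧} (hf : PS p f) (hg : PS p g) : PS p (f * g) := by
  rw [PS_iff] at *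
  rw [Derivation.leibniz, hf, hg, smul_zero, smul_zero, add_zero]

lemma PS.add {f g : (ZMod p)⟦X⟧} (hf : PS p f) (hg : PS p g) : PS p (f + g) := by
  rw [PS_iff] at *
  rw [map_add, hf, hg, add_zero]

lemma PS_one : PS p (1 : (ZMod p)⟦X⟧) := by
  rw [PS_iff]; exact Derivation.map_one_eq_zero _

lemma PS.pow {f : (ZMod p)⟦X⟧} (hf : PS p f) (n : ℕ) : PS p (f ^ n) := by
  induction n with
  | zero => rw [pow_zero]; exact PS_one
  | succ n ih => rw [pow_succ]; exact ih.mul hf

lemma PS_pow_p (f : (ZMod p)⟦X⟧) : PS p (f ^ p) := PS_iff.2 (derivative_pow_p f)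

/-- the first coefficients of a product with a series in `X^p` -/
lemma coeff_mul_PS (ρ : (ZMod p)⟦X⟧) {ψ : (ZMod p)⟦X⟧} (hψ : PS p ψ) {k m0 : ℕ}
    (hk : k < p * m0) :
    coeff k (ρ * ψ) = ∑ m ∈ range m0, coeff (p * m) ψ * coeff k (ρ * X ^ (p * m)) := by
  have h1 : (X : (ZMod p)⟦X⟧) ^ (p * m0) ∣ ψ - ∑ m ∈ range m0, C (coeff (p * m) ψ) * X ^ (p * m) := by
    rw [X_pow_dvd_iff]
    intro n hn
    rw [map_sub, map_sum]
    simp only [coeff_C_mul, coeff_X_pow, mul_ite, mul_one, mul_zero]
    by_cases hd : p ∣ n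
    · obtain ⟨m, rfl⟩ := hd
      have hm : m < m0 := lt_of_mul_lt_mul_left hn (Nat.zero_le p)
      rw [Finset.sum_eq_single m]
      · simp
      · intro b _ hb
        rw [if_neg]
        intro h
        exact hb (Nat.eq_of_mul_eq_mul_left hp.out.pos h).symm
      · intro h; exact absurd (Finset.mem_range.2 hm) h
    · rw [hψ n hd, Finset.sum_eq_zero, sub_zero]
      intro b _
      rw [if_neg]
      rintro rfl
      exact hd (dvd_mul_right _ _)
  obtain ⟨r, hr⟩ := h1
  have h2 : ψ = (∑ m ∈ range m0, C (coeff (p * m) ψ) * X ^ (p * m)) + X ^ (p * m0) * r := by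
    rw [← hr]; ring
  have h3 : ρ * ψ = (∑ m ∈ range m0, C (coeff (p * m) ψ) * (ρ * X ^ (p * m)))
      + X ^ (p * m0) * (ρ * r) := by
    conv_lhs => rw [h2]
    rw [mul_add, Finset.mul_sum]
    congr 1
    · exact Finset.sum_congr rfl fun m _ => by ring
    · ring
  rw [h3, map_add, map_sum, coeff_X_pow_mul', if_neg (by omega), add_zero]
  exact Finset.sum_congr rfl fun m _ => by rw [coeff_C_mul]

/-! ### the elements -/

/-- the data: degrees and series -/
structure CD (p : ℕ) [Fact p.Prime] where
  /-- number of rows of one function -/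
  D : ℕ
  hD : 1 ≤ D
  /-- heights of the pool -/
  N : Gp → ℕ
  /-- common factors -/
  kap : Fin 4 → (ZMod p)⟦X⟧
  /-- homogeneous coordinates -/
  U : Fin 4 → (ZMod p)⟦X⟧
  /-- homogeneous coordinates -/
  V : Fin 4 → (ZMod p)⟦X⟧
  hU : X ∣ U 0
  hT : X ∣ U 1 + V 1
  /-- the series -/
  φ : Fin 8 → Gp → (ZMod p)⟦X⟧
  hφ : ∀ l g, PS p (φ l g)

namespace CD

variable (d : CD p)

/-- `U + V` -/
noncomputable def T (c : Fin 4) : (ZMod p)⟦X⟧ := d.U c + d.V c

/-- degrees -/
def M (l : Fin 8) : ℕ := if l.val < 6 then d.D - 1 else if l.val = 6 then d.D + p - 1 else d.D - p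

/-- number of elements -/
def Dl (l : Fin 8) : ℕ := if l.val < 6 then d.D else if l.val = 6 then d.D + p else d.D + 1 - p

/-- extra exponent of `T` -/
def w (_d : CD p) (l : Fin 8) : ℕ := if l.val < 7 then 0 else p - 1

/-- class elements -/
noncomputable def el (l : Fin 8) (b : ℕ) : Cl → ZMod p := fun c =>
  if c.2 < d.N c.1 then
    coeff c.2 (d.kap c.1.cusp * d.U c.1.cusp ^ b * d.T c.1.cusp ^ (d.M l - b)
      * d.T c.1.cusp ^ (d.w l) * d.φ l c.1)
  else 0

/-- monomials -/
noncomputable def mo (l : Fin 8) (n : ℕ) : Cl → ZMod p := fun c =>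
  if c.2 < d.N c.1 then
    coeff c.2 (d.kap c.1.cusp * d.U c.1.cusp ^ n * d.V c.1.cusp ^ (d.M l - n)
      * d.T c.1.cusp ^ (d.w l) * d.φ l c.1)
  else 0

lemma mo_eq (l : Fin 8) (n : ℕ) :
    d.mo l n = ∑ j ∈ range (d.M l - n + 1),
      (((-1) ^ j * ((d.M l - n).choose j : ZMod p)) : ZMod p) • d.el l (n + j) := by
  funext c
  rw [Finset.sum_apply]
  simp only [Pi.smul_apply, smul_eq_mul]
  unfold mo el
  by_cases hc : c.2 < d.N c.1
  · simp only [if_pos hc]
    have hV : d.V c.1.cusp = -d.U c.1.cusp + d.T c.1.cusp := by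
      unfold T; ring
    set U := d.U c.1.cusp
    set T := d.T c.1.cusp
    rw [hV, add_pow]
    rw [Finset.mul_sum, Finset.sum_mul, Finset.sum_mul, map_sum]
    refine Finset.sum_congr rfl fun j hj => ?_
    have hj' := Finset.mem_range.1 hj
    rw [← coeff_C_mul]
    congr 1
    have e1 : d.M l - n - j = d.M l - (n + j) := by omega
    rw [e1, map_mul, map_pow, map_neg, map_one, map_natCast]
    rw [neg_pow U j, pow_add U n j]
    ring
  · simp only [if_neg hc, mul_zero, Finset.sum_const_zero]

/-- the class of `U^b T^(M-b)` on the side of `T` -/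
def cp (i : ℕ) : ℕ := (d.D - 1 + (p - i % p)) % p

/-- leading factor of a class -/
noncomputable def rho (c : Fin 4) (i : ℕ) : (ZMod p)⟦X⟧ :=
  d.kap c * d.U c ^ i * d.T c ^ (d.cp i)

lemma exp_mod (l : Fin 8) {b : ℕ} (hb : b < d.Dl l) :
    (d.M l - b + d.w l) % p = d.cp (b % p) := by
  have hp0 := hp.out.pos
  have hD := d.hD
  have h1 : ∃ z : ℕ, d.M l - b + d.w l + b + p * z = d.D - 1 + p := by
    unfold M w Dl at *
    by_cases h6 : l.val < 6
    · have h7 : l.val < 7 := by omega
      simp only [if_pos h6, if_pos h7] at *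
      exact ⟨1, by omega⟩
    · by_cases h7 : l.val = 6
      · have h8 : l.val < 7 := by omega
        simp only [if_neg h6, if_pos h7, if_pos h8] at *
        exact ⟨0, by omega⟩
      · have h8 : ¬ l.val < 7 := by omega
        simp only [if_neg h6, if_neg h7, if_neg h8] at *
        exact ⟨1, by omega⟩
  obtain ⟨z, hz⟩ := h1
  unfold cp
  rw [Nat.mod_mod]
  have hbp : b % p < p := Nat.mod_lt _ hp0
  have h2 : d.D - 1 + (p - b % p) = (d.M l - b + d.w l) + p * (z + b / p) := by
    have h3 := Nat.div_add_mod b p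
    rw [mul_add]
    omega
  rw [h2, Nat.add_mul_mod_self_left]

/-- **a class element is the leading factor of its class times a series in `X^p`** -/
lemma class_form (l : Fin 8) {b : ℕ} (hb : b < d.Dl l) (g : Gp) :
    ∃ ψ : (ZMod p)⟦X⟧, PS p ψ ∧
      d.kap g.cusp * d.U g.cusp ^ b * d.T g.cusp ^ (d.M l - b)
        * d.T g.cusp ^ (d.w l) * d.φ l g = d.rho g.cusp (b % p) * ψ := by
  refine ⟨(d.U g.cusp ^ p) ^ (b / p)
    * (d.T g.cusp ^ p) ^ ((d.M l - b + d.w l) / p) * d.φ l g,
    (((PS_pow_p _).pow _).mul ((PS_pow_p _).pow _)).mul (d.hφ l g), ?_⟩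
  unfold rho
  rw [← d.exp_mod l hb]
  set U := d.U g.cusp
  set T := d.T g.cusp
  have e1 : U ^ b = U ^ (b % p) * (U ^ p) ^ (b / p) := by
    rw [← pow_mul, ← pow_add]; congr 1; exact (Nat.mod_add_div b p).symm
  have e2 : T ^ (d.M l - b) * T ^ (d.w l)
      = T ^ ((d.M l - b + d.w l) % p) * (T ^ p) ^ ((d.M l - b + d.w l) / p) := by
    rw [← pow_mul, ← pow_add, ← pow_add]; congr 1; exact (Nat.mod_add_div _ p).symm
  rw [mul_assoc (d.kap g.cusp * U ^ b), e2, e1]
  ring

lemma cp_lt (i : ℕ) : d.cp i < p := Nat.mod_lt _ hp.out.pos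

lemma cp_mod (i : ℕ) : d.cp (i % p) = d.cp i := by
  unfold cp; rw [Nat.mod_mod]

lemma cp_cp {i : ℕ} (hi : i < p) : d.cp (d.cp i) = i := by
  have h1 := d.cp_lt i
  have hD := d.hD
  unfold cp at h1 ⊢
  rw [Nat.mod_eq_of_lt hi]
  rw [Nat.mod_eq_of_lt hi] at h1
  rw [Nat.mod_mod]
  set a := d.D - 1 + (p - i) with ha
  have h2 := Nat.div_add_mod a p
  have h3 : d.D - 1 + (p - a % p) = i + p * (a / p) := by omega
  rw [h3, Nat.add_mul_mod_self_left, Nat.mod_eq_of_lt hi]

open Classical in
/-- columns of a group at `c0`, `c1`, seen from the class `i` -/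
noncomputable def vecB (g : Gp) (i m : ℕ) : Cl → ZMod p := fun c =>
  if c.1 = g ∧ c.2 < d.N g then coeff c.2 (d.rho g.cusp i * X ^ (p * m)) else 0

open Classical in
/-- columns of a group at `c2`, `c3`, orders below `p J` -/
noncomputable def vecJ (J : Gp → ℕ) (g : Gp) (i m : ℕ) : Cl → ZMod p := fun c =>
  if c.1 = g ∧ c.2 < d.N g ∧ c.2 < p * J g then coeff c.2 (d.rho g.cusp i * X ^ (p * m)) else 0

open Classical in
/-- restriction to one group -/
noncomputable def gr (g : Gp) (f : Cl → ZMod p) : Cl → ZMod p := fun c => if c.1 = g then f c else 0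

/-- the class of a column -/
def cl (g : Gp) (k : ℕ) : ℕ := if g.cusp = 0 then k % p else d.cp k

open Classical in
noncomputable def SA (A : Finset ℕ) : Finset (Cl → ZMod p) :=
  (univ : Finset (Fin 8)).biUnion fun l =>
    ((range (d.Dl l)).filter (fun b => b % p ∈ A)).image (d.el l)

open Classical in
noncomputable def S01 (A : Finset ℕ) : Finset (Cl → ZMod p) :=
  (univ.filter (fun g : Gp => g.cusp = 0 ∨ g.cusp = 1)).biUnion fun g =>
    ((range (d.N g)).filter (fun k => d.cl g k ∉ A)).image (fun k => d.vecB g (d.cl g k) (k / p))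

open Classical in
noncomputable def SJ (A : Finset ℕ) (J : Gp → ℕ) : Finset (Cl → ZMod p) :=
  (univ.filter (fun g : Gp => ¬ (g.cusp = 0 ∨ g.cusp = 1))).biUnion fun g =>
    (((range p).filter (fun i => i ∉ A)) ×ˢ range (J g)).image (fun x => d.vecJ J g x.1 x.2)

open Classical in
noncomputable def SR (J : Gp → ℕ) : Finset (Cl → ZMod p) :=
  (univ.filter (fun g : Gp => ¬ (g.cusp = 0 ∨ g.cusp = 1))).biUnion fun g =>
    ((range (d.N g)).filter (fun k => p * J g ≤ k)).image (fun k => Pi.single (g, k) (1 : ZMod p))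

open Classical in
/-- the generators -/
noncomputable def SS (A : Finset ℕ) (J : Gp → ℕ) : Finset (Cl → ZMod p) :=
  d.SA A ∪ d.S01 A ∪ d.SJ A J ∪ SR d J

/-- the space -/
noncomputable def VV (A : Finset ℕ) (J : Gp → ℕ) : Submodule (ZMod p) (Cl → ZMod p) :=
  Submodule.span (ZMod p) (d.SS A J : Set (Cl → ZMod p))

lemma gr_sum (f : Cl → ZMod p) : ∑ g : Gp, gr g f = f := by
  classical
  funext c
  rw [Finset.sum_apply]
  unfold gr
  rw [Finset.sum_eq_single c.1]
  · simp
  · intro g _ hg
    rw [if_neg (fun h => hg h.symm)]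
  · intro h; exact absurd (Finset.mem_univ _) h

lemma dvd_rho0 (i : ℕ) : (X : (ZMod p)⟦X⟧) ^ i ∣ d.rho 0 i := by
  unfold rho
  rw [mul_comm (d.kap 0), mul_assoc]
  exact dvd_mul_of_dvd_left (pow_dvd_pow_of_dvd d.hU i) _

lemma dvd_rho1 (i : ℕ) : (X : (ZMod p)⟦X⟧) ^ (d.cp i) ∣ d.rho 1 i := by
  unfold rho
  exact dvd_mul_of_dvd_right (pow_dvd_pow_of_dvd d.hT _) _

variable (A : Finset ℕ) (J : Gp → ℕ)

lemma vecB_mem {g : Gp} (hg : g.cusp = 0 ∨ g.cusp = 1) {i : ℕ} (hi : i < p) (hA : i ∉ A) (m : ℕ) :
    d.vecB g i m ∈ d.VV A J := by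
  classical
  -- the leading order
  set e := (if g.cusp = 0 then i else d.cp i) with he
  have hep : e < p := by
    rw [he]; split_ifs
    · exact hi
    · exact d.cp_lt i
  have hdvd : (X : (ZMod p)⟦X⟧) ^ (e + p * m) ∣ d.rho g.cusp i * X ^ (p * m) := by
    rw [pow_add]
    refine mul_dvd_mul_right ?_ _
    rcases hg with h | h
    · rw [he, if_pos h, h]; exact d.dvd_rho0 i
    · have h0 : ¬ g.cusp = 0 := by rw [h]; decide
      rw [he, if_neg h0, h]; exact d.dvd_rho1 i
  by_cases hN : e + p * m < d.N g
  · apply Submodule.subset_span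
    apply Finset.mem_coe.2
    unfold SS
    refine Finset.mem_union_left _ (Finset.mem_union_left _ (Finset.mem_union_right _ ?_))
    unfold S01
    rw [Finset.mem_biUnion]
    refine ⟨g, Finset.mem_filter.2 ⟨Finset.mem_univ _, hg⟩, ?_⟩
    rw [Finset.mem_image]
    have hmod : (e + p * m) % p = e := by
      rw [Nat.add_mul_mod_self_left, Nat.mod_eq_of_lt hep]
    have hdiv : (e + p * m) / p = m := by
      rw [Nat.add_mul_div_left _ _ hp.out.pos, Nat.div_eq_of_lt hep, zero_add]
    have hcl : d.cl g (e + p * m) = i := by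
      unfold cl
      rcases hg with h | h
      · rw [if_pos h, hmod, he, if_pos h]
      · have h0 : ¬ g.cusp = 0 := by rw [h]; decide
        rw [if_neg h0, ← d.cp_mod, hmod, he, if_neg h0, d.cp_cp hi]
    refine ⟨e + p * m, Finset.mem_filter.2 ⟨Finset.mem_range.2 hN, by rwa [hcl]⟩, ?_⟩
    rw [hcl, hdiv]
  · have : d.vecB g i m = 0 := by
      funext c
      unfold vecB
      split_ifs with h
      · exact (X_pow_dvd_iff.1 hdvd) _ (by omega)
      · rfl
    rw [this]
    exact Submodule.zero_mem _

lemma vecJ_mem {g : Gp} (hg : ¬ (g.cusp = 0 ∨ g.cusp = 1)) {i : ℕ} (hi : i < p) (hA : i ∉ A)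
    {m : ℕ} (hm : m < J g) : d.vecJ J g i m ∈ d.VV A J := by
  classical
  apply Submodule.subset_span
  apply Finset.mem_coe.2
  unfold SS
  refine Finset.mem_union_left _ (Finset.mem_union_right _ ?_)
  unfold SJ
  rw [Finset.mem_biUnion]
  refine ⟨g, Finset.mem_filter.2 ⟨Finset.mem_univ _, hg⟩, ?_⟩
  rw [Finset.mem_image]
  exact ⟨(i, m), Finset.mem_product.2 ⟨Finset.mem_filter.2 ⟨Finset.mem_range.2 hi, hA⟩,
    Finset.mem_range.2 hm⟩, rfl⟩

lemma single_mem {g : Gp} (hg : ¬ (g.cusp = 0 ∨ g.cusp = 1)) {k : ℕ} (hk : k < d.N g)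
    (hJ : p * J g ≤ k) (z : ZMod p) : (Pi.single (g, k) z : Cl → ZMod p) ∈ d.VV A J := by
  classical
  have h1 : (Pi.single (g, k) z : Cl → ZMod p) = z • Pi.single (g, k) (1 : ZMod p) := by
    rw [← Pi.single_smul, smul_eq_mul, mul_one]
  rw [h1]
  apply Submodule.smul_mem
  apply Submodule.subset_span
  apply Finset.mem_coe.2
  unfold SS
  refine Finset.mem_union_right _ ?_
  unfold SR
  rw [Finset.mem_biUnion]
  refine ⟨g, Finset.mem_filter.2 ⟨Finset.mem_univ _, hg⟩, ?_⟩
  rw [Finset.mem_image]
  exact ⟨k, Finset.mem_filter.2 ⟨Finset.mem_range.2 hk, hJ⟩, rfl⟩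

/-- **every class element is in the space** -/
lemma el_mem (l : Fin 8) {b : ℕ} (hb : b < d.Dl l) : d.el l b ∈ d.VV A J := by
  classical
  by_cases hA : b % p ∈ A
  · apply Submodule.subset_span
    apply Finset.mem_coe.2
    unfold SS
    refine Finset.mem_union_left _ (Finset.mem_union_left _ (Finset.mem_union_left _ ?_))
    unfold SA
    rw [Finset.mem_biUnion]
    refine ⟨l, Finset.mem_univ _, ?_⟩
    rw [Finset.mem_image]
    exact ⟨b, Finset.mem_filter.2 ⟨Finset.mem_range.2 hb, hA⟩, rfl⟩
  · have hi : b % p < p := Nat.mod_lt _ hp.out.pos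
    rw [← gr_sum (d.el l b)]
    refine Submodule.sum_mem _ fun g _ => ?_
    obtain ⟨ψ, hψ, hform⟩ := d.class_form l hb g
    have hp1 := hp.out.pos
    by_cases hg : g.cusp = 0 ∨ g.cusp = 1
    · have h1 : gr g (d.el l b) = ∑ m ∈ range (d.N g + 1), coeff (p * m) ψ • d.vecB g (b % p) m := by
        funext c
        rw [Finset.sum_apply]
        simp only [Pi.smul_apply, smul_eq_mul]
        unfold gr vecB el
        by_cases hc : c.1 = g
        · by_cases hN : c.2 < d.N g
          · have hN' : c.2 < d.N c.1 := by rw [hc]; exact hN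
            simp only [hc, hN, if_true, true_and]
            rw [hform]
            exact coeff_mul_PS _ hψ (by nlinarith)
          · have hN' : ¬ c.2 < d.N c.1 := by rw [hc]; exact hN
            simp only [hc, hN, if_true, if_false, and_false, mul_zero, Finset.sum_const_zero]
        · simp only [hc, if_false, false_and, mul_zero, Finset.sum_const_zero]
      rw [h1]
      exact Submodule.sum_mem _ fun m _ => Submodule.smul_mem _ _ (d.vecB_mem A J hg hi hA m)
    · have h1 : gr g (d.el l b) = ∑ m ∈ range (J g), coeff (p * m) ψ • d.vecJ J g (b % p) m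
          + ∑ k ∈ (range (d.N g)).filter (fun k => p * J g ≤ k),
            (Pi.single (g, k) (d.el l b (g, k)) : Cl → ZMod p) := by
        funext c
        rw [Pi.add_apply, Finset.sum_apply, Finset.sum_apply]
        simp only [Pi.smul_apply, smul_eq_mul]
        unfold gr vecJ
        by_cases hc : c.1 = g
        · obtain ⟨g', k⟩ := c
          simp only at hc
          subst hc
          by_cases hN : k < d.N g'
          · by_cases hJ : k < p * J g'
            · have h2 : ∑ k' ∈ (range (d.N g')).filter (fun k => p * J g' ≤ k),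
                  (Pi.single (g', k') (d.el l b (g', k')) : Cl → ZMod p) (g', k) = 0 := by
                refine Finset.sum_eq_zero fun k' hk' => ?_
                have := (Finset.mem_filter.1 hk').2
                rw [Pi.single_apply, if_neg]
                intro h
                have := (Prod.ext_iff.1 h).2
                simp only at this
                omega
              rw [h2, add_zero]
              simp only [hN, hJ, if_true, true_and]
              unfold el
              simp only [hN, if_true]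
              rw [hform]
              exact coeff_mul_PS _ hψ hJ
            · have h2 : ∑ k' ∈ (range (d.N g')).filter (fun k => p * J g' ≤ k),
                  (Pi.single (g', k') (d.el l b (g', k')) : Cl → ZMod p) (g', k)
                  = d.el l b (g', k) := by
                rw [Finset.sum_eq_single k]
                · rw [Pi.single_eq_same]
                · intro k' _ hk'
                  rw [Pi.single_apply, if_neg]
                  intro h
                  exact hk' (Prod.ext_iff.1 h).2.symm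
                · intro h
                  exact absurd (Finset.mem_filter.2 ⟨Finset.mem_range.2 hN, by omega⟩) h
              rw [h2]
              simp only [hJ, if_true, if_false, and_false, mul_zero, Finset.sum_const_zero,
                zero_add]
          · have h2 : ∑ k' ∈ (range (d.N g')).filter (fun k => p * J g' ≤ k),
                  (Pi.single (g', k') (d.el l b (g', k')) : Cl → ZMod p) (g', k) = 0 := by
              refine Finset.sum_eq_zero fun k' hk' => ?_
              have := Finset.mem_range.1 (Finset.mem_filter.1 hk').1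
              rw [Pi.single_apply, if_neg]
              intro h
              have := (Prod.ext_iff.1 h).2
              simp only at this
              omega
            rw [h2, add_zero]
            simp only [hN, if_true, if_false, false_and, and_false, mul_zero,
              Finset.sum_const_zero]
            unfold el
            simp only [hN, if_false]
        · simp only [hc, if_false, false_and, mul_zero, Finset.sum_const_zero, zero_add]
          symm
          refine Finset.sum_eq_zero fun k' _ => ?_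
          rw [Pi.single_apply, if_neg]
          intro h
          exact hc (by rw [h])
      rw [h1]
      refine Submodule.add_mem _ (Submodule.sum_mem _ fun m hm => Submodule.smul_mem _ _
        (d.vecJ_mem A J hg hi hA (Finset.mem_range.1 hm))) (Submodule.sum_mem _ fun k hk => ?_)
      have := Finset.mem_filter.1 hk
      exact d.single_mem A J hg (Finset.mem_range.1 this.1) this.2 _

/-- monomials are in the space -/
lemma mo_mem (l : Fin 8) (hl : l.val = 7 → p ≤ d.D) {n : ℕ} (hn : n ≤ d.M l) :
    d.mo l n ∈ d.VV A J := by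
  rw [d.mo_eq]
  refine Submodule.sum_mem _ fun j hj => Submodule.smul_mem _ _ (d.el_mem A J l ?_)
  have hj' := Finset.mem_range.1 hj
  have hD := d.hD
  unfold M at hj' hn
  unfold Dl
  split_ifs at hj' hn ⊢ with h1 h2
  · omega
  · omega
  · have := hl (by omega)
    omega

instance : FiniteDimensional (ZMod p) (d.VV A J) := by
  unfold VV; infer_instance

/-- the bound of the rank -/
noncomputable def cnt : ℕ :=
  ∑ l : Fin 8, ((range (d.Dl l)).filter (fun b => b % p ∈ A)).card
    + ∑ g ∈ univ.filter (fun g : Gp => g.cusp = 0 ∨ g.cusp = 1),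
        ((range (d.N g)).filter (fun k => d.cl g k ∉ A)).card
    + ∑ g ∈ univ.filter (fun g : Gp => ¬ (g.cusp = 0 ∨ g.cusp = 1)),
        ((range p).filter (fun i => i ∉ A)).card * J g
    + ∑ g ∈ univ.filter (fun g : Gp => ¬ (g.cusp = 0 ∨ g.cusp = 1)),
        ((range (d.N g)).filter (fun k => p * J g ≤ k)).card

theorem finrank_VV_le : Module.finrank (ZMod p) (d.VV A J) ≤ d.cnt A J := by
  classical
  refine (finrank_span_finset_le_card _).trans ?_
  unfold SS cnt
  refine (card_union_le _ _).trans (Nat.add_le_add ((card_union_le _ _).trans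
    (Nat.add_le_add ((card_union_le _ _).trans (Nat.add_le_add ?_ ?_)) ?_)) ?_)
  · unfold SA
    exact card_biUnion_le.trans (Finset.sum_le_sum fun l _ => card_image_le)
  · unfold S01
    exact card_biUnion_le.trans (Finset.sum_le_sum fun g _ => card_image_le)
  · unfold SJ
    refine card_biUnion_le.trans (Finset.sum_le_sum fun g _ => card_image_le.trans ?_)
    rw [card_product, card_range]
  · unfold SR
    exact card_biUnion_le.trans (Finset.sum_le_sum fun g _ => card_image_le)

/-- a function which vanishes outside the free columns is in the space -/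
lemma rest_mem {f : Cl → ZMod p} (hf : ∀ c : Cl, f c ≠ 0 →
    ¬ (c.1.cusp = 0 ∨ c.1.cusp = 1) ∧ c.2 < d.N c.1 ∧ p * J c.1 ≤ c.2) : f ∈ d.VV A J := by
  classical
  have h1 : f = ∑ g : Gp, ∑ k ∈ range (d.N g), (Pi.single (g, k) (f (g, k)) : Cl → ZMod p) := by
    funext c
    rw [Finset.sum_apply, Finset.sum_eq_single c.1]
    · rw [Finset.sum_apply]
      by_cases hc : c.2 < d.N c.1
      · rw [Finset.sum_eq_single c.2]
        · simp
        · intro k _ hk
          rw [Pi.single_apply, if_neg]
          intro h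
          exact hk (Prod.ext_iff.1 h).2.symm
        · intro h; exact absurd (Finset.mem_range.2 hc) h
      · have h0 : f c = 0 := by
          by_contra h
          exact hc (hf c h).2.1
        rw [h0]
        symm
        refine Finset.sum_eq_zero fun k hk => ?_
        rw [Pi.single_apply, if_neg]
        intro h
        have h3 := (Prod.ext_iff.1 h).2
        simp only at h3
        exact hc (by rw [h3]; exact Finset.mem_range.1 hk)
    · intro g _ hg
      rw [Finset.sum_apply]
      refine Finset.sum_eq_zero fun k _ => ?_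
      rw [Pi.single_apply, if_neg]
      intro h
      exact hg (Prod.ext_iff.1 h).1.symm
    · intro h; exact absurd (Finset.mem_univ _) h
  rw [h1]
  refine Submodule.sum_mem _ fun g _ => Submodule.sum_mem _ fun k _ => ?_
  by_cases h0 : f (g, k) = 0
  · rw [h0, Pi.single_zero]; exact Submodule.zero_mem _
  · obtain ⟨a1, a2, a3⟩ := hf _ h0
    exact d.single_mem A J a1 a2 a3 _

end CD

end Vale.Agent.P030.H641
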