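import Vale.Agent.P030.H641.Adapt

/-!
# P030, odd primes: the class count as a sum of weights of classes

For every `J`, the gain is `Σ_{i<p} max (wt i) 0` minus a penalty; lower bounds of this sum come
from finitely many intervals of classes.
-/

open Finset

namespace Vale.Agent.P030.H641

open Vale.Agent.P030.T Vale.Agent.P030.H792

lemma card_mem_sum {n : ℕ} (A : Finset ℕ) (f : ℕ → ℕ) :
    ((range n).filter (fun b => f b ∈ A)).card
      = ∑ i ∈ A, ((range n).filter (fun b => f b = i)).card := by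
  refine (Finset.card_eq_sum_card_fiberwise (f := f)
    (s := (range n).filter (fun b => f b ∈ A)) (t := A)
    (fun b hb => (mem_filter.1 hb).2)).trans ?_
  refine Finset.sum_congr rfl fun i hi => ?_
  congr 1
  ext b
  simp only [mem_filter]
  constructor
  · rintro ⟨⟨h1, _⟩, h3⟩
    exact ⟨h1, h3⟩
  · rintro ⟨h1, h3⟩
    exact ⟨⟨h1, by rw [h3]; exact hi⟩, h3⟩

lemma card_not_mem_sum {n : ℕ} (A : Finset ℕ) (f : ℕ → ℕ) :
    (((range n).filter (fun b => f b ∉ A)).card : ℤ)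
      = n - ∑ i ∈ A, (((range n).filter (fun b => f b = i)).card : ℤ) := by
  have h1 := Finset.card_filter_add_card_filter_not (s := range n) (fun b => f b ∈ A)
  rw [card_range, card_mem_sum] at h1
  have h2 : ((∑ i ∈ A, ((range n).filter (fun b => f b = i)).card : ℕ) : ℤ)
      = ∑ i ∈ A, (((range n).filter (fun b => f b = i)).card : ℤ) := by push_cast; rfl
  rw [← h2]
  omega

variable {p : ℕ} [hp : Fact p.Prime]

namespace CD

variable (d : CD p) {A : Finset ℕ}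

/-- the weight of a class: columns minus rows -/
noncomputable def wt (J : Gp → ℕ) (i : ℕ) : ℤ :=
  (∑ g ∈ univ.filter (fun g : Gp => g.cusp = 0 ∨ g.cusp = 1),
      (((range (d.N g)).filter (fun k => d.cl g k = i)).card : ℤ))
    + (∑ g ∈ univ.filter (fun g : Gp => ¬ (g.cusp = 0 ∨ g.cusp = 1)), (J g : ℤ))
    - ∑ l : Fin 8, (((range (d.Dl l)).filter (fun b => b % p = i)).card : ℤ)

/-- the count for the optimal set of classes -/
theorem cnt_eq (J : Gp → ℕ) :
    (d.cnt ((range p).filter (fun i => 0 < d.wt J i)) J : ℤ)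
      = (∑ g ∈ univ.filter (fun g : Gp => g.cusp = 0 ∨ g.cusp = 1), (d.N g : ℤ))
        + (p : ℤ) * (∑ g ∈ univ.filter (fun g : Gp => ¬ (g.cusp = 0 ∨ g.cusp = 1)), (J g : ℤ))
        + (∑ g ∈ univ.filter (fun g : Gp => ¬ (g.cusp = 0 ∨ g.cusp = 1)),
            ((d.N g - p * J g : ℕ) : ℤ))
        - ∑ i ∈ range p, max (d.wt J i) 0 := by
  set A := (range p).filter (fun i => 0 < d.wt J i) with hA
  have hmax : ∑ i ∈ range p, max (d.wt J i) 0 = ∑ i ∈ A, d.wt J i := by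
    rw [hA, Finset.sum_filter]
    refine Finset.sum_congr rfl fun i _ => ?_
    split_ifs with h
    · exact max_eq_left h.le
    · exact max_eq_right (not_lt.1 h)
  have hall : (((range p).filter (fun i => i ∉ A)).card : ℤ) = p - A.card := by
    have h4 := Finset.card_filter_add_card_filter_not (s := range p) (fun k => k ∈ A)
    rw [card_range] at h4
    have h5 : (range p).filter (fun k => k ∈ A) = A := by
      ext i
      rw [mem_filter]
      exact ⟨fun h => h.2, fun h => ⟨(mem_filter.1 h).1, h⟩⟩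
    rw [h5] at h4
    omega
  have hJ : (∑ i ∈ A, ∑ g ∈ univ.filter (fun g : Gp => ¬ (g.cusp = 0 ∨ g.cusp = 1)), (J g : ℤ))
      = A.card * ∑ g ∈ univ.filter (fun g : Gp => ¬ (g.cusp = 0 ∨ g.cusp = 1)), (J g : ℤ) := by
    rw [Finset.sum_const, nsmul_eq_mul]
  have e1 : (((∑ l : Fin 8, ((range (d.Dl l)).filter (fun b => b % p ∈ A)).card : ℕ) : ℤ))
      = ∑ i ∈ A, ∑ l : Fin 8, (((range (d.Dl l)).filter (fun b => b % p = i)).card : ℤ) := by
    rw [Finset.sum_comm]
    push_cast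
    refine Finset.sum_congr rfl fun l _ => ?_
    rw [card_mem_sum]
    push_cast
    rfl
  have e2 : (((∑ g ∈ univ.filter (fun g : Gp => g.cusp = 0 ∨ g.cusp = 1),
        ((range (d.N g)).filter (fun k => d.cl g k ∉ A)).card : ℕ) : ℤ))
      = (∑ g ∈ univ.filter (fun g : Gp => g.cusp = 0 ∨ g.cusp = 1), (d.N g : ℤ))
        - ∑ i ∈ A, ∑ g ∈ univ.filter (fun g : Gp => g.cusp = 0 ∨ g.cusp = 1),
          (((range (d.N g)).filter (fun k => d.cl g k = i)).card : ℤ) := by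
    rw [Finset.sum_comm (s := A), ← Finset.sum_sub_distrib]
    push_cast
    refine Finset.sum_congr rfl fun g _ => ?_
    exact card_not_mem_sum A (d.cl g)
  have e3 : (((∑ g ∈ univ.filter (fun g : Gp => ¬ (g.cusp = 0 ∨ g.cusp = 1)),
        ((range p).filter (fun i => i ∉ A)).card * J g : ℕ) : ℤ))
      = (p - A.card) * ∑ g ∈ univ.filter (fun g : Gp => ¬ (g.cusp = 0 ∨ g.cusp = 1)),
          (J g : ℤ) := by
    push_cast
    rw [← Finset.mul_sum, hall]
  have e4 : (((∑ g ∈ univ.filter (fun g : Gp => ¬ (g.cusp = 0 ∨ g.cusp = 1)),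
        ((range (d.N g)).filter (fun k => p * J g ≤ k)).card : ℕ) : ℤ))
      = ∑ g ∈ univ.filter (fun g : Gp => ¬ (g.cusp = 0 ∨ g.cusp = 1)),
          ((d.N g - p * J g : ℕ) : ℤ) := by
    rw [Nat.cast_sum]
    refine Finset.sum_congr rfl fun g _ => ?_
    rw [card_rest]
  unfold cnt
  rw [Nat.cast_add, Nat.cast_add, Nat.cast_add, e1, e2, e3, e4, hmax]
  unfold wt
  rw [Finset.sum_sub_distrib, Finset.sum_add_distrib, hJ]
  ring

lemma sum_c01' (f : Gp → ℤ) : ∑ g ∈ univ.filter (fun g : Gp => g.cusp = 0 ∨ g.cusp = 1), f g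
    = f .z1 + f .zl + f .z8 + f .zab + f .w1 + f .wl + f .wy + f .w8 + f .wab + f .wf7 := by
  have : univ.filter (fun g : Gp => g.cusp = 0 ∨ g.cusp = 1)
      = {.z1, .zl, .z8, .zab, .w1, .wl, .wy, .w8, .wab, .wf7} := by decide
  rw [this]
  repeat rw [Finset.sum_insert (by decide)]
  rw [Finset.sum_singleton]
  ring

lemma sum_c23' (f : Gp → ℤ) : ∑ g ∈ univ.filter (fun g : Gp => ¬ (g.cusp = 0 ∨ g.cusp = 1)), f g
    = f .v2 + f .vl + f .v8 + f .vb + f .x2 + f .xl + f .x1 := by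
  have : univ.filter (fun g : Gp => ¬ (g.cusp = 0 ∨ g.cusp = 1))
      = {.v2, .vl, .v8, .vb, .x2, .xl, .x1} := by decide
  rw [this]
  repeat rw [Finset.sum_insert (by decide)]
  rw [Finset.sum_singleton]
  ring

/-- columns of one class at `c0`, `c1` -/
lemma cols_ge (g : Gp) {i m : ℕ} (hi : i < p) (h : ∀ t < m, d.lo g i + p * t < d.N g) :
    m ≤ ((range (d.N g)).filter (fun k => d.cl g k = i)).card := by
  have h1 := d.cols_le (A := {i}) (fun j hj => by rw [mem_singleton.1 hj]; exact hi) g (m := m)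
    (fun j hj => by rw [mem_singleton.1 hj]; exact h)
  have h2 := Finset.card_filter_add_card_filter_not (s := range (d.N g)) (fun k => d.cl g k = i)
  rw [card_range] at h2
  simp only [mem_singleton, card_singleton, mul_one] at h1
  have h3 : (range (d.N g)).filter (fun k => ¬ d.cl g k = i)
      = (range (d.N g)).filter (fun k => ¬ (d.cl g k = i)) := rfl
  omega

/-- rows of one class -/
lemma rows_one {i m : ℕ} (h : d.D + 1 ≤ i + p * (m + 1)) :
    ∑ l : Fin 8, ((range (d.Dl l)).filter (fun b => b % p = i)).card ≤ 8 * (m + 1) := by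
  have h1 := d.rows_le (A := {i}) (m := m) (fun j hj => by rw [mem_singleton.1 hj]; exact h)
  simp only [mem_singleton, card_singleton, mul_one] at h1
  exact h1

/-- the weight of one class for design A: `r` rows, `m`, `m'`, `n`, `n'` columns of the groups of
heights `32 s`, `4 s` (at `c0`), `32 s`, `2 s` (at `c1`) -/
theorem wt_ge {s c0 : ℕ} (hD : d.D = 27 * s) (hN : ∀ g, d.N g = H579.parA.ht g * s + c0)
    (hpD : p ≤ 27 * s) (J : Gp → ℕ) {i : ℕ} (r m m' n n' : ℕ) (hi : i < p)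
    (h1 : 27 * s + 1 ≤ i + p * r) (h2 : i + p * r + 1 ≤ 27 * s + p)
    (h3 : i + p * m < 32 * s + p) (h4 : i + p * m' < 4 * s + p)
    (h5 : 27 * s + p * n < 32 * s + 1 + i + p * r)
    (h6 : 27 * s + p * n' < 2 * s + 1 + i + p * r) :
    (2 * m + 2 * m' + 3 * n + 3 * n' : ℤ) + (J .v2 + J .vl + J .v8 + J .vb + J .x2 + J .xl + J .x1)
      - 8 * r ≤ d.wt J i := by
  have hp0 := hp.out.pos
  obtain ⟨r, rfl⟩ : ∃ r', r = r' + 1 := by
    rcases r with _ | r
    · rw [mul_zero] at h1; omega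
    · exact ⟨r, rfl⟩
  have er : p * (r + 1) = p * r + p := by ring
  have hcp : d.cp i + p * (r + 1) + i + 1 = 27 * s + p := by
    unfold cp
    rw [Nat.mod_eq_of_lt hi, hD]
    have e1 : 27 * s - 1 + (p - i) = (27 * s - 1 - i - p * r) + p * (r + 1) := by omega
    rw [e1, Nat.add_mul_mod_self_left, Nat.mod_eq_of_lt (by omega)]
    omega
  have c0' : ∀ g : Gp, g.cusp = 0 → ∀ m : ℕ, i + p * m < d.N g + p →
      m ≤ ((range (d.N g)).filter (fun k => d.cl g k = i)).card := by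
    intro g hg m hm
    refine d.cols_ge g hi fun t ht => ?_
    unfold lo
    rw [if_pos hg]
    have h7 : p * (t + 1) ≤ p * m := Nat.mul_le_mul_left p ht
    have h8 : p * (t + 1) = p * t + p := by ring
    omega
  have c1' : ∀ g : Gp, g.cusp = 1 → ∀ m : ℕ, 27 * s + p * m < d.N g + 1 + i + p * (r + 1) →
      m ≤ ((range (d.N g)).filter (fun k => d.cl g k = i)).card := by
    intro g hg m hm
    refine d.cols_ge g hi fun t ht => ?_
    unfold lo
    rw [if_neg (by rw [hg]; decide)]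
    have h7 : p * (t + 1) ≤ p * m := Nat.mul_le_mul_left p ht
    have h8 : p * (t + 1) = p * t + p := by ring
    omega
  have n1 : d.N .z1 = 32 * s + c0 := hN .z1
  have n2 : d.N .zl = 32 * s + c0 := hN .zl
  have n3 : d.N .w1 = 32 * s + c0 := hN .w1
  have n4 : d.N .wl = 32 * s + c0 := hN .wl
  have n5 : d.N .wy = 32 * s + c0 := hN .wy
  have n6 : d.N .z8 = 4 * s + c0 := hN .z8
  have n7 : d.N .zab = 4 * s + c0 := hN .zab
  have n8 : d.N .w8 = 2 * s + c0 := hN .w8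
  have n9 : d.N .wab = 2 * s + c0 := hN .wab
  have n10 : d.N .wf7 = 2 * s + c0 := hN .wf7
  have b1 := c0' .z1 rfl m (by omega)
  have b2 := c0' .zl rfl m (by omega)
  have b3 := c0' .z8 rfl m' (by omega)
  have b4 := c0' .zab rfl m' (by omega)
  have b5 := c1' .w1 rfl n (by omega)
  have b6 := c1' .wl rfl n (by omega)
  have b7 := c1' .wy rfl n (by omega)
  have b8 := c1' .w8 rfl n' (by omega)
  have b9 := c1' .wab rfl n' (by omega)
  have b10 := c1' .wf7 rfl n' (by omega)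
  have hr := d.rows_one (i := i) (m := r) (by rw [hD]; omega)
  have hr' : ∑ l : Fin 8, (((range (d.Dl l)).filter (fun b => b % p = i)).card : ℤ)
      ≤ 8 * ((r : ℤ) + 1) := by exact_mod_cast hr
  unfold wt
  rw [sum_c01', sum_c23']
  push_cast
  have k := fun (a b : ℕ) (h : a ≤ b) => (Nat.cast_le (α := ℤ)).2 h
  have q1 := k _ _ b1
  have q2 := k _ _ b2
  have q3 := k _ _ b3
  have q4 := k _ _ b4
  have q5 := k _ _ b5
  have q6 := k _ _ b6
  have q7 := k _ _ b7
  have q8 := k _ _ b8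
  have q9 := k _ _ b9
  have q10 := k _ _ b10
  linarith

end CD

/-! ### sums over intervals -/

/-- `f` is at least `w` on the interval `[a, b)` for each entry `(a, b, w)`, ordered intervals -/
def Pcs (f : ℕ → ℤ) (n : ℕ) : ℕ → List (ℕ × ℕ × ℤ) → Prop
  | c, [] => c ≤ n
  | c, e :: L => c ≤ e.1 ∧ e.1 ≤ e.2.1 ∧ (∀ i, e.1 ≤ i → i < e.2.1 → e.2.2 ≤ f i) ∧
      Pcs f n e.2.1 L

/-- the lower bound -/
def pcv : List (ℕ × ℕ × ℤ) → ℤ
  | [] => 0
  | e :: L => e.2.2 * ((e.2.1 : ℤ) - e.1) + pcv L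

lemma Pcs.le {f : ℕ → ℤ} {n : ℕ} {L : List (ℕ × ℕ × ℤ)} : ∀ {c : ℕ}, Pcs f n c L → c ≤ n := by
  induction L with
  | nil => intro c h; exact h
  | cons e L ih => intro c h; exact h.1.trans (h.2.1.trans (ih h.2.2.2))

theorem pcv_le {f : ℕ → ℤ} (hf : ∀ i, 0 ≤ f i) {n : ℕ} {L : List (ℕ × ℕ × ℤ)} :
    ∀ {c : ℕ}, Pcs f n c L → pcv L ≤ ∑ i ∈ Ico c n, f i := by
  induction L with
  | nil =>
    intro c _
    exact Finset.sum_nonneg fun i _ => hf i
  | cons e L ih =>
    intro c h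
    obtain ⟨h1, h2, h3, h4⟩ := h
    have h5 := h4.le
    rw [← Finset.sum_Ico_consecutive f h1 (h2.trans h5), ← Finset.sum_Ico_consecutive f h2 h5]
    have h6 : 0 ≤ ∑ i ∈ Ico c e.1, f i := Finset.sum_nonneg fun i _ => hf i
    have h7 : e.2.2 * ((e.2.1 : ℤ) - e.1) ≤ ∑ i ∈ Ico e.1 e.2.1, f i := by
      have h8 : ∑ i ∈ Ico e.1 e.2.1, e.2.2 ≤ ∑ i ∈ Ico e.1 e.2.1, f i :=
        Finset.sum_le_sum fun i hi => h3 i (mem_Ico.1 hi).1 (mem_Ico.1 hi).2
      rw [Finset.sum_const, Nat.card_Ico, nsmul_eq_mul, Nat.cast_sub h2] at h8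
      linarith
    have h9 := ih h4
    unfold pcv
    linarith

/-! ### the bound at one prime, and the local range -/

/-- the reductions at all orders, for all primes -/
def RedFull (c0 : ℕ) : Prop :=
  ∀ (p : ℕ) [Fact p.Prime], 5 ≤ p → ∀ (s : ℕ) (x : ℚ), padicNorm p x ≤ 1 → p ≤ 27 * s →
    32 * s + c0 + 2 ≤ p ^ 2 → RedA p s c0 x (fun g => H579.parA.ht g * s + c0)

theorem le_val_gain {s c0 : ℕ} (hp5 : 5 ≤ p) {x : ℚ} (hx : padicNorm p x ≤ 1)
    (hN : 32 * s + c0 + 2 ≤ p ^ 2) (hpD : p ≤ 27 * s)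
    {σ : Fin (H579.parA.D0 * s) × Fin 8 → Cl} (hσ : Adm H579.parA c0 s σ)
    (hdet : (Mx (H579.parA.D0 * s) x σ).det ≠ 0)
    (hR : RedA p s c0 x (fun g => H579.parA.ht g * s + c0)) (J : Gp → ℕ) {G : ℤ}
    (hG : ∀ d : CD p, d.D = 27 * s → (∀ g, d.N g = H579.parA.ht g * s + c0) →
      G ≤ ∑ i ∈ range p, max (d.wt J i) 0) :
    42 * (s : ℤ) - p * (J .v2 + J .vl + J .v8 + J .vb + J .x2 + J .xl + J .x1 : ℤ)
      - (((12 * s + c0 - p * J .v2 : ℕ) : ℤ) + ((4 * s + c0 - p * J .vl : ℕ) : ℤ)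
        + ((4 * s + c0 - p * J .v8 : ℕ) : ℤ) + ((4 * s + c0 - p * J .vb : ℕ) : ℤ)
        + ((10 * s + c0 - p * J .x2 : ℕ) : ℤ) + ((4 * s + c0 - p * J .xl : ℕ) : ℤ)
        + ((4 * s + c0 - p * J .x1 : ℕ) : ℤ)) + G - (65 * s + p) - 18 * c0
      ≤ padicValRat p (Mx (H579.parA.D0 * s) x σ).det := by
  obtain ⟨d, h, ent, hdD, hdN, hE, hent⟩ := hR
  have hdD' : d.D = 27 * s := hdD
  set A := (range p).filter (fun i => 0 < d.wt J i) with hA
  have hN' : ∀ g, H579.parA.ht g * s + c0 + 2 ≤ p ^ 2 := by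
    intro g
    have h1 : H579.parA.ht g ≤ 32 := by cases g <;> decide
    have h2 := Nat.mul_le_mul_right s h1
    omega
  have h6 := le_val_of_count hσ hdet (latRow_int hp5 hx hN') d hdD hdN hE hent A J
    (fun g k hk _ => by rw [← hdN]; exact hk)
  have h7 := sum_wg_A hσ
  have h8 := latIdx_B (p := p) (D := H579.parA.D0 * s) (by omega) (by
    have : H579.parA.D0 = 27 := rfl
    rw [this]; omega)
  rw [h8] at h6
  have hD : ((H579.parA.D0 * s : ℕ) : ℤ) = 27 * s := by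
    have : H579.parA.D0 = 27 := rfl
    rw [this]; push_cast; ring
  rw [hD] at h6
  have h9 := hG d hdD' hdN
  have h10 := d.cnt_eq J
  rw [← hA] at h10
  rw [CD.sum_c01', CD.sum_c23', CD.sum_c23'] at h10
  have n1 : d.N .z1 = 32 * s + c0 := hdN .z1
  have n2 : d.N .zl = 32 * s + c0 := hdN .zl
  have n3 : d.N .w1 = 32 * s + c0 := hdN .w1
  have n4 : d.N .wl = 32 * s + c0 := hdN .wl
  have n5 : d.N .wy = 32 * s + c0 := hdN .wy
  have n6 : d.N .z8 = 4 * s + c0 := hdN .z8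
  have n7 : d.N .zab = 4 * s + c0 := hdN .zab
  have n8 : d.N .w8 = 2 * s + c0 := hdN .w8
  have n9 : d.N .wab = 2 * s + c0 := hdN .wab
  have n10 : d.N .wf7 = 2 * s + c0 := hdN .wf7
  have n11 : d.N .v2 = 12 * s + c0 := hdN .v2
  have n12 : d.N .vl = 4 * s + c0 := hdN .vl
  have n13 : d.N .v8 = 4 * s + c0 := hdN .v8
  have n14 : d.N .vb = 4 * s + c0 := hdN .vb
  have n15 : d.N .x2 = 10 * s + c0 := hdN .x2
  have n16 : d.N .xl = 4 * s + c0 := hdN .xl
  have n17 : d.N .x1 = 4 * s + c0 := hdN .x1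
  rw [n1, n2, n3, n4, n5, n6, n7, n8, n9, n10, n11, n12, n13, n14, n15, n16, n17] at h10
  push_cast at h10 ⊢
  linarith

/-- the bound at one prime in terms of a list of intervals of classes -/
def costI (s c0 p : ℕ) (J : Gp → ℕ) (L : List (ℕ × ℕ × ℤ)) : ℤ :=
  42 * (s : ℤ) - p * (J .v2 + J .vl + J .v8 + J .vb + J .x2 + J .xl + J .x1 : ℤ)
      - (((12 * s + c0 - p * J .v2 : ℕ) : ℤ) + ((4 * s + c0 - p * J .vl : ℕ) : ℤ)
        + ((4 * s + c0 - p * J .v8 : ℕ) : ℤ) + ((4 * s + c0 - p * J .vb : ℕ) : ℤ)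
        + ((10 * s + c0 - p * J .x2 : ℕ) : ℤ) + ((4 * s + c0 - p * J .xl : ℕ) : ℤ)
        + ((4 * s + c0 - p * J .x1 : ℕ) : ℤ)) + pcv L - (65 * s + p) - 18 * c0

/-- **a local range from a list of intervals of classes** -/
theorem lr_of_gain {c0 : ℕ} (hR : RedFull c0) {a b c d : ℝ} (na da nb db : ℕ) (c' d' : ℤ)
    (K : ℕ) (ha1 : da ≤ na) (hda : 0 < da) (hdb : 0 < db) (ha : (na : ℝ) = a * da)
    (hb : (nb : ℝ) = b * db) (hb27 : nb ≤ 27 * db) (hc : (c' : ℝ) = c) (hd : (d' : ℝ) = d)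
    (J : Gp → ℕ)
    (h : ∀ (p : ℕ) [Fact p.Prime] (s : ℕ), na * s ≤ da * p → db * p < nb * s → c0 + 40 ≤ s →
      p ≤ 27 * s → ∃ L : List (ℕ × ℕ × ℤ),
        (∀ dd : CD p, dd.D = 27 * s → (∀ g, dd.N g = H579.parA.ht g * s + c0) →
          Pcs (fun i => max (dd.wt J i) 0) p 0 L) ∧
        -(c' * p + d' * s) - K * (c0 + 1) ≤ costI s c0 p J L) :
    LocRange H579.parA c0 a b (fun q => c * q + d) := by
  intro x η hη
  obtain ⟨s1, hs1⟩ := exists_nat_gt ((K * (c0 + 1)) / η : ℝ)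
  refine ⟨max s1 (c0 + 40), fun s hs p hpp hp2 hxp hap hbp σ hσ hdet => ?_⟩
  have := Fact.mk hpp
  have hsc : c0 + 40 ≤ s := (le_max_right _ _).trans hs
  have hs0 : (0 : ℝ) < s := by
    have : 1 ≤ s := by omega
    exact_mod_cast this
  have hss1 : (s1 : ℝ) ≤ s := by exact_mod_cast (le_max_left _ _).trans hs
  have hC : (K * (c0 + 1) : ℝ) ≤ η * s := by
    have h1 := (div_lt_iff₀ hη).1 hs1
    have h2 := mul_le_mul_of_nonneg_right hss1 hη.le
    linarith
  have hda' : (0 : ℝ) < da := by exact_mod_cast hda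
  have hdb' : (0 : ℝ) < db := by exact_mod_cast hdb
  rw [le_div_iff₀ hs0] at hap
  rw [div_lt_iff₀ hs0] at hbp
  have n1 : na * s ≤ da * p := by
    have h1 : (na : ℝ) * s ≤ da * p := by
      rw [ha]
      have := mul_le_mul_of_nonneg_left hap hda'.le
      linarith
    exact_mod_cast h1
  have n2 : db * p < nb * s := by
    have h1 : (db : ℝ) * p < nb * s := by
      rw [hb]
      have := mul_lt_mul_of_pos_left hbp hdb'
      linarith
    exact_mod_cast h1
  have n3 : s ≤ p := by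
    have h1 : da * s ≤ na * s := Nat.mul_le_mul_right s ha1
    exact Nat.le_of_mul_le_mul_left (h1.trans n1) hda
  have n4 : p ≤ 27 * s := by
    have h1 : nb * s ≤ 27 * db * s := Nat.mul_le_mul_right s hb27
    have h2 : db * p ≤ db * (27 * s) := by nlinarith
    exact Nat.le_of_mul_le_mul_left h2 hdb
  have hp5 : 5 ≤ p := by omega
  have hsq : 32 * s + c0 + 2 ≤ p ^ 2 := by nlinarith
  have hxn := norm_x_le_one hxp
  obtain ⟨L, hL, hI⟩ := h p s n1 n2 hsc n4
  have g := le_val_gain hp5 hxn hsq n4 hσ hdet (hR p hp5 s x hxn n4 hsq) J (G := pcv L)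
    (fun dd h1 h2 => by
      have h3 := pcv_le (f := fun i => max (dd.wt J i) 0) (fun i => le_max_right _ _)
        (hL dd h1 h2)
      rw [Nat.Ico_zero_eq_range] at h3
      exact h3)
  have g1 : -(c' * p + d' * s) - K * (c0 + 1)
      ≤ padicValRat p (Mx (H579.parA.D0 * s) x σ).det := hI.trans g
  have g2 : ((-(c' * p + d' * s) - K * (c0 + 1) : ℤ) : ℝ)
      ≤ (padicValRat p (Mx (H579.parA.D0 * s) x σ).det : ℝ) := by exact_mod_cast g1
  push_cast at g2
  rw [hc, hd] at g2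
  have hps : (s : ℝ) * ((p : ℝ) / s) = p := by field_simp
  have e : (s : ℝ) * (c * ((p : ℝ) / s) + d + η) = c * (s * ((p : ℝ) / s)) + d * s + η * s := by
    ring
  rw [e, hps]
  linarith

end Vale.Agent.P030.H641
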