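import Vale.Agent.P030.H641.Hasse

/-!
# P030, odd primes: the kernel condition at the four cusps
-/

open PowerSeries

namespace Vale.Agent.P030.H641

variable {p : ℕ} [hp : Fact p.Prime]

lemma natDegree_WP : (WP p).natDegree ≤ p - 1 := by
  unfold WP
  apply Polynomial.natDegree_sum_le_of_forall_le
  intro k hk
  have hk' : k ≤ p - 1 := by have := Finset.mem_range.1 hk; omega
  have h1 : ((1 : Polynomial (ZMod p)) + Polynomial.X).natDegree ≤ 1 := by
    compute_degree
  have h2 : ((1 : Polynomial (ZMod p)) - Polynomial.X).natDegree ≤ 1 := by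
    compute_degree
  have h3 : (((-1) ^ k : Polynomial (ZMod p))).natDegree ≤ 0 := by
    have : ((-1) ^ k : Polynomial (ZMod p)) = Polynomial.C ((-1) ^ k) := by simp
    rw [this, Polynomial.natDegree_C]
  refine (Polynomial.natDegree_C_mul_le _ _).trans ?_
  refine Polynomial.natDegree_mul_le.trans ?_
  have h4 := Polynomial.natDegree_mul_le (p := ((-1) ^ k : Polynomial (ZMod p)))
    (q := (1 + Polynomial.X) ^ k)
  have h5 := Polynomial.natDegree_pow_le_of_le k h1
  have h6 := Polynomial.natDegree_pow_le_of_le (p - 1 - k) h2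
  omega

/-- the constant -/
noncomputable def cc (p : ℕ) [Fact p.Prime] : ZMod p := (WP p).coeff 0

lemma W_eq (hp2 : p ≠ 2) : (1 - X) ^ (p - 1) * A1 p = C (cc p) * hS p := by
  have h := eq_of_OD hp2 (OD_W hp2) (by
    intro n hn
    rw [← coe_WP, Polynomial.coeff_coe]
    apply Polynomial.coeff_eq_zero_of_natDegree_lt
    have := natDegree_WP (p := p)
    have := hp.out.pos
    omega)
  rw [← coe_WP, Polynomial.coeff_coe] at h
  rw [← coe_WP]
  exact h

lemma cc_ne (hp2 : p ≠ 2) : cc p ≠ 0 := by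
  intro h0
  have h := W_eq (p := p) hp2
  rw [h0, map_zero, zero_mul, ← coe_WP] at h
  have h1 : WP p = 0 := by
    apply Polynomial.coe_injective
    rw [h]; simp
  have h2 : (WP p).eval (-1) = 2 ^ (p - 1) := by
    unfold WP
    rw [Polynomial.eval_finsetSum, Finset.sum_eq_single 0]
    · simp [hr_zero]
      norm_num
    · intro k _ hk
      simp [hk]
    · intro hk
      exact absurd (Finset.mem_range.2 hp.out.pos) hk
  rw [h1, Polynomial.eval_zero] at h2
  have h3 : (2 : ZMod p) ≠ 0 := by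
    have : ¬ p ∣ 2 := fun hd => hp2 ((Nat.prime_dvd_prime_iff_eq hp.out Nat.prime_two).1 hd)
    have := cast_ne this
    simpa using this
  exact pow_ne_zero _ h3 h2.symm

lemma A1_eq (hp2 : p ≠ 2) : A1 p = C (cc p) * ((1 - X) * Jg p ^ p * hS p) := by
  have h := W_eq (p := p) hp2
  have h1 := one_sub_mul_J (p := p)
  have e2 : (1 - X : (ZMod p)⟦X⟧) ^ (p - 1) * Jg p ^ (p - 1) = 1 := by
    rw [← mul_pow, h1, one_pow]
  have e3 : Jg p ^ p = Jg p ^ (p - 1) * Jg p := by
    rw [← pow_succ]; congr 1; have := hp.out.pos; omega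
  rw [e3]
  linear_combination (Jg p ^ (p - 1)) * h - (A1 p) * e2
    - (C (cc p) * Jg p ^ (p - 1) * hS p) * h1

/-- `((1+t)/2) ((1-t) f)'` -/
noncomputable def twF (f : (ZMod p)⟦X⟧) : (ZMod p)⟦X⟧ :=
  C (1 / 2 : ZMod p) * ((1 + X) * derivative (ZMod p) ((1 - X) * f))

lemma two_ne (hp2 : p ≠ 2) : (2 : ZMod p) ≠ 0 := by
  have : ¬ p ∣ 2 := fun hd => hp2 ((Nat.prime_dvd_prime_iff_eq hp.out Nat.prime_two).1 hd)
  have := cast_ne this
  simpa using this

lemma thA1_eq (hp2 : p ≠ 2) :
    Polynomial.aeval (U1 p) (Polynomial.X * Polynomial.derivative (hP p))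
      = C (cc p) * ((1 - X) * Jg p ^ p * twF (hS p)) := by
  set B1 := Polynomial.aeval (U1 p) (Polynomial.derivative (hP p)) with hB1
  have d0 : derivative (ZMod p) (A1 p) = -(2 * Jg p ^ 2) * B1 := by
    rw [A1, Derivation.map_aeval, derivative_U1, smul_eq_mul]; ring
  have hdJp : derivative (ZMod p) (Jg p ^ p) = 0 := derivative_pow_p _
  have d1 : derivative (ZMod p) (A1 p)
      = C (cc p) * (Jg p ^ p * derivative (ZMod p) ((1 - X) * hS p)) := by
    rw [A1_eq hp2]
    have : (C (cc p) * ((1 - X) * Jg p ^ p * hS p) : (ZMod p)⟦X⟧)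
        = C (cc p) * (Jg p ^ p * ((1 - X) * hS p)) := by ring
    rw [this, Derivation.leibniz, derivative_C, Derivation.leibniz, hdJp]
    simp only [smul_eq_mul]
    ring
  have h1 := one_sub_mul_J (p := p)
  have h2 : (C (1 / 2 : ZMod p) : (ZMod p)⟦X⟧) * 2 = 1 := by
    have : (2 : (ZMod p)⟦X⟧) = C (2 : ZMod p) := (map_ofNat C 2).symm
    rw [this, ← map_mul, one_div, inv_mul_cancel₀ (two_ne hp2), map_one]
  rw [map_mul, Polynomial.aeval_X, ← hB1]
  unfold twF U1
  rw [d1] at d0
  set Q := derivative (ZMod p) ((1 - X) * hS p) with hQ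
  -- d0 : C cc * (J^p * Q) = -(2 J^2) B1
  linear_combination (-(1 - X) * C (1 / 2 : ZMod p) * (1 + X)) * d0
    + ((1 - X) * (1 + X) * Jg p ^ 2 * B1) * h2 + ((1 + X) * Jg p * B1) * h1

/-- the kernel condition (an identity of polynomials in `u`) -/
def KerC (p : ℕ) [Fact p.Prime] (D : ℕ) (aF aT : ℕ → ZMod p) : Prop :=
  ∑ i ∈ Finset.range D, Polynomial.X ^ i * (Polynomial.C (aF i) * hP p
    + Polynomial.C (aT i) * (Polynomial.X * Polynomial.derivative (hP p))) = 0

variable {D : ℕ} {aF aT : ℕ → ZMod p}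

/-- at `c0` -/
lemma ker_c0 (hp2 : p ≠ 2) (h : KerC p D aF aT) :
    ∑ i ∈ Finset.range D, (C (aF i) * (X ^ i * hS p)
      + C (aT i) * (X ^ i * (X * derivative (ZMod p) (hS p)))) = 0 := by
  have h1 := congrArg (Polynomial.coeToPowerSeries.ringHom (R := ZMod p)) h
  rw [map_sum, map_zero] at h1
  simp only [Polynomial.coeToPowerSeries.ringHom_apply] at h1
  rw [← h1]
  refine Finset.sum_congr rfl fun i _ => ?_
  push_cast
  rw [coe_hP hp2, ← derivative_coe, coe_hP hp2]
  ring

/-- at `c1` -/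
lemma ker_c1 (hp2 : p ≠ 2) (h : KerC p D aF aT) :
    ∑ i ∈ Finset.range D, (C (aF i) * ((-1) ^ i * (1 + X) ^ i * (1 - X) ^ (D - 1 - i) * hS p)
      + C (aT i) * ((-1) ^ i * (1 + X) ^ i * (1 - X) ^ (D - 1 - i) * twF (hS p))) = 0 := by
  have h1 := congrArg (Polynomial.aeval (U1 p)) h
  rw [map_sum, map_zero] at h1
  have hJ := one_sub_mul_J (p := p)
  have h3 : C (cc p) * ((1 - X) * Jg p ^ p) * ∑ i ∈ Finset.range D,
      (C (aF i) * ((-1) ^ i * (1 + X) ^ i * (1 - X) ^ (D - 1 - i) * hS p)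
      + C (aT i) * ((-1) ^ i * (1 + X) ^ i * (1 - X) ^ (D - 1 - i) * twF (hS p))) = 0 := by
    have h2 : (1 - X : (ZMod p)⟦X⟧) ^ (D - 1) * ∑ i ∈ Finset.range D,
        Polynomial.aeval (U1 p) (Polynomial.X ^ i * (Polynomial.C (aF i) * hP p
          + Polynomial.C (aT i) * (Polynomial.X * Polynomial.derivative (hP p)))) = 0 := by
      rw [h1, mul_zero]
    rw [← h2, Finset.mul_sum, Finset.mul_sum]
    refine Finset.sum_congr rfl fun i hi => ?_
    have hi' : i ≤ D - 1 := by have := Finset.mem_range.1 hi; omega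
    have eA : Polynomial.aeval (U1 p) (hP p) = C (cc p) * ((1 - X) * Jg p ^ p * hS p) :=
      A1_eq hp2
    rw [map_mul, map_add, map_mul, map_mul, map_pow, Polynomial.aeval_X, Polynomial.aeval_C,
      Polynomial.aeval_C, eA, thA1_eq hp2]
    have e4 : ∀ a : ZMod p, algebraMap (ZMod p) (ZMod p)⟦X⟧ a = C a := fun _ => rfl
    rw [e4, e4]
    have e1 : (1 - X : (ZMod p)⟦X⟧) ^ (D - 1) = (1 - X) ^ (D - 1 - i) * (1 - X) ^ i := by
      rw [← pow_add]; congr 1; omega
    have e2 : (1 - X : (ZMod p)⟦X⟧) ^ i * Jg p ^ i = 1 := by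
      rw [← mul_pow, hJ, one_pow]
    have e3 : U1 p ^ i = (-1) ^ i * (1 + X) ^ i * Jg p ^ i := by
      unfold U1
      rw [neg_eq_neg_one_mul, mul_pow, mul_pow]
      ring
    rw [e1, e3]
    linear_combination (-(C (cc p) * ((1 - X) * Jg p ^ p)) * (-1) ^ i * (1 + X) ^ i
      * (1 - X) ^ (D - 1 - i) * (C (aF i) * hS p + C (aT i) * twF (hS p))) * e2
  have hne : C (cc p) * ((1 - X) * Jg p ^ p) ≠ (0 : (ZMod p)⟦X⟧) := by
    refine mul_ne_zero ?_ (mul_ne_zero ?_ (pow_ne_zero _ ?_))
    · intro h0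
      apply cc_ne hp2
      have := congrArg (coeff 0) h0
      simpa using this
    · intro h0
      rw [h0, zero_mul] at hJ
      exact one_ne_zero hJ.symm
    · intro h0
      rw [h0, mul_zero] at hJ
      exact one_ne_zero hJ.symm
  exact (mul_eq_zero.1 h3).resolve_left hne

/-- the substitution `t → -t` on `hP` -/
lemma hP_even : (hP p).comp (-Polynomial.X) = hP p := by
  unfold hP
  rw [Polynomial.sum_comp]
  refine Finset.sum_congr rfl fun k _ => ?_
  rw [← Polynomial.C_mul_X_pow_eq_monomial, Polynomial.mul_comp, Polynomial.C_comp,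
    Polynomial.pow_comp, Polynomial.X_comp]
  rcases Nat.even_or_odd k with hk | hk
  · rw [hk.neg_pow]
  · rw [hr_odd k hk]; simp

lemma thP_even : (Polynomial.X * Polynomial.derivative (hP p)).comp (-Polynomial.X)
    = Polynomial.X * Polynomial.derivative (hP p) := by
  have h := congrArg Polynomial.derivative (hP_even (p := p))
  rw [Polynomial.derivative_comp] at h
  rw [Polynomial.mul_comp, Polynomial.X_comp]
  have h2 : Polynomial.derivative (-Polynomial.X : Polynomial (ZMod p)) = -1 := by simp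
  rw [h2] at h
  linear_combination Polynomial.X * h

lemma aeval_neg_U (P : Polynomial (ZMod p)) (hP' : P.comp (-Polynomial.X) = P) :
    Polynomial.aeval (-U1 p) P = Polynomial.aeval (U1 p) P := by
  conv_rhs => rw [← hP']
  rw [Polynomial.aeval_comp]
  simp

/-- at `c3` -/
lemma ker_c3 (hp2 : p ≠ 2) (h : KerC p D aF aT) :
    ∑ i ∈ Finset.range D, (C (aF i) * ((1 + X) ^ i * (1 - X) ^ (D - 1 - i) * hS p)
      + C (aT i) * ((1 + X) ^ i * (1 - X) ^ (D - 1 - i) * twF (hS p))) = 0 := by
  have h1 := congrArg (Polynomial.aeval (-U1 p)) h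
  rw [map_sum, map_zero] at h1
  have hJ := one_sub_mul_J (p := p)
  have h3 : C (cc p) * ((1 - X) * Jg p ^ p) * ∑ i ∈ Finset.range D,
      (C (aF i) * ((1 + X) ^ i * (1 - X) ^ (D - 1 - i) * hS p)
      + C (aT i) * ((1 + X) ^ i * (1 - X) ^ (D - 1 - i) * twF (hS p))) = 0 := by
    have h2 : (1 - X : (ZMod p)⟦X⟧) ^ (D - 1) * ∑ i ∈ Finset.range D,
        Polynomial.aeval (-U1 p) (Polynomial.X ^ i * (Polynomial.C (aF i) * hP p
          + Polynomial.C (aT i) * (Polynomial.X * Polynomial.derivative (hP p)))) = 0 := by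
      rw [h1, mul_zero]
    rw [← h2, Finset.mul_sum, Finset.mul_sum]
    refine Finset.sum_congr rfl fun i hi => ?_
    have hi' : i ≤ D - 1 := by have := Finset.mem_range.1 hi; omega
    have eA : Polynomial.aeval (-U1 p) (hP p) = C (cc p) * ((1 - X) * Jg p ^ p * hS p) := by
      rw [aeval_neg_U _ hP_even]; exact A1_eq hp2
    have eB : Polynomial.aeval (-U1 p) (Polynomial.X * Polynomial.derivative (hP p))
        = C (cc p) * ((1 - X) * Jg p ^ p * twF (hS p)) := by
      rw [aeval_neg_U _ thP_even]; exact thA1_eq hp2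
    rw [map_mul, map_add, map_mul, map_mul (Polynomial.aeval (-U1 p)) (Polynomial.C (aT i)),
      map_pow, Polynomial.aeval_X, Polynomial.aeval_C, Polynomial.aeval_C, eA, eB]
    have e4 : ∀ a : ZMod p, algebraMap (ZMod p) (ZMod p)⟦X⟧ a = C a := fun _ => rfl
    rw [e4, e4]
    have e1 : (1 - X : (ZMod p)⟦X⟧) ^ (D - 1) = (1 - X) ^ (D - 1 - i) * (1 - X) ^ i := by
      rw [← pow_add]; congr 1; omega
    have e2 : (1 - X : (ZMod p)⟦X⟧) ^ i * Jg p ^ i = 1 := by
      rw [← mul_pow, hJ, one_pow]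
    have e3 : (-U1 p) ^ i = (1 + X) ^ i * Jg p ^ i := by
      unfold U1
      rw [neg_neg, mul_pow]
    rw [e1, e3]
    linear_combination (-(C (cc p) * ((1 - X) * Jg p ^ p)) * (1 + X) ^ i
      * (1 - X) ^ (D - 1 - i) * (C (aF i) * hS p + C (aT i) * twF (hS p))) * e2
  have hne : C (cc p) * ((1 - X) * Jg p ^ p) ≠ (0 : (ZMod p)⟦X⟧) := by
    refine mul_ne_zero ?_ (mul_ne_zero ?_ (pow_ne_zero _ ?_))
    · intro h0
      apply cc_ne hp2
      have := congrArg (coeff 0) h0
      simpa using this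
    · intro h0
      rw [h0, zero_mul] at hJ
      exact one_ne_zero hJ.symm
    · intro h0
      rw [h0, mul_zero] at hJ
      exact one_ne_zero hJ.symm
  exact (mul_eq_zero.1 h3).resolve_left hne

/-! ### at `c2` -/

/-- reversed coefficients -/
lemma hr_rev (hp2 : p ≠ 2) : ∀ n, n ≤ p - 1 → hr p (p - 1 - n) = hr p (p - 1) * hr p n := by
  have h1 := hp.out.two_le
  have hpo : Odd p := hp.out.odd_of_ne_two hp2
  have key := seq_mul (p := p) (c := fun n => hr p (p - 1 - n)) (N := p) (fun _ => by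
    apply hr_odd
    rcases hpo with ⟨m, hm⟩
    exact ⟨m - 1, by omega⟩) (fun n hn _ => by
    obtain ⟨m, hm⟩ : ∃ m, p - 1 - n = m + 2 := ⟨p - 1 - n - 2, by omega⟩
    have hm2 : p - 1 - (n + 2) = m := by omega
    have e := hr_rec (p := p) hp2 m
    simp only [hm, hm2]
    have hs : ((m : ZMod p) + 2) = -((n : ZMod p) + 1) := by
      have : m + 2 + (n + 1) = p := by omega
      have h2 : (((m + 2 + (n + 1) : ℕ)) : ZMod p) = 0 := by
        rw [this]; exact ZMod.natCast_self p
      push_cast at h2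
      linear_combination h2
    have hs2 : ((m : ZMod p) + 1) = -((n : ZMod p) + 2) := by
      linear_combination hs
    rw [hs, hs2] at e
    linear_combination -e)
  intro n hn
  have := key n (by omega) 0 (by omega)
  simp only [mul_zero, zero_add, Nat.sub_zero] at this
  rw [this]; ring

lemma hr_last_ne (hp2 : p ≠ 2) : hr p (p - 1) ≠ 0 := by
  intro h
  have := hr_rev (p := p) hp2 (p - 1) le_rfl
  rw [Nat.sub_self, hr_zero, h, mul_zero] at this
  exact one_ne_zero this

lemma ker_coeff (hp2 : p ≠ 2) (h : KerC p D aF aT) (n : ℕ) :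
    ∑ i ∈ Finset.range D, (if i ≤ n then (aF i + aT i * ((n - i : ℕ) : ZMod p)) * hr p (n - i)
      else 0) = 0 := by
  have h1 := congrArg (coeff n) (ker_c0 hp2 h)
  rw [map_sum, map_zero] at h1
  refine Eq.trans (Finset.sum_congr rfl fun i _ => ?_) h1
  rw [map_add, coeff_C_mul, coeff_C_mul, coeff_X_pow_mul', coeff_X_pow_mul', hS]
  by_cases hi : i ≤ n
  · rw [if_pos hi, if_pos hi, if_pos hi, coeff_mk]
    rcases hk : n - i with _ | k
    · simp
    · rw [coeff_succ_X_mul, coeff_derivative, coeff_mk]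
      push_cast
      ring
  · rw [if_neg hi, if_neg hi, if_neg hi]
    simp

/-- at `c2` -/
lemma ker_c2 (hp2 : p ≠ 2) (h : KerC p D aF aT) :
    ∑ i ∈ Finset.range D, (C (aF i) * (X ^ (D - 1 - i) * -hS p)
      + C (aT i) * (X ^ (D - 1 - i) * derivative (ZMod p) (X * hS p))) = 0 := by
  have h2p := hp.out.two_le
  ext m
  rw [map_sum, map_zero]
  have e1 : ∀ i, coeff m (C (aF i) * (X ^ (D - 1 - i) * -hS p)
      + C (aT i) * (X ^ (D - 1 - i) * derivative (ZMod p) (X * hS p)))
      = if D - 1 - i ≤ m then (-aF i + aT i * ((m - (D - 1 - i) + 1 : ℕ) : ZMod p))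
        * hr p (m - (D - 1 - i)) else 0 := by
    intro i
    rw [map_add, coeff_C_mul, coeff_C_mul, coeff_X_pow_mul', coeff_X_pow_mul']
    split_ifs with hi
    · rw [coeff_derivative, coeff_succ_X_mul, map_neg, hS, coeff_mk]
      push_cast
      ring
    · simp
  rw [Finset.sum_congr rfl fun i _ => e1 i]
  by_cases hm : m ≤ D - 1 + (p - 1)
  · have key : hr p (p - 1) * ∑ i ∈ Finset.range D, (if D - 1 - i ≤ m then
        (-aF i + aT i * ((m - (D - 1 - i) + 1 : ℕ) : ZMod p)) * hr p (m - (D - 1 - i)) else 0)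
        = 0 := by
      have h0 := ker_coeff hp2 h (D - 1 + (p - 1) - m)
      rw [← neg_eq_zero]
      refine Eq.trans ?_ h0
      rw [Finset.mul_sum, ← Finset.sum_neg_distrib]
      refine Finset.sum_congr rfl fun i hi => ?_
      have hi' := Finset.mem_range.1 hi
      by_cases c1 : D - 1 - i ≤ m
      · rw [if_pos c1]
        by_cases c2 : i ≤ D - 1 + (p - 1) - m
        · rw [if_pos c2]
          set k := m - (D - 1 - i) with hk
          have hkp : k ≤ p - 1 := by omega
          have e2 : D - 1 + (p - 1) - m - i = p - 1 - k := by omega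
          rw [e2, hr_rev hp2 k hkp]
          have e3 : (((p - 1 - k : ℕ)) : ZMod p) = -((k + 1 : ℕ) : ZMod p) := by
            have : p - 1 - k + (k + 1) = p := by omega
            have h3 : (((p - 1 - k + (k + 1) : ℕ)) : ZMod p) = 0 := by
              rw [this]; exact ZMod.natCast_self p
            rw [Nat.cast_add] at h3
            linear_combination h3
          rw [e3]
          ring
        · rw [if_neg c2]
          have : hr p (m - (D - 1 - i)) = 0 := hr_big hp2 _ (by omega)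
          rw [this]; ring
      · rw [if_neg c1]
        by_cases c2 : i ≤ D - 1 + (p - 1) - m
        · rw [if_pos c2]
          have : hr p (D - 1 + (p - 1) - m - i) = 0 := hr_big hp2 _ (by omega)
          rw [this]; ring
        · rw [if_neg c2]; ring
    exact (mul_eq_zero.1 key).resolve_left (hr_last_ne hp2)
  · refine Finset.sum_eq_zero fun i hi => ?_
    have hi' := Finset.mem_range.1 hi
    split_ifs with c1
    · have : hr p (m - (D - 1 - i)) = 0 := hr_big hp2 _ (by omega)
      rw [this]; ring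
    · rfl

end Vale.Agent.P030.H641
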