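import Vale.Agent.P030.H641.PI

/-!
# P030, odd primes: the Hasse polynomial is a global section
-/

open PowerSeries

namespace Vale.Agent.P030.H641

variable {p : ℕ} [hp : Fact p.Prime]

/-- coefficients of the Hasse polynomial (zero from `p` on) -/
def hr (p : ℕ) [Fact p.Prime] : ℕ → ZMod p
  | 0 => 1
  | 1 => 0
  | n + 2 => ((n : ZMod p) + 1) ^ 2 / ((n : ZMod p) + 2) ^ 2 * hr p n

lemma hr_zero : hr p 0 = 1 := by rw [hr]
lemma hr_one : hr p 1 = 0 := by rw [hr]

lemma hr_odd : ∀ n, Odd n → hr p n = 0 := by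
  intro n
  induction n using Nat.strong_induction_on with
  | _ n ih =>
    intro hn
    match n, hn with
    | 0, h => exact absurd h (by decide)
    | 1, _ => exact hr_one
    | n + 2, h =>
      rw [hr, ih n (by omega) (by
        rcases h with ⟨m, hm⟩
        exact ⟨m - 1, by omega⟩), mul_zero]

lemma hr_big (hp2 : p ≠ 2) : ∀ n, p ≤ n → hr p n = 0 := by
  have hpo : Odd p := hp.out.odd_of_ne_two hp2
  intro n
  induction n using Nat.strong_induction_on with
  | _ n ih =>
    intro hn
    rcases Nat.even_or_odd n with he | ho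
    · have hne : n ≠ p := by
        rintro rfl
        exact (Nat.not_even_iff_odd.2 hpo) he
      obtain ⟨m, rfl⟩ : ∃ m, n = m + 2 := ⟨n - 2, by have := hp.out.two_le; omega⟩
      rw [hr]
      by_cases hm : m + 1 = p
      · have : ((m : ZMod p) + 1) = 0 := by
          have h : (((m + 1 : ℕ)) : ZMod p) = 0 := by rw [hm]; exact ZMod.natCast_self p
          simpa using h
        rw [this]; simp
      · have hm2 : p ≤ m := by
          by_contra hlt
          have : m + 2 = p + 1 := by omega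
          exact hm (by omega)
        rw [ih m (by omega) hm2, mul_zero]
    · exact hr_odd n ho

lemma cast_ne {n : ℕ} (h : ¬ p ∣ n) : (n : ZMod p) ≠ 0 := by
  rwa [Ne, ZMod.natCast_eq_zero_iff]

lemma hr_rec (hp2 : p ≠ 2) (n : ℕ) :
    ((n : ZMod p) + 2) ^ 2 * hr p (n + 2) = ((n : ZMod p) + 1) ^ 2 * hr p n := by
  have hpo : Odd p := hp.out.odd_of_ne_two hp2
  by_cases h : ((n : ZMod p) + 2) = 0
  · have hd : p ∣ n + 2 := by
      rw [← ZMod.natCast_eq_zero_iff]
      push_cast
      exact h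
    have h0 : hr p n = 0 := by
      rcases Nat.even_or_odd n with he | ho
      · obtain ⟨k, hk⟩ := hd
        have hk2 : 2 ≤ k := by
          rcases Nat.lt_or_ge k 2 with hk1 | hk1
          · exfalso
            interval_cases k
            · omega
            · rw [mul_one] at hk
              have : Even p := by rw [← hk]; exact he.add (by decide)
              exact (Nat.not_even_iff_odd.2 hpo) this
          · exact hk1
        apply hr_big hp2
        have := hp.out.two_le
        nlinarith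
      · exact hr_odd n ho
    rw [h, h0]; simp
  · rw [hr]
    field_simp

/-- uniqueness: a sequence with the recurrence of `K` between multiples of `p` -/
lemma seq_mul {c : ℕ → ZMod p} {N : ℕ} (h1 : 1 < N → c 1 = 0)
    (h : ∀ n, n + 2 < N → ¬ p ∣ n + 2 →
      ((n : ZMod p) + 2) ^ 2 * c (n + 2) = ((n : ZMod p) + 1) ^ 2 * c n) :
    ∀ r, r < p → ∀ j, p * j + r < N → c (p * j + r) = hr p r * c (p * j) := by
  intro r
  induction r using Nat.strong_induction_on with
  | _ r ih =>
    intro hr' j hj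
    match r, hr' with
    | 0, _ => rw [add_zero, hr_zero, one_mul]
    | 1, hr1 =>
      rw [hr_one, zero_mul]
      rcases Nat.eq_zero_or_pos j with rfl | hj0
      · rw [mul_zero] at hj ⊢
        exact h1 (by omega)
      · obtain ⟨m, hm⟩ : ∃ m, p * j = m + 1 :=
          ⟨p * j - 1, by have := Nat.mul_pos hp.out.pos hj0; omega⟩
        have hnd : ¬ p ∣ m + 2 := by
          intro hd
          have : p ∣ p * j + 1 := by rw [hm]; exact hd
          rw [Nat.dvd_add_right (dvd_mul_right p j)] at this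
          exact hp.out.one_lt.ne' (Nat.dvd_one.1 this)
        have e := h m (by omega) hnd
        have hz : ((m : ZMod p) + 1) = 0 := by
          have : (((m + 1 : ℕ)) : ZMod p) = 0 := by
            rw [← hm]; simp
          simpa using this
        rw [hz] at e
        have hn0 : ((m : ZMod p) + 2) ≠ 0 := by
          have := cast_ne hnd
          push_cast at this
          exact this
        rw [hm]
        have e2 : ((m : ZMod p) + 2) ^ 2 * c (m + 2) = 0 := by rw [e]; simp
        exact (mul_eq_zero.1 e2).resolve_left (pow_ne_zero _ hn0)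
    | r + 2, hr2 =>
      have hnd : ¬ p ∣ p * j + r + 2 := by
        intro hd
        rw [add_assoc, Nat.dvd_add_right (dvd_mul_right p j)] at hd
        exact absurd (Nat.le_of_dvd (by omega) hd) (by omega)
      have e := h (p * j + r) (by omega) hnd
      rw [ih r (by omega) (by omega) j (by omega)] at e
      have hc : (((p * j + r : ℕ)) : ZMod p) = (r : ZMod p) := by simp
      rw [hc] at e
      have hn0 : ((r : ZMod p) + 2) ≠ 0 := by
        have : ¬ p ∣ r + 2 := fun hd => absurd (Nat.le_of_dvd (by omega) hd) (by omega)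
        have := cast_ne this
        push_cast at this
        exact this
      rw [hr]
      have e3 : p * j + (r + 2) = p * j + r + 2 := by ring
      rw [e3]
      field_simp
      linear_combination e

/-- `h` as a power series -/
noncomputable def hS (p : ℕ) [Fact p.Prime] : (ZMod p)⟦X⟧ := mk (hr p)

/-- `h` as a polynomial -/
noncomputable def hP (p : ℕ) [Fact p.Prime] : Polynomial (ZMod p) :=
  ∑ k ∈ Finset.range p, Polynomial.monomial k (hr p k)

lemma coe_hP (hp2 : p ≠ 2) : ((hP p : Polynomial (ZMod p)) : (ZMod p)⟦X⟧) = hS p := by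
  ext n
  rw [Polynomial.coeff_coe, hP, Polynomial.finsetSum_coeff, hS, coeff_mk]
  simp only [Polynomial.coeff_monomial]
  rw [Finset.sum_ite_eq']
  split_ifs with h
  · rfl
  · rw [hr_big hp2 n (by simpa using h)]

/-- the differential operator -/
noncomputable def OD (f : (ZMod p)⟦X⟧) : (ZMod p)⟦X⟧ :=
  X * (1 - X ^ 2) * derivative (ZMod p) (derivative (ZMod p) f)
    + (1 - 3 * X ^ 2) * derivative (ZMod p) f - X * f

lemma coeff_X_pow_mul'' (f : (ZMod p)⟦X⟧) (n k : ℕ) :
    coeff n (X ^ k * f) = if k ≤ n then coeff (n - k) f else 0 := coeff_X_pow_mul' f k n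

lemma coeff_OD (f : (ZMod p)⟦X⟧) (n : ℕ) :
    coeff (n + 1) (OD f) = ((n : ZMod p) + 2) ^ 2 * coeff (n + 2) f
      - ((n : ZMod p) + 1) ^ 2 * coeff n f := by
  have e : OD f = X ^ 1 * derivative (ZMod p) (derivative (ZMod p) f)
      - X ^ 3 * derivative (ZMod p) (derivative (ZMod p) f)
      + derivative (ZMod p) f - 3 * (X ^ 2 * derivative (ZMod p) f) - X ^ 1 * f := by
    unfold OD; ring
  rw [e]
  simp only [map_sub, map_add]
  have e3 : coeff (n + 1) (3 * (X ^ 2 * derivative (ZMod p) f))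
      = 3 * coeff (n + 1) (X ^ 2 * derivative (ZMod p) f) := by
    have : (3 : (ZMod p)⟦X⟧) = C (3 : ZMod p) := (map_ofNat C 3).symm
    rw [this, coeff_C_mul]
  rw [e3]
  simp only [coeff_X_pow_mul'', coeff_derivative]
  rcases n with _ | _ | n
  · simp; ring
  · simp; ring
  · have h1 : 3 ≤ n + 1 + 1 + 1 := by omega
    have h2 : 2 ≤ n + 1 + 1 + 1 := by omega
    have h3 : 1 ≤ n + 1 + 1 + 1 := by omega
    rw [if_pos h3, if_pos h1, if_pos h2]
    have a1 : n + 1 + 1 + 1 - 1 + 1 + 1 = n + 1 + 1 + 2 := by omega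
    have a2 : n + 1 + 1 + 1 - 3 + 1 + 1 = n + 1 + 1 := by omega
    have a3 : n + 1 + 1 + 1 - 2 + 1 = n + 1 + 1 := by omega
    have a4 : n + 1 + 1 + 1 - 1 = n + 1 + 1 := by omega
    have a5 : n + 1 + 1 + 1 + 1 = n + 1 + 1 + 2 := by omega
    have a6 : n + 1 + 1 + 1 - 3 = n := by omega
    have a7 : n + 1 + 1 + 1 - 2 = n + 1 := by omega
    rw [a1, a2, a3, a4, a5, a6, a7]
    push_cast
    ring

lemma coeff_OD_zero (f : (ZMod p)⟦X⟧) : coeff 0 (OD f) = coeff 1 f := by
  have h1 : coeff 0 (derivative (ZMod p) f) = coeff 1 f := by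
    rw [coeff_derivative]; simp
  rw [coeff_zero_eq_constantCoeff_apply] at h1
  unfold OD
  simp [h1]

lemma OD_hS (hp2 : p ≠ 2) : OD (hS p) = 0 := by
  ext n
  rcases n with _ | n
  · rw [coeff_OD_zero, hS, coeff_mk, hr_one]; simp
  · rw [coeff_OD, hS, coeff_mk, coeff_mk, hr_rec hp2, sub_self]; simp

/-- uniqueness of the solution -/
lemma eq_of_OD (hp2 : p ≠ 2) {W : (ZMod p)⟦X⟧} (hW : OD W = 0)
    (hdeg : ∀ n, p ≤ n → coeff n W = 0) : W = C (coeff 0 W) * hS p := by
  ext n
  rw [coeff_C_mul, hS, coeff_mk]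
  by_cases hn : n < p
  · have := seq_mul (p := p) (c := fun n => coeff n W) (N := p) (fun _ => by
      have := coeff_OD_zero W
      rw [hW] at this
      simpa using this.symm) (fun m _ _ => by
      have := coeff_OD W m
      rw [hW] at this
      simp only [map_zero] at this
      linear_combination -this) n hn 0 (by simpa using hn)
    simp only [mul_zero, zero_add] at this
    rw [this]
    ring
  · rw [hdeg n (by omega), hr_big hp2 n (by omega), mul_zero]

/-- `1/(1-t)` -/
noncomputable def Jg (p : ℕ) : (ZMod p)⟦X⟧ := mk fun _ => 1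

lemma one_sub_mul_J : (1 - X) * Jg p = 1 := by
  ext n
  rw [sub_mul, one_mul, map_sub]
  rcases n with _ | n
  · simp [Jg]
  · rw [coeff_succ_X_mul]
    simp [Jg, coeff_one]

lemma derivative_J : derivative (ZMod p) (Jg p) = Jg p ^ 2 := by
  have h := congrArg (derivative (ZMod p)) (one_sub_mul_J (p := p))
  rw [Derivation.leibniz, map_sub, derivative_X, derivative_one] at h
  simp only [smul_eq_mul] at h
  have h1 := one_sub_mul_J (p := p)
  linear_combination (Jg p) * h - (derivative (ZMod p) (Jg p)) * h1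

/-- the local coordinate `u` at `c1` -/
noncomputable def U1 (p : ℕ) : (ZMod p)⟦X⟧ := -((1 + X) * Jg p)

lemma derivative_U1 : derivative (ZMod p) (U1 p) = -(2 * Jg p ^ 2) := by
  unfold U1
  rw [map_neg, Derivation.leibniz, map_add, derivative_X, derivative_one, derivative_J]
  simp only [smul_eq_mul]
  have h1 := one_sub_mul_J (p := p)
  linear_combination (Jg p) * h1

lemma derivative_pow_p (f : (ZMod p)⟦X⟧) : derivative (ZMod p) (f ^ p) = 0 := by
  have h0 : ((p : ℕ) : (ZMod p)⟦X⟧) = 0 := by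
    rw [← map_natCast (C (R := ZMod p)), ZMod.natCast_self, map_zero]
  rw [Derivation.leibniz_pow, ← Nat.cast_smul_eq_nsmul (R := (ZMod p)⟦X⟧), h0, zero_smul]

lemma hP_ode (hp2 : p ≠ 2) :
    Polynomial.X * (1 - Polynomial.X ^ 2) * Polynomial.derivative (Polynomial.derivative (hP p))
    + (1 - 3 * Polynomial.X ^ 2) * Polynomial.derivative (hP p) - Polynomial.X * hP p = 0 := by
  apply Polynomial.coe_injective
  have h := OD_hS (p := p) hp2
  unfold OD at h
  rw [← coe_hP hp2, derivative_coe, derivative_coe] at h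
  have h3 : (((3 : Polynomial (ZMod p))) : (ZMod p)⟦X⟧) = 3 := by
    rw [← map_ofNat Polynomial.C 3, Polynomial.coe_C, map_ofNat]
  push_cast
  rw [h3, ← h]

/-- `h (u)` at `c1` -/
noncomputable def A1 (p : ℕ) [Fact p.Prime] : (ZMod p)⟦X⟧ := Polynomial.aeval (U1 p) (hP p)

noncomputable def WP (p : ℕ) [Fact p.Prime] : Polynomial (ZMod p) :=
  ∑ k ∈ Finset.range p, Polynomial.C (hr p k) * ((-1) ^ k * (1 + Polynomial.X) ^ k *
    (1 - Polynomial.X) ^ (p - 1 - k))

lemma coe_WP : ((WP p : Polynomial (ZMod p)) : (ZMod p)⟦X⟧) = (1 - X) ^ (p - 1) * A1 p := by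
  rw [A1, hP, map_sum, Finset.mul_sum, WP]
  rw [← Polynomial.coeToPowerSeries.ringHom_apply, map_sum]
  refine Finset.sum_congr rfl fun k hk => ?_
  have hk' : k ≤ p - 1 := by have := Finset.mem_range.1 hk; omega
  rw [Polynomial.coeToPowerSeries.ringHom_apply, Polynomial.aeval_monomial]
  have e1 : (1 - X : (ZMod p)⟦X⟧) ^ (p - 1) = (1 - X) ^ (p - 1 - k) * (1 - X) ^ k := by
    rw [← pow_add]; congr 1; omega
  have e2 : (1 - X : (ZMod p)⟦X⟧) ^ k * Jg p ^ k = 1 := by
    rw [← mul_pow, one_sub_mul_J, one_pow]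
  rw [e1]
  push_cast
  have e3 : U1 p ^ k = (-1) ^ k * (1 + X) ^ k * Jg p ^ k := by
    unfold U1
    rw [neg_eq_neg_one_mul, mul_pow, mul_pow]
    ring
  rw [e3]
  have e4 : algebraMap (ZMod p) (ZMod p)⟦X⟧ (hr p k) = C (hr p k) := rfl
  rw [e4]
  linear_combination (-(C (hr p k)) * (-1) ^ k * (1 + X) ^ k * (1 - X) ^ (p - 1 - k)) * e2

lemma OD_W (hp2 : p ≠ 2) : OD ((1 - X) ^ (p - 1) * A1 p) = 0 := by
  set E : (ZMod p)⟦X⟧ := (1 - X) ^ p with hE
  have hdE : derivative (ZMod p) E = 0 := derivative_pow_p _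
  have h1 := one_sub_mul_J (p := p)
  have hEJ : (1 - X : (ZMod p)⟦X⟧) ^ (p - 1) = E * Jg p := by
    have : (1 - X : (ZMod p)⟦X⟧) ^ p = (1 - X) ^ (p - 1) * (1 - X) := by
      rw [← pow_succ]; congr 1; have := hp.out.pos; omega
    rw [hE, this, mul_assoc, h1, mul_one]
  set B1 := Polynomial.aeval (U1 p) (Polynomial.derivative (hP p)) with hB1
  set B2 := Polynomial.aeval (U1 p) (Polynomial.derivative (Polynomial.derivative (hP p)))
    with hB2
  have d0 : derivative (ZMod p) (A1 p) = -(2 * Jg p ^ 2) * B1 := by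
    rw [A1, Derivation.map_aeval, derivative_U1, smul_eq_mul]; ring
  have d1 : derivative (ZMod p) B1 = -(2 * Jg p ^ 2) * B2 := by
    rw [hB1, Derivation.map_aeval, derivative_U1, smul_eq_mul]; ring
  have hdJ := derivative_J (p := p)
  have hode : U1 p * (1 - U1 p ^ 2) * B2 + (1 - 3 * U1 p ^ 2) * B1 - U1 p * A1 p = 0 := by
    have := congrArg (Polynomial.aeval (U1 p)) (hP_ode (p := p) hp2)
    have h3 : (Polynomial.aeval (U1 p)) (3 : Polynomial (ZMod p)) = 3 :=
      map_ofNat (Polynomial.aeval (U1 p)) 3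
    simpa [A1, hB1, hB2, h3] using this
  have w1 : derivative (ZMod p) (E * Jg p * A1 p)
      = E * (Jg p ^ 2 * A1 p - 2 * Jg p ^ 3 * B1) := by
    rw [Derivation.leibniz, Derivation.leibniz, hdE, hdJ, d0]
    simp only [smul_eq_mul]
    ring
  have w2 : derivative (ZMod p) (E * (Jg p ^ 2 * A1 p - 2 * Jg p ^ 3 * B1))
      = E * (2 * Jg p ^ 3 * A1 p - 8 * Jg p ^ 4 * B1 + 4 * Jg p ^ 5 * B2) := by
    rw [Derivation.leibniz, hdE, map_sub, Derivation.leibniz, Derivation.leibniz_pow, hdJ, d0]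
    have : (2 * Jg p ^ 3 * B1 : (ZMod p)⟦X⟧) = C (2 : ZMod p) * (Jg p ^ 3 * B1) := by
      have : (2 : (ZMod p)⟦X⟧) = C (2 : ZMod p) := (map_ofNat C 2).symm
      rw [this]; ring
    rw [this, Derivation.leibniz, derivative_C, Derivation.leibniz, Derivation.leibniz_pow, hdJ, d1]
    have e2 : (C (2 : ZMod p) : (ZMod p)⟦X⟧) = 2 := map_ofNat C 2
    simp only [smul_eq_mul, nsmul_eq_mul, e2]
    push_cast
    ring
  rw [hEJ]
  unfold OD
  rw [w1, w2]
  unfold U1 at hode
  linear_combination (E * Jg p) * hode + E * (A1 p * (2 * X * (1 + X) * Jg p ^ 2 + X * Jg p)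
    + B1 * (-8 * X * (1 + X) * Jg p ^ 3 + 2 * Jg p + Jg p * ((1 - X) * Jg p - 1))
    + B2 * (4 * X * (1 + X) * Jg p ^ 4 - (1 + X) * Jg p ^ 2 * (2 + ((1 - X) * Jg p - 1)))) * h1

end Vale.Agent.P030.H641
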