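import Vale.Agent.P030.H641.Count
import Vale.Agent.P030.H792.OdBase

/-!
# P030, odd primes: from the class count to the valuation of the determinant
-/

open PowerSeries Finset Module

namespace Vale.Agent.P030.H641

open Vale.Agent.P030.T Vale.Agent.P030.H792

variable {p : ℕ} [hp : Fact p.Prime]

/-- the reduced rows: pure part, `F`-part, Wronskian part -/
structure HypE (d : CD p) (h : ℕ → ZMod p) (Nv : Gp → ℕ) (ent : ℕ → Fin 8 → Cl → ZMod p) :
    Prop where
  e1 : ∀ a < d.D, ∀ j : Fin 8, j.val < 6 → ∀ g k, k < Nv g → ent a j (g, k)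
    = coeff k (d.kap g.cusp * d.U g.cusp ^ a * d.V g.cusp ^ (d.D - 1 - a) * d.φ j g)
  e2 : ∀ a < d.D, ∀ g k, k < Nv g → ent a 6 (g, k)
    = coeff k (d.kap g.cusp * d.U g.cusp ^ a * d.V g.cusp ^ (d.D - 1 - a)
      * ((d.V g.cusp - d.U g.cusp) * ∑ q ∈ range p,
        C (h q) * d.U g.cusp ^ q * d.V g.cusp ^ (p - 1 - q)) * d.φ 6 g)
  e3 : ∀ a < d.D, d.D < a + p → ∀ g k, k < Nv g → ent a 7 (g, k)
    = coeff k (d.kap g.cusp * d.U g.cusp ^ a * d.V g.cusp ^ (d.D - 1 - a)
      * ((d.V g.cusp - d.U g.cusp) * ∑ q ∈ range p,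
        C ((q : ZMod p) * h q) * d.U g.cusp ^ q * d.V g.cusp ^ (p - 1 - q)) * d.φ 6 g)
  e4 : ∀ a, a + p ≤ d.D → ∀ g k, k < Nv g → ent a 7 (g, k)
    = coeff k (d.kap g.cusp * d.U g.cusp ^ a * d.V g.cusp ^ (d.D - p - a)
      * d.T g.cusp ^ (p - 1) * d.φ 7 g)

namespace CD

variable {d : CD p} {h : ℕ → ZMod p} {Nv : Gp → ℕ} {ent : ℕ → Fin 8 → Cl → ZMod p}
  (A : Finset ℕ) (J : Gp → ℕ)

/-- the row as a function on the columns, zero outside the pool -/
noncomputable def rw' (d : CD p) (ent : ℕ → Fin 8 → Cl → ZMod p) (a : ℕ) (j : Fin 8) :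
    Cl → ZMod p := fun c => if c.2 < d.N c.1 then ent a j c else 0

lemma mem_of_eq {f f' : Cl → ZMod p} (hf' : f' ∈ d.VV A J)
    (hf0 : ∀ c : Cl, ¬ c.2 < d.N c.1 → f c = f' c)
    (hN : ∀ g k, k < d.N g → (¬ (g.cusp = 0 ∨ g.cusp = 1) → k < p * J g) → k < Nv g)
    (hff : ∀ g k, k < d.N g → k < Nv g → f (g, k) = f' (g, k)) : f ∈ d.VV A J := by
  have h1 : f = (f - f') + f' := by rw [sub_add_cancel]
  rw [h1]
  refine Submodule.add_mem _ (d.rest_mem A J fun c hc => ?_) hf'
  rw [Pi.sub_apply, sub_ne_zero] at hc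
  have hcN : c.2 < d.N c.1 := by
    by_contra h2
    exact hc (hf0 c h2)
  have h3 : ¬ c.2 < Nv c.1 := fun h4 => hc (hff c.1 c.2 hcN h4)
  by_cases hg : c.1.cusp = 0 ∨ c.1.cusp = 1
  · exact absurd (hN c.1 c.2 hcN (fun h5 => absurd hg h5)) h3
  · refine ⟨hg, hcN, ?_⟩
    by_contra h5
    exact h3 (hN c.1 c.2 hcN (fun _ => by omega))

/-- **every row is in the space** -/
theorem row_mem (hE : HypE d h Nv ent)
    (hN : ∀ g k, k < d.N g → (¬ (g.cusp = 0 ∨ g.cusp = 1) → k < p * J g) → k < Nv g)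
    {a : ℕ} (ha : a < d.D) (j : Fin 8) : rw' d ent a j ∈ d.VV A J := by
  have hp1 := hp.out.pos
  have h67 : ∀ H : ℕ → ZMod p, (∑ q ∈ range p, H q • (d.mo 6 (a + q) - d.mo 6 (a + q + 1)))
      ∈ d.VV A J := by
    intro H
    refine Submodule.sum_mem _ fun q hq => Submodule.smul_mem _ _ ?_
    have hq' := Finset.mem_range.1 hq
    have hM : d.M 6 = d.D + p - 1 := rfl
    have h6 : (6 : Fin 8).val = 7 → p ≤ d.D := fun h8 => absurd h8 (by decide)
    exact Submodule.sub_mem _ (d.mo_mem A J 6 h6 (by rw [hM]; omega))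
      (d.mo_mem A J 6 h6 (by rw [hM]; omega))
  have h67v : ∀ H : ℕ → ZMod p, ∀ g k, k < d.N g →
      (∑ q ∈ range p, H q • (d.mo 6 (a + q) - d.mo 6 (a + q + 1))) (g, k)
      = coeff k (d.kap g.cusp * d.U g.cusp ^ a * d.V g.cusp ^ (d.D - 1 - a)
      * ((d.V g.cusp - d.U g.cusp) * ∑ q ∈ range p,
        C (H q) * d.U g.cusp ^ q * d.V g.cusp ^ (p - 1 - q)) * d.φ 6 g) := by
    intro H g k hk
    rw [Finset.sum_apply, Finset.mul_sum, Finset.mul_sum, Finset.sum_mul, map_sum]
    refine Finset.sum_congr rfl fun q hq => ?_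
    have hq' := Finset.mem_range.1 hq
    have hM : d.M 6 = d.D + p - 1 := rfl
    have hw : d.w 6 = 0 := rfl
    rw [Pi.smul_apply, Pi.sub_apply, smul_eq_mul]
    unfold mo
    simp only [if_pos hk]
    rw [← map_sub, ← coeff_C_mul]
    congr 1
    rw [hM, hw]
    have e1 : d.D + p - 1 - (a + q) = (d.D - 1 - a) + (p - 1 - q) + 1 := by omega
    have e2 : d.D + p - 1 - (a + q + 1) = (d.D - 1 - a) + (p - 1 - q) := by omega
    rw [e1, e2]
    ring
  by_cases hj6 : j.val < 6
  · have hM : d.M j = d.D - 1 := by unfold M; rw [if_pos hj6]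
    have hw : d.w j = 0 := by unfold w; rw [if_pos (by omega)]
    refine mem_of_eq A J (Nv := Nv) (d.mo_mem A J j (fun h7 => by omega) (n := a)
      (by rw [hM]; omega)) ?_ hN ?_
    · intro c hc
      unfold rw' mo
      rw [if_neg hc, if_neg hc]
    · intro g k hk hkv
      unfold rw' mo
      simp only [if_pos hk]
      rw [hE.e1 a ha j hj6 g k hkv, hM, hw, pow_zero, mul_one]
  · by_cases hj : j.val = 6
    · have hj' : j = 6 := Fin.ext hj
      subst hj'
      refine mem_of_eq A J (Nv := Nv) (h67 h) ?_ hN ?_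
      · intro c hc
        unfold rw'
        rw [if_neg hc, Finset.sum_apply]
        symm
        refine Finset.sum_eq_zero fun q _ => ?_
        rw [Pi.smul_apply, Pi.sub_apply]
        unfold mo
        rw [if_neg hc, if_neg hc]
        simp
      · intro g k hk hkv
        rw [h67v h g k hk]
        unfold rw'
        simp only [if_pos hk]
        exact hE.e2 a ha g k hkv
    · have hj' : j = 7 := Fin.ext (by omega)
      subst hj'
      by_cases hap : a + p ≤ d.D
      · have hM : d.M 7 = d.D - p := rfl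
        have hw : d.w 7 = p - 1 := rfl
        refine mem_of_eq A J (Nv := Nv) (d.mo_mem A J 7 (fun _ => by omega) (n := a)
          (by rw [hM]; omega)) ?_ hN ?_
        · intro c hc
          unfold rw' mo
          rw [if_neg hc, if_neg hc]
        · intro g k hk hkv
          unfold rw' mo
          simp only [if_pos hk]
          rw [hE.e4 a hap g k hkv, hM, hw]
      · refine mem_of_eq A J (Nv := Nv) (h67 fun q => (q : ZMod p) * h q) ?_ hN ?_
        · intro c hc
          unfold rw'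
          rw [if_neg hc, Finset.sum_apply]
          symm
          refine Finset.sum_eq_zero fun q _ => ?_
          rw [Pi.smul_apply, Pi.sub_apply]
          unfold mo
          rw [if_neg hc, if_neg hc]
          simp
        · intro g k hk hkv
          rw [h67v (fun q => (q : ZMod p) * h q) g k hk]
          unfold rw'
          simp only [if_pos hk]
          exact hE.e3 a ha (by omega) g k hkv

end CD

/-- **the valuation of the determinant from the class count** -/
theorem le_val_of_count {P : Par} {c0 s : ℕ} {x : ℚ} {σ : Fin (P.D0 * s) × Fin 8 → Cl}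
    (hσ : Adm P c0 s σ) (hdet : (Mx (P.D0 * s) x σ).det ≠ 0)
    (hint : ∀ c : Cl, c.2 < P.ht c.1 * s + c0 → ∀ r,
      padicNorm p (latRow p (P.D0 * s) wr8 1 2 H678.hK x r c) ≤ (p : ℚ) ^ (-H678.wg c.1))
    (d : CD p) (hdD : d.D = P.D0 * s) (hdN : ∀ g, d.N g = P.ht g * s + c0)
    {h : ℕ → ZMod p} {Nv : Gp → ℕ} {ent : ℕ → Fin 8 → Cl → ZMod p} (hE : HypE d h Nv ent)
    (hent : ∀ r : Fin (P.D0 * s) × Fin 8, ∀ c : Cl, c.2 < P.ht c.1 * s + c0 →
      ((latRow p (P.D0 * s) wr8 1 2 H678.hK x r c * (p : ℚ) ^ (-H678.wg c.1) : ℚ) : ZMod p)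
        = ent r.1 r.2 c)
    (A : Finset ℕ) (J : Gp → ℕ)
    (hN : ∀ g k, k < d.N g → (¬ (g.cusp = 0 ∨ g.cusp = 1) → k < p * J g) → k < Nv g) :
    ∑ c, H678.wg (σ c).1 + (8 * ((P.D0 * s : ℕ) : ℤ) - (d.cnt A J : ℤ))
      - latIdx p (P.D0 * s) wr8 1 2 ≤ padicValRat p (Mx (P.D0 * s) x σ).det := by
  have h1 := le_val_of_lattice_ker (p := p) hσ hdet wr8 1 2 H678.hK H678.hK_zero
    (fun c => H678.wg c.1) hint ⊤ (d.VV A J) (fun v _ => by
      refine ⟨∑ r : Fin (P.D0 * s) × Fin 8, v r • CD.rw' d ent r.1 r.2,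
        Submodule.sum_mem _ fun r _ => Submodule.smul_mem _ _
          (CD.row_mem A J hE hN (by rw [hdD]; exact r.1.2) r.2), fun c hc => ?_⟩
      rw [Finset.sum_apply]
      refine Finset.sum_congr rfl fun r _ => ?_
      rw [Pi.smul_apply, smul_eq_mul]
      congr 1
      unfold CD.rw'
      rw [if_pos (by rw [hdN]; exact hc)]
      exact hent r c hc)
  have h2 : finrank (ZMod p) (⊤ : Submodule (ZMod p) (Fin (P.D0 * s) × Fin 8 → ZMod p))
      = P.D0 * s * 8 := by
    rw [finrank_top, finrank_fintype_fun_eq_card, Fintype.card_prod, Fintype.card_fin,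
      Fintype.card_fin]
  have h3 := d.finrank_VV_le A J
  rw [h2] at h1
  have h4 : (finrank (ZMod p) (d.VV A J) : ℤ) ≤ (d.cnt A J : ℤ) := by exact_mod_cast h3
  push_cast at h1 h4 ⊢
  linarith

end Vale.Agent.P030.H641
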