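import Vale.Agent.P030.H641.SqL
import Vale.Agent.P030.H392.Tab3

/-!
# P030, odd primes: the odd part of design A with all pieces of the class count
-/

namespace Vale.Agent.P030.H641

open Vale.Agent.P030.T Vale.Agent.P030.H778 Vale.Agent.P030.H792

theorem stOD_mono {P : Par} {c0 : ℕ} {B B' : ℝ} (h : B ≤ B') (hB : StOD P c0 B) :
    StOD P c0 B' := by
  intro x ε hε
  obtain ⟨s0, h0⟩ := hB x ε hε
  refine ⟨s0, fun s hs => ?_⟩
  obtain ⟨S, c, h1, h2, h3⟩ := h0 s hs
  exact ⟨S, c, h1, h2.trans (by nlinarith [sq_nonneg (s : ℝ)]), h3⟩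

/-- **the odd part of design A, `1734.79`** -/
theorem stOD_best (c0 : ℕ) : StOD H579.parA c0 (8674 / 5) := by
  obtain ⟨m1, m2, m3, -⟩ := lrDip (locRange_dipF c0)
  obtain ⟨n1, n2, n3, -⟩ := lrMid (H392.midIn c0)
  have hK := H611.locRange_kap (H392.kapAll c0)
  have h := stOD_sq c0 (L := [(10, -2, 92), (32 / 3, -1, 82),
    (11, 5, 18), (25 / 2, 3, 40), (13, 1, 65), (15, -5, 143), (16, -1, 83),
    (86 / 5, 5, -13), (25, -5, 159), (28, -6, 184), (30, -5, 156), (32, -3, 96)])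
    (by norm_num [pwS])
    ⟨m1, m2, m3, LocRange.cut hK (by norm_num) le_rfl fun q _ _ => by linarith,
      lr0 c0 (by norm_num) (by norm_num), n1, n2, n3, lrI c0 (by norm_num)⟩
    (by norm_num [pwE]) rfl
  refine stOD_mono ?_ h
  norm_num [pwI]

end Vale.Agent.P030.H641
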