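import Mathlib

/-!
# P030, odd primes: `p`-integral rational numbers and their reduction
-/

open PowerSeries

namespace Vale.Agent.P030.H641

variable {p : ℕ} [hp : Fact p.Prime]

/-- `p`-integral rational numbers -/
def PI (p : ℕ) (q : ℚ) : Prop := ¬ p ∣ q.den

/-- reduction mod `p` -/
def red (p : ℕ) [Fact p.Prime] (q : ℚ) : ZMod p := ((q : ℚ) : ZMod p)

lemma den_ne {q : ℚ} (h : PI p q) : (q.den : ZMod p) ≠ 0 := by
  rwa [Ne, ZMod.natCast_eq_zero_iff]

lemma PI_iff {q : ℚ} : PI p q ↔ padicNorm p q ≤ 1 := by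
  by_cases hq : q = 0
  · subst hq
    simp [PI, hp.out.one_lt.ne']
  rw [padicNorm.eq_zpow_of_nonzero hq]
  have h1 : (1 : ℚ) < p := by exact_mod_cast hp.out.one_lt
  rw [zpow_le_one_iff_right₀ h1, neg_nonpos, padicValRat]
  constructor
  · intro h
    have : padicValNat p q.den = 0 := padicValNat.eq_zero_of_not_dvd h
    rw [this]
    simp
  · intro h hd
    have h2 : 1 ≤ padicValNat p q.den := one_le_padicValNat_of_dvd q.den_nz hd
    have h3 : padicValInt p q.num = 0 := by
      apply padicValInt.eq_zero_of_not_dvd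
      intro hn
      have hc := q.reduced
      have : p ∣ Nat.gcd q.num.natAbs q.den := Nat.dvd_gcd (Int.natCast_dvd.1 hn) hd
      rw [hc] at this
      exact hp.out.one_lt.ne' (Nat.dvd_one.1 this)
    omega

lemma PI_val {q : ℚ} (hq : q ≠ 0) : PI p q ↔ 0 ≤ padicValRat p q := by
  rw [PI_iff, padicNorm.eq_zpow_of_nonzero hq]
  have h1 : (1 : ℚ) < p := by exact_mod_cast hp.out.one_lt
  rw [zpow_le_one_iff_right₀ h1, neg_nonpos]

lemma PI_zero : PI p 0 := by rw [PI_iff]; simp
lemma PI_one : PI p 1 := by rw [PI_iff]; simp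
lemma PI_int (n : ℤ) : PI p n := by
  simp [PI, hp.out.ne_one]
lemma PI_nat (n : ℕ) : PI p n := by
  simp [PI, hp.out.ne_one]
lemma PI.add {a b : ℚ} (ha : PI p a) (hb : PI p b) : PI p (a + b) := by
  rw [PI_iff] at *
  exact (padicNorm.nonarchimedean).trans (max_le ha hb)
lemma PI.neg {a : ℚ} (ha : PI p a) : PI p (-a) := by
  rw [PI_iff] at *
  rwa [padicNorm.neg]
lemma PI.sub {a b : ℚ} (ha : PI p a) (hb : PI p b) : PI p (a - b) := by
  rw [sub_eq_add_neg]; exact ha.add hb.neg
lemma PI.mul {a b : ℚ} (ha : PI p a) (hb : PI p b) : PI p (a * b) := by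
  rw [PI_iff] at *
  rw [padicNorm.mul]
  exact mul_le_one₀ ha (padicNorm.nonneg _) hb
lemma PI.pow {a : ℚ} (ha : PI p a) (n : ℕ) : PI p (a ^ n) := by
  induction n with
  | zero => rw [pow_zero]; exact PI_one
  | succ n ih => rw [pow_succ]; exact ih.mul ha
lemma PI.sum {ι : Type*} (s : Finset ι) {f : ι → ℚ} (h : ∀ i ∈ s, PI p (f i)) :
    PI p (∑ i ∈ s, f i) := by
  classical
  induction s using Finset.induction_on with
  | empty => rw [Finset.sum_empty]; exact PI_zero
  | insert a s ha ih =>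
    rw [Finset.sum_insert ha]
    exact (h a (Finset.mem_insert_self _ _)).add
      (ih fun i hi => h i (Finset.mem_insert_of_mem hi))
lemma PI.prod {ι : Type*} (s : Finset ι) {f : ι → ℚ} (h : ∀ i ∈ s, PI p (f i)) :
    PI p (∏ i ∈ s, f i) := by
  classical
  induction s using Finset.induction_on with
  | empty => rw [Finset.prod_empty]; exact PI_one
  | insert a s ha ih =>
    rw [Finset.prod_insert ha]
    exact (h a (Finset.mem_insert_self _ _)).mul
      (ih fun i hi => h i (Finset.mem_insert_of_mem hi))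
lemma PI_inv_nat {n : ℕ} (h : ¬ p ∣ n) : PI p ((n : ℚ)⁻¹) := by
  have hn : n ≠ 0 := by rintro rfl; exact h (dvd_zero _)
  have h0 : (n : ℚ) ≠ 0 := by exact_mod_cast hn
  rw [PI_val (inv_ne_zero h0), padicValRat.inv, padicValRat.of_nat,
    padicValNat.eq_zero_of_not_dvd h]
  simp
lemma PI_inv_int {n : ℤ} (h : ¬ (p : ℤ) ∣ n) : PI p ((n : ℚ)⁻¹) := by
  have hn : n ≠ 0 := by rintro rfl; exact h (dvd_zero _)
  have h0 : (n : ℚ) ≠ 0 := by exact_mod_cast hn
  rw [PI_val (inv_ne_zero h0), padicValRat.inv, padicValRat.of_int,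
    padicValInt.eq_zero_of_not_dvd h]
  simp

lemma red_add {a b : ℚ} (ha : PI p a) (hb : PI p b) : red p (a + b) = red p a + red p b :=
  Rat.cast_add_of_ne_zero (den_ne ha) (den_ne hb)
lemma red_mul {a b : ℚ} (ha : PI p a) (hb : PI p b) : red p (a * b) = red p a * red p b :=
  Rat.cast_mul_of_ne_zero (den_ne ha) (den_ne hb)
lemma red_int (n : ℤ) : red p (n : ℚ) = n := Rat.cast_intCast n
lemma red_nat (n : ℕ) : red p (n : ℚ) = n := Rat.cast_natCast n
lemma red_zero : red p 0 = 0 := by simpa using red_nat (p := p) 0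
lemma red_one : red p 1 = 1 := by simpa using red_nat (p := p) 1
lemma red_neg {a : ℚ} : red p (-a) = -red p a := Rat.cast_neg a
lemma red_sub {a b : ℚ} (ha : PI p a) (hb : PI p b) : red p (a - b) = red p a - red p b := by
  rw [sub_eq_add_neg, red_add ha hb.neg, red_neg, sub_eq_add_neg]
lemma red_sum {ι : Type*} (s : Finset ι) {f : ι → ℚ} (h : ∀ i ∈ s, PI p (f i)) :
    red p (∑ i ∈ s, f i) = ∑ i ∈ s, red p (f i) := by
  classical
  induction s using Finset.induction_on with
  | empty => simpa using red_zero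
  | insert a s ha ih =>
    rw [Finset.sum_insert ha, Finset.sum_insert ha,
      red_add (h a (Finset.mem_insert_self _ _))
        (PI.sum s fun i hi => h i (Finset.mem_insert_of_mem hi)),
      ih fun i hi => h i (Finset.mem_insert_of_mem hi)]
lemma red_pow {a : ℚ} (ha : PI p a) (n : ℕ) : red p (a ^ n) = red p a ^ n := by
  induction n with
  | zero => simpa using red_one
  | succ n ih => rw [pow_succ, red_mul (ha.pow n) ha, ih, pow_succ]

/-- `red a = 0` iff `a / p` is integral -/
lemma red_eq_zero {a : ℚ} (ha : PI p a) : red p a = 0 ↔ PI p (a / p) := by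
  have hp0 : (p : ℚ) ≠ 0 := by exact_mod_cast hp.out.ne_zero
  constructor
  · intro h
    have h1 : (a.num : ZMod p) = 0 := by
      have : red p a = (a.num : ZMod p) / (a.den : ZMod p) := rfl
      rw [this, div_eq_zero_iff] at h
      exact h.resolve_right (den_ne ha)
    rw [ZMod.intCast_zmod_eq_zero_iff_dvd] at h1
    obtain ⟨m, hm⟩ := h1
    have h2 : a / p = m * ((a.den : ℚ))⁻¹ := by
      rw [div_eq_iff hp0]
      conv_lhs => rw [← Rat.num_div_den a, hm]
      push_cast
      ring
    rw [h2]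
    exact (PI_int m).mul (PI_inv_nat ha)
  · intro h
    have h1 : a = (p : ℕ) * (a / p) := by field_simp
    rw [h1, red_mul (PI_nat p) h, red_nat]
    simp

lemma PI_of_mul_p {a : ℚ} (h : PI p (a / p)) : PI p a := by
  have hp0 : (p : ℚ) ≠ 0 := by exact_mod_cast hp.out.ne_zero
  have h1 : a = (p : ℕ) * (a / p) := by field_simp
  rw [h1]
  exact (PI_nat p).mul h

/-! ### the determinant -/

/-- If `U` is an integral matrix and `(U A)_{rc} ∈ p^(w c) Z_(p)`, then
`v_p (det A) ≥ Σ w - v_p (det U)`. -/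
theorem val_det {ι : Type*} [Fintype ι] [DecidableEq ι] (U : Matrix ι ι ℤ) (A : Matrix ι ι ℚ)
    (w : ι → ℤ) (hU : U.det ≠ 0) (hA : A.det ≠ 0)
    (h : ∀ r c, PI p ((∑ i, (U r i : ℚ) * A i c) * (p : ℚ) ^ (-(w c)))) :
    ∑ c, w c - padicValInt p U.det ≤ padicValRat p A.det := by
  have hp0 : (p : ℚ) ≠ 0 := by exact_mod_cast hp.out.ne_zero
  set V : Matrix ι ι ℚ := U.map (Int.cast) with hV
  set B : Matrix ι ι ℚ := V * A * Matrix.diagonal (fun c => (p : ℚ) ^ (-(w c))) with hB
  have hdV : V.det = (U.det : ℚ) := by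
    have := RingHom.map_det (Int.castRingHom ℚ) U
    simpa [hV] using this.symm
  have hd : B.det = (U.det : ℚ) * A.det * ∏ c, (p : ℚ) ^ (-(w c)) := by
    rw [hB, Matrix.det_mul, Matrix.det_mul, Matrix.det_diagonal, hdV]
  have hBI : PI p B.det := by
    rw [Matrix.det_apply]
    refine PI.sum _ fun σ _ => ?_
    have : (Equiv.Perm.sign σ • ∏ i, B (σ i) i) = ((Equiv.Perm.sign σ : ℤ) : ℚ) * ∏ i, B (σ i) i := by
      rcases Int.units_eq_one_or (Equiv.Perm.sign σ) with h | h <;> simp [h]
    rw [this]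
    refine (PI_int _).mul (PI.prod _ fun i _ => ?_)
    have := h (σ i) i
    rw [hB, Matrix.mul_diagonal, Matrix.mul_apply]
    simpa [hV] using this
  have hU0 : (U.det : ℚ) ≠ 0 := by exact_mod_cast hU
  have hpr : (∏ c, (p : ℚ) ^ (-(w c))) = (p : ℚ) ^ (-∑ c, w c) := by
    have h2 : ∀ s : Finset ι, (∏ c ∈ s, (p : ℚ) ^ (-(w c))) = (p : ℚ) ^ (-∑ c ∈ s, w c) := by
      intro s
      induction s using Finset.induction_on with
      | empty => simp
      | insert a s ha ih =>
        rw [Finset.prod_insert ha, Finset.sum_insert ha, ih, neg_add, zpow_add₀ hp0]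
    exact h2 _
  have hB0 : B.det ≠ 0 := by
    rw [hd, hpr]
    exact mul_ne_zero (mul_ne_zero hU0 hA) (zpow_ne_zero _ hp0)
  rw [PI_val hB0, hd, hpr, padicValRat.mul (mul_ne_zero hU0 hA) (zpow_ne_zero _ hp0),
    padicValRat.mul hU0 hA, padicValRat.zpow, padicValRat.self hp.out.one_lt,
    padicValRat.of_int] at hBI
  linarith

/-- kernel lattices: the vectors of `Z^ι` whose reduction is killed by `φ` -/
theorem exists_lattice {ι W : Type*} [Fintype ι] [DecidableEq ι] [AddCommGroup W]
    [Module (ZMod p) W] (φ : (ι → ZMod p) →ₗ[ZMod p] W) (N : ℕ)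
    (hN : Module.finrank (ZMod p) (LinearMap.range φ) ≤ N) :
    ∃ U : Matrix ι ι ℤ, U.det ≠ 0 ∧ padicValInt p U.det ≤ N ∧
      ∀ r, φ (fun i => (U r i : ZMod p)) = 0 := by
  classical
  -- a basis of `ker φ` extended to a basis
  set Kr := LinearMap.ker φ with hKr
  obtain ⟨Q, hQ⟩ := Submodule.exists_isCompl Kr
  let e : (Kr × Q) ≃ₗ[ZMod p] (ι → ZMod p) := Submodule.prodEquivOfIsCompl Kr Q hQ
  let bK := Module.finBasis (ZMod p) Kr
  let bQ := Module.finBasis (ZMod p) Q
  let b0 := (bK.prod bQ).map e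
  have hcard : Fintype.card (Fin (Module.finrank (ZMod p) Kr) ⊕ Fin (Module.finrank (ZMod p) Q))
      = Fintype.card ι := by
    rw [← Module.finrank_eq_card_basis b0, Module.finrank_fintype_fun_eq_card]
  let eq := Fintype.equivOfCardEq hcard
  let b := b0.reindex eq
  have hQN : Module.finrank (ZMod p) Q ≤ N := by
    have h1 := LinearMap.finrank_range_add_finrank_ker φ
    have h2 := Submodule.finrank_add_eq_of_isCompl hQ
    rw [← hKr] at h1
    omega
  -- integral lift
  let B : Matrix ι ι ℤ := Matrix.of fun r i => (((b r i).val : ℕ) : ℤ)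
  have hBa : ∀ r i, ((B r i : ℤ) : ZMod p) = b r i := fun r i => by
    change (((((b r i).val : ℕ) : ℤ)) : ZMod p) = b r i
    rw [Int.cast_natCast, ZMod.natCast_val, ZMod.cast_id]
  let s : ι → ℤ := fun r => match eq.symm r with
    | Sum.inl _ => 1
    | Sum.inr _ => p
  refine ⟨Matrix.diagonal s * B, ?_, ?_, ?_⟩
  all_goals
    have hBd : ¬ (p : ℤ) ∣ B.det := by
      intro hdvd
      have h1 : ((B.det : ℤ) : ZMod p) = 0 := by
        rwa [ZMod.intCast_zmod_eq_zero_iff_dvd]
      have h2 : ((B.det : ℤ) : ZMod p) = (Matrix.of (fun r i => b r i)).det := by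
        have := RingHom.map_det (Int.castRingHom (ZMod p)) B
        rw [eq_intCast] at this
        rw [this]
        congr 1
        ext r i
        exact hBa r i
      have h3 : IsUnit (Matrix.of (fun r i => b r i)).det := by
        have h4 := (Pi.basisFun (ZMod p) ι).invertibleToMatrix b
        have h5 : (Pi.basisFun (ZMod p) ι).toMatrix b = (Matrix.of (fun r i => b r i)).transpose := by
          ext i r
          simp [Module.Basis.toMatrix_apply]
        have h6 := Matrix.isUnit_det_of_invertible ((Pi.basisFun (ZMod p) ι).toMatrix b)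
        rwa [h5, Matrix.det_transpose] at h6
      rw [← h2, h1] at h3
      exact not_isUnit_zero h3
    have hds : (Matrix.diagonal s).det = (p : ℤ) ^ (Module.finrank (ZMod p) Q) := by
      rw [Matrix.det_diagonal, ← Equiv.prod_comp eq]
      rw [Fintype.prod_sum_type]
      simp [s]
  · rw [Matrix.det_mul, hds]
    refine mul_ne_zero (pow_ne_zero _ (by exact_mod_cast hp.out.ne_zero)) ?_
    intro h0
    exact hBd (h0 ▸ dvd_zero _)
  · rw [Matrix.det_mul, hds]
    have hB0 : B.det ≠ 0 := fun h0 => hBd (h0 ▸ dvd_zero _)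
    rw [padicValInt.mul (pow_ne_zero _ (by exact_mod_cast hp.out.ne_zero)) hB0,
      padicValInt.eq_zero_of_not_dvd hBd]
    have : padicValInt p ((p : ℤ) ^ Module.finrank (ZMod p) Q) = Module.finrank (ZMod p) Q := by
      have h1 : ((p : ℤ) ^ Module.finrank (ZMod p) Q) = ((p ^ Module.finrank (ZMod p) Q : ℕ) : ℤ) := by
        push_cast; rfl
      rw [h1, padicValInt.of_nat, padicValNat.prime_pow]
    omega
  · intro r
    have h1 : (fun i => (((Matrix.diagonal s * B) r i : ℤ) : ZMod p))
        = ((s r : ℤ) : ZMod p) • b r := by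
      ext i
      rw [Matrix.diagonal_mul, Int.cast_mul, hBa, Pi.smul_apply, smul_eq_mul]
    rw [h1, map_smul]
    rcases hs : eq.symm r with a | a
    · have h2 : b r = (bK a : ι → ZMod p) := by
        simp only [b, Module.Basis.reindex_apply, hs, b0, Module.Basis.map_apply,
          Module.Basis.prod_apply, e]
        rw [Submodule.coe_prodEquivOfIsCompl' ]
        simp
      rw [h2]
      have h3 : φ (bK a : ι → ZMod p) = 0 := (bK a).2
      rw [h3, smul_zero]
    · have h2 : ((s r : ℤ) : ZMod p) = 0 := by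
        simp [s, hs]
      rw [h2, zero_smul]

end Vale.Agent.P030.H641
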