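import Vale.Agent.P030.H641.Adapt
import Vale.Agent.P030.H792.TabPoly

/-!
# P030, odd primes: the Wronskian rows of `x2`, `xl` at all orders
-/

open PowerSeries

namespace Vale.Agent.P030.H641

open Vale.Agent.P030.T Vale.Agent.P030.H678 Vale.Agent.P030.H792

variable {p : ℕ} [hp : Fact p.Prime]

/-- a series in `X^p` is `up` of a series -/
lemma PS.exists_up {f : (ZMod p)⟦X⟧} (hf : PS p f) : ∃ τ, f = H392.up p τ := by
  refine ⟨mk fun n => coeff (p * n) f, ?_⟩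
  ext k
  rw [H392.coeff_up]
  split_ifs with h
  · rw [coeff_mk, Nat.mul_div_cancel' h]
  · exact hf k h

/-- an antiderivative of something divisible by `p` is a series in `X^p` modulo `p` -/
lemma exists_PS_of_dd {Z : ℚ⟦X⟧} {N : ℕ} {e : ℤ} (hZ : VB p (N + 1) (e - 1) Z)
    (hd : VB p N e (dd Z)) :
    ∃ F : (ZMod p)⟦X⟧, PS p F ∧ Rd p (N + 1) (C ((p : ℚ) ^ (1 - e)) * Z) F := by
  have hp0 : (p : ℚ) ≠ 0 := by exact_mod_cast hp.out.ne_zero
  have hp1 : (1 : ℚ) < p := by exact_mod_cast hp.out.one_lt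
  have hcoef : ∀ k, coeff k (C ((p : ℚ) ^ (1 - e)) * Z) = (p : ℚ) ^ (1 - e) * coeff k Z :=
    fun k => coeff_C_mul _ _ _
  have hint : ∀ k < N + 1, padicNorm p (coeff k (C ((p : ℚ) ^ (1 - e)) * Z)) ≤ 1 := by
    intro k hk
    rw [hcoef, padicNorm.mul, ppow_norm]
    have h1 : padicNorm p (coeff k Z) ≤ (p : ℚ) ^ (-(e - 1)) := hZ k hk
    calc (p : ℚ) ^ (-(1 - e)) * padicNorm p (coeff k Z)
        ≤ (p : ℚ) ^ (-(1 - e)) * (p : ℚ) ^ (-(e - 1)) :=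
          mul_le_mul_of_nonneg_left h1 (by positivity)
      _ = 1 := by rw [← zpow_add₀ hp0]; simp
  refine ⟨mk fun k => if k < N + 1 ∧ p ∣ k then
    ((coeff k (C ((p : ℚ) ^ (1 - e)) * Z) : ℚ) : ZMod p) else 0, ?_, ?_⟩
  · intro k hk
    rw [coeff_mk, if_neg (fun h => hk h.2)]
  · intro k hk
    refine ⟨hint k hk, ?_⟩
    rw [coeff_mk]
    by_cases hd' : p ∣ k
    · rw [if_pos ⟨hk, hd'⟩]
    · rw [if_neg (fun h => hd' h.2)]
      rcases k with _ | k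
      · exact absurd (dvd_zero p) hd'
      · have h1 : Vg p e (((k : ℚ) + 1) * coeff (k + 1) Z) := by
          have := hd k (by omega)
          unfold T.dd at this
          rwa [coeff_mk] at this
        have h2 : Vg p e (coeff (k + 1) Z) := by
          have := Vg.div_unit hd' h1
          have h3 : ((k : ℚ) + 1) * coeff (k + 1) Z / ((k + 1 : ℕ) : ℚ) = coeff (k + 1) Z := by
            push_cast
            have : ((k : ℚ) + 1) ≠ 0 := by positivity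
            field_simp
          rwa [h3] at this
        have h4 : padicNorm p (coeff (k + 1) (C ((p : ℚ) ^ (1 - e)) * Z)) < 1 := by
          rw [hcoef, padicNorm.mul, ppow_norm]
          have h5 : padicNorm p (coeff (k + 1) Z) ≤ (p : ℚ) ^ (-e) := h2
          calc (p : ℚ) ^ (-(1 - e)) * padicNorm p (coeff (k + 1) Z)
              ≤ (p : ℚ) ^ (-(1 - e)) * (p : ℚ) ^ (-e) :=
                mul_le_mul_of_nonneg_left h5 (by positivity)
            _ = (p : ℚ) ^ (-1 : ℤ) := by rw [← zpow_add₀ hp0]; congr 1; ring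
            _ < 1 := zpow_lt_one' (by norm_num)
        exact red_eq_zero_of_lt h4

omit hp in
lemma hQ3 (a : ℕ) : hQ p a 3 = H792.cB ℚ 3 ^ (p - 1) * Hc p a (ch 1) := by
  unfold hQ Hc
  rw [Finset.mul_sum]
  refine Finset.sum_congr rfl fun q hq => ?_
  have hq' := Finset.mem_range.1 hq
  have hg : (1 - X : ℚ⟦X⟧) * geo = 1 := by rw [mul_comm]; exact geo_mul
  have hAB : H792.cA ℚ 3 = H792.cB ℚ 3 * ch 1 := by
    show C (-1 / 2 : ℚ) * (1 + X) = C (-1 / 2 : ℚ) * (1 - X) * (C 1 * ((1 + X) * geo))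
    rw [map_one, one_mul]
    linear_combination (-(C (-1 / 2 : ℚ)) * (1 + X)) * hg
  have e1 : H792.cB ℚ 3 ^ (p - 1) = H792.cB ℚ 3 ^ (p - 1 - q) * H792.cB ℚ 3 ^ q := by
    rw [← pow_add]; congr 1; omega
  rw [hAB, mul_pow, e1]
  unfold hK
  ring

omit hp in
/-- the main identity at `c3` -/
lemma row3_eq (h2 : p % 2 = 1) (G : ℚ⟦X⟧) :
    hQ p 0 3 * (X * tw G) - hQ p 1 3 * (X * G)
      = C (-2) * (H792.cB ℚ 3 ^ p * (X * geo * WW p 1 G)) := by
  have hg : (1 - X : ℚ⟦X⟧) * geo = 1 := by rw [mul_comm]; exact geo_mul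
  rw [hQ3, hQ3]
  have hB : C (-2) * H792.cB ℚ 3 = 1 - X := by
    show C (-2 : ℚ) * (C (-1 / 2 : ℚ) * (1 - X)) = 1 - X
    rw [← mul_assoc, ← map_mul]
    norm_num
  have e1 : H792.cB ℚ 3 ^ p = H792.cB ℚ 3 ^ (p - 1) * H792.cB ℚ 3 := by
    rw [← pow_succ]; congr 1; omega
  unfold WW
  rw [e1]
  have h3 : C (-2) * (H792.cB ℚ 3 ^ (p - 1) * H792.cB ℚ 3
      * (X * geo * (Hc p 0 (ch 1) * tw G - Hc p 1 (ch 1) * G)))
      = H792.cB ℚ 3 ^ (p - 1) * X * (Hc p 0 (ch 1) * tw G - Hc p 1 (ch 1) * G)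
        * ((C (-2) * H792.cB ℚ 3) * geo) := by ring
  rw [h3, hB, hg]
  ring

lemma dd_WW_K (h2 : p ≠ 2) {N : ℕ} (hN : N + 1 ≤ p ^ 2) :
    VB p N 2 (dd (X * geo * WW p 1 serK)) ∧ VB p (N + 1) 1 (X * geo * WW p 1 serK) := by
  have h := dd_WW (p := p) (s := 1) (Or.inl rfl) (odd_of_ne_two h2) serK
  have h1 : VB p N 2 (dd (X * geo * WW p 1 serK)) := by
    rw [h, EE_K]
    refine (VB.C (Vg_half h2)).mul0 (VB.sub ?_ ?_)
    · rw [mul_zero, mul_zero]; exact VB.zero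
    · refine VB.mul0 (VB.geo2.mul0 (VB.one.sub VB.X)) ?_
      exact ((VBK h2 N).mul (VB_eps h2 (Or.inl rfl))).mono (by omega)
  refine ⟨h1, ?_⟩
  have h3 := VB_of_dd hN h1 (by
    have : coeff 0 (X * geo * WW p 1 serK) = 0 := by
      rw [mul_assoc, coeff_zero_X_mul]
    rw [this]; exact Vg.zero _)
  exact h3

/-- **(R3) for a multiple of the `K`-branch at `c3`, all orders** -/
theorem r3_c3 (h2 : p ≠ 2) {N : ℕ} (hN : N + 1 ≤ p ^ 2) {q : ℚ} (hq : padicNorm p q ≤ 1) :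
    ∃ τ, Rd p (N + 1) (C ((p : ℚ) ^ (1 - 2 : ℤ))
      * (hQ p 0 3 * sc q (X * tw serK) - hQ p 1 3 * sc q (X * serK)))
      (H392.cY p 3 ^ (p - 1) * H392.up p τ) := by
  obtain ⟨h3, h4⟩ := dd_WW_K h2 hN
  obtain ⟨F, hF, hR⟩ := exists_PS_of_dd (e := 2) h4 h3
  have hodd := odd_of_ne_two h2
  have e1 : C ((p : ℚ) ^ (1 - 2 : ℤ))
      * (hQ p 0 3 * sc q (X * tw serK) - hQ p 1 3 * sc q (X * serK))
      = C q * (C (-2) * (H792.cB ℚ 3 ^ p
        * (C ((p : ℚ) ^ (1 - 2 : ℤ)) * (X * geo * WW p 1 serK)))) := by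
    have h5 := row3_eq hodd serK
    unfold T.sc
    linear_combination (C ((p : ℚ) ^ (1 - 2 : ℤ)) * C q) * h5
  have h6 : Rd p (N + 1) (C q * (C (-2) * (H792.cB ℚ 3 ^ p
        * (C ((p : ℚ) ^ (1 - 2 : ℤ)) * (X * geo * WW p 1 serK)))))
      (C ((q : ℚ) : ZMod p) * (C (((-2 : ℚ)) : ZMod p) * (H792.cB (ZMod p) 3 ^ p * F))) := by
    refine (Rd.C hq).mul ((Rd.C ?_).mul (((rd_cB h2 3).pow p).mul hR))
    have := padicNorm.of_int (p := p) (-2)
    simpa using this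
  have hcY : H392.cY p 3 = C (-1) := by
    show -(C (1 / 2 : ZMod p) * (1 + X)) + -(C (1 / 2 : ZMod p) * (1 - X)) = C (-1)
    have h7 : (C (1 / 2 : ZMod p) : (ZMod p)⟦X⟧) * 2 = 1 := by
      have : (2 : (ZMod p)⟦X⟧) = C (2 : ZMod p) := (map_ofNat C 2).symm
      rw [this, ← map_mul, one_div, inv_mul_cancel₀ (two_ne h2), map_one]
    rw [map_neg, map_one]
    linear_combination -h7
  have hcY' : H392.cY p 3 ^ (p - 1) = 1 := by
    rw [hcY, ← map_pow]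
    have : (-1 : ZMod p) ^ (p - 1) = 1 := by
      apply Even.neg_one_pow
      rw [Nat.even_iff]; omega
    rw [this, map_one]
  have hPS : PS p (C ((q : ℚ) : ZMod p) * (C (((-2 : ℚ)) : ZMod p)
      * (H792.cB (ZMod p) 3 ^ p * F))) := by
    have hC : ∀ z : ZMod p, PS p (C z : (ZMod p)⟦X⟧) := by
      intro z
      rw [PS_iff, derivative_C]
    exact (hC _).mul ((hC _).mul ((PS_pow_p _).mul hF))
  obtain ⟨τ, hτ⟩ := hPS.exists_up
  refine ⟨τ, ?_⟩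
  rw [hcY', one_mul, ← hτ, e1]
  exact h6

/-- **(R3) for `x2`, all orders** -/
theorem r3_x2 (h2 : p ≠ 2) {N : ℕ} (hN : N + 1 ≤ p ^ 2) :
    ∃ τ, Rd p (N + 1) (C ((p : ℚ) ^ (1 - H678.wg .x2))
      * (hQ p 0 Gp.x2.cusp * tup0 .x2 7 - hQ p 1 Gp.x2.cusp * tup0 .x2 6))
      (H392.cY p Gp.x2.cusp ^ (p - 1) * H392.up p τ) :=
  r3_c3 h2 hN (by
    have h : padicNorm p (1 / 8 : ℚ) ≤ (p : ℚ) ^ (-(0 : ℤ)) := Vg_eighth h2
    simpa using h)

end Vale.Agent.P030.H641
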