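import Vale.Agent.P030.H641.Gain
import Vale.Agent.P030.H678.RdAll

/-!
# P030, odd primes: the reductions for all primes, unconditional; the dip
-/

open PowerSeries

namespace Vale.Agent.P030.H641

open Vale.Agent.P030.T Vale.Agent.P030.H792

/-- the reductions at orders below `p` at `c2`, `c3` -/
theorem redAll (c0 : ℕ) : RedAll c0 :=
  redAll_of_tab fun p _ h5 _ hN _ =>
    ⟨H678.mdat p, H678.rdTab (by omega) (by omega) (fun g => by have := hN g; omega)⟩

/-- the reductions at all orders -/
theorem redFull (c0 : ℕ) : RedFull c0 := by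
  intro p hp h5 s x hx hpD hsq
  have hs : 1 ≤ s := by
    by_contra h
    have : s = 0 := by omega
    subst this
    omega
  have hN : ∀ g, H579.parA.ht g * s + c0 + 1 ≤ p ^ 2 := by
    intro g
    have h1 : H579.parA.ht g ≤ 32 := by cases g <;> decide
    have h2 := Nat.mul_le_mul_right s h1
    omega
  refine redA_of_tab (by omega) ?_ hx hN (H678.rdTab (by omega) (by omega) hN)
  have : H579.parA.D0 = 27 := rfl
  rw [this]; omega

/-- **the dip, unconditional** -/
theorem locRange_dipF (c0 : ℕ) : LocRange H579.parA c0 9 (47 / 4) phiDip :=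
  locRange_dip (redAll c0)

end Vale.Agent.P030.H641
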