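import Vale.Agent.P030.H641.RedF

/-!
# P030, odd primes: explicit form of the class gain for small quotients
-/

open Finset

namespace Vale.Agent.P030.H641

open Vale.Agent.P030.T Vale.Agent.P030.H792

/-- the orders of the groups at `c2`, `c3` -/
def Jv (j1 j2 j3 j4 j5 j6 j7 : ℕ) : Gp → ℕ
  | .v2 => j1
  | .vl => j2
  | .v8 => j3
  | .vb => j4
  | .x2 => j5
  | .xl => j6
  | .x1 => j7
  | _ => 0

theorem Pcs.cons {f : ℕ → ℤ} {n c a b : ℕ} {w : ℤ} {L : List (ℕ × ℕ × ℤ)} (h1 : c ≤ a)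
    (h2 : a ≤ b) (h3 : ∀ i, a ≤ i → i < b → w ≤ f i) (h4 : Pcs f n b L) :
    Pcs f n c ((a, b, w) :: L) := ⟨h1, h2, h3, h4⟩

theorem Pcs.nil {f : ℕ → ℤ} {n c : ℕ} (h : c ≤ n) : Pcs f n c [] := h

theorem pcv_cons {a b : ℕ} {w : ℤ} {L : List (ℕ × ℕ × ℤ)} :
    pcv ((a, b, w) :: L) = w * ((b : ℤ) - a) + pcv L := rfl

theorem pcv_nil : pcv [] = 0 := rfl

variable {p : ℕ} [hp : Fact p.Prime]

theorem wt_ge' (d : CD p) {s c0 : ℕ} (hD : d.D = 27 * s)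
    (hN : ∀ g, d.N g = H579.parA.ht g * s + c0) (hpD : p ≤ 27 * s)
    {j1 j2 j3 j4 j5 j6 j7 : ℕ} {i : ℕ} (r m m' n n' : ℕ) {w : ℤ}
    (hw : w = 2 * m + 2 * m' + 3 * n + 3 * n' + (j1 + j2 + j3 + j4 + j5 + j6 + j7) - 8 * r)
    (hi : i < p ∧ 27 * s + 1 ≤ i + p * r ∧ i + p * r + 1 ≤ 27 * s + p ∧
      i + p * m < 32 * s + p ∧ i + p * m' < 4 * s + p ∧
      27 * s + p * n < 32 * s + 1 + i + p * r ∧
      27 * s + p * n' < 2 * s + 1 + i + p * r) :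
    w ≤ max (d.wt (Jv j1 j2 j3 j4 j5 j6 j7) i) 0 := by
  obtain ⟨h0, h1, h2, h3, h4, h5, h6⟩ := hi
  have h := d.wt_ge hD hN hpD (Jv j1 j2 j3 j4 j5 j6 j7) r m m' n n' h0 h1 h2 h3 h4 h5 h6
  refine le_max_of_le_left (le_trans (le_of_eq ?_) h)
  rw [hw]
  rfl

/-- the cost with explicit orders -/
theorem lr_sq {c0 : ℕ} {a b c d : ℝ} (na da nb db : ℕ) (c' d' : ℤ)
    (j1 j2 j3 j4 j5 j6 j7 : ℕ) (jt : ℤ) (hn : (da ≤ na ∧ 0 < da ∧ 0 < db ∧ nb ≤ 27 * db) ∧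
      jt = j1 + j2 + j3 + j4 + j5 + j6 + j7)
    (hna : na < 40 ∧ 2 ≤ na ∧ Nat.Coprime na da)
    (hr : (na : ℝ) = a * da ∧ (nb : ℝ) = b * db ∧ (c' : ℝ) = c ∧ (d' : ℝ) = d)
    (h : ∀ (p : ℕ) [Fact p.Prime] (s : ℕ), na * s < da * p → db * p < nb * s → c0 + 40 ≤ s →
      p ≤ 27 * s → ∃ L : List (ℕ × ℕ × ℤ),
        (∀ dd : CD p, dd.D = 27 * s → (∀ g, dd.N g = H579.parA.ht g * s + c0) →
          Pcs (fun i => max (dd.wt (Jv j1 j2 j3 j4 j5 j6 j7) i) 0) p 0 L) ∧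
        -(c' * p + d' * s) - 100 * (c0 + 1) ≤ 42 * (s : ℤ) - p * jt
      - (((12 * s + c0 - p * j1 : ℕ) : ℤ) + ((4 * s + c0 - p * j2 : ℕ) : ℤ)
        + ((4 * s + c0 - p * j3 : ℕ) : ℤ) + ((4 * s + c0 - p * j4 : ℕ) : ℤ)
        + ((10 * s + c0 - p * j5 : ℕ) : ℤ) + ((4 * s + c0 - p * j6 : ℕ) : ℤ)
        + ((4 * s + c0 - p * j7 : ℕ) : ℤ)) + pcv L - (65 * s + p) - 18 * c0) :
    LocRange H579.parA c0 a b (fun q => c * q + d) := by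
  obtain ⟨⟨h1, h2, h3, h4⟩, h5⟩ := hn
  refine lr_of_gain (redFull c0) na da nb db c' d' 100 h1 h2 h3 hr.1 hr.2.1 h4 hr.2.2.1 hr.2.2.2
    (Jv j1 j2 j3 j4 j5 j6 j7) ?_
  intro p hp s g1 g2 g3 g4
  have g5 : na * s < da * p := by
    rcases g1.lt_or_eq with g | g
    · exact g
    · exfalso
      have e1 : na ∣ da * p := ⟨s, g.symm⟩
      have e2 := hna.2.2.dvd_of_dvd_mul_left e1
      have e3 : da * s ≤ da * p := (Nat.mul_le_mul_right s h1).trans g1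
      have e4 := Nat.le_of_mul_le_mul_left e3 h2
      rcases (Nat.dvd_prime hp.out).1 e2 with e5 | e5
      · omega
      · omega
  obtain ⟨L, hL, hI⟩ := h p s g5 g2 g3 g4
  refine ⟨L, hL, le_trans (le_trans ?_ hI) (le_of_eq ?_)⟩
  · push_cast; exact le_rfl
  · rw [h5]; rfl

end Vale.Agent.P030.H641
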