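import Vale.Agent.P030.H641.Sq

/-!
# P030, odd primes: class gain for small quotients, pieces 0 to 10

Generated certificates: for each range of `q = p / s` an explicit list of intervals of classes.
-/

open Finset

namespace Vale.Agent.P030.H641

open Vale.Agent.P030.T Vale.Agent.P030.H792

theorem sq0 (c0 : ℕ) : LocRange H579.parA c0 (9 / 7) (30 / 23) (fun q => (-7) * q + 75) := by
  refine lr_sq 9 7 30 23 (-7) 75 9 3 3 3 8 3 3 32 (by norm_num) (by norm_num) (by norm_num) ?_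
  intro p hp s h1 h2 h3 h4
  refine ⟨[(25 * s - 19 * p, 32 * s - 24 * p, 1), (27 * s + 1 - 20 * p, max (27 * s + 1 - 20 * p) (p), 1)], fun dd hD hN => ?_, ?_⟩
  · exact
    Pcs.cons (by omega) (by omega) (fun i h5 h6 => wt_ge' dd hD hN h4 21 25 3 25 2 (by norm_num) (by omega)) <|
    Pcs.cons (by omega) (by omega) (fun i h5 h6 => wt_ge' dd hD hN h4 20 24 3 24 1 (by norm_num) (by omega)) <|
    Pcs.nil (by omega)
  · rw [pcv_cons, pcv_cons, pcv_nil]; omega

theorem sq1 (c0 : ℕ) : LocRange H579.parA c0 (37 / 28) (4 / 3) (fun q => (-69) * q + 157) := by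
  refine lr_sq 37 28 4 3 (-69) 157 9 3 3 3 8 3 3 32 (by norm_num) (by norm_num) (by norm_num) ?_
  intro p hp s h1 h2 h3 h4
  refine ⟨[(27 * s + 1 - 20 * p, max (27 * s + 1 - 20 * p) (25 * s - 18 * p), 1), (25 * s - 18 * p, p, 4)], fun dd hD hN => ?_, ?_⟩
  · exact
    Pcs.cons (by omega) (by omega) (fun i h5 h6 => wt_ge' dd hD hN h4 20 24 3 24 1 (by norm_num) (by omega)) <|
    Pcs.cons (by omega) (by omega) (fun i h5 h6 => wt_ge' dd hD hN h4 20 24 3 24 2 (by norm_num) (by omega)) <|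
    Pcs.nil (by omega)
  · rw [pcv_cons, pcv_cons, pcv_nil]; omega

theorem sq2 (c0 : ℕ) : LocRange H579.parA c0 (4 / 3) (27 / 20) (fun q => 33 * q + 21) := by
  refine lr_sq 4 3 27 20 33 21 9 3 3 3 8 3 3 32 (by norm_num) (by norm_num) (by norm_num) ?_
  intro p hp s h1 h2 h3 h4
  refine ⟨[(4 * p - 5 * s, 25 * s - 18 * p, 1), (25 * s - 18 * p, 32 * s - 23 * p, 4), (32 * s - 23 * p, 4 * s - 2 * p, 2)], fun dd hD hN => ?_, ?_⟩
  · exact
    Pcs.cons (by omega) (by omega) (fun i h5 h6 => wt_ge' dd hD hN h4 20 24 3 24 1 (by norm_num) (by omega)) <|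
    Pcs.cons (by omega) (by omega) (fun i h5 h6 => wt_ge' dd hD hN h4 20 24 3 24 2 (by norm_num) (by omega)) <|
    Pcs.cons (by omega) (by omega) (fun i h5 h6 => wt_ge' dd hD hN h4 20 23 3 24 2 (by norm_num) (by omega)) <|
    Pcs.nil (by omega)
  · rw [pcv_cons, pcv_cons, pcv_cons, pcv_nil]; omega

theorem sq3 (c0 : ℕ) : LocRange H579.parA c0 (23 / 17) (15 / 11) (fun q => (-7) * q + 75) := by
  refine lr_sq 23 17 15 11 (-7) 75 9 3 3 3 8 3 3 32 (by norm_num) (by norm_num) (by norm_num) ?_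
  intro p hp s h1 h2 h3 h4
  refine ⟨[(4 * p - 5 * s, 25 * s - 18 * p, 1), (25 * s - 18 * p, 32 * s - 23 * p, 4), (32 * s - 23 * p, 27 * s - 19 * p, 2), (27 * s + 1 - 19 * p, max (27 * s + 1 - 19 * p) (4 * s - 2 * p), 4), (4 * s - 2 * p, p, 2)], fun dd hD hN => ?_, ?_⟩
  · exact
    Pcs.cons (by omega) (by omega) (fun i h5 h6 => wt_ge' dd hD hN h4 20 24 3 24 1 (by norm_num) (by omega)) <|
    Pcs.cons (by omega) (by omega) (fun i h5 h6 => wt_ge' dd hD hN h4 20 24 3 24 2 (by norm_num) (by omega)) <|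
    Pcs.cons (by omega) (by omega) (fun i h5 h6 => wt_ge' dd hD hN h4 20 23 3 24 2 (by norm_num) (by omega)) <|
    Pcs.cons (by omega) (by omega) (fun i h5 h6 => wt_ge' dd hD hN h4 19 23 3 23 1 (by norm_num) (by omega)) <|
    Pcs.cons (by omega) (by omega) (fun i h5 h6 => wt_ge' dd hD hN h4 19 23 2 23 1 (by norm_num) (by omega)) <|
    Pcs.nil (by omega)
  · rw [pcv_cons, pcv_cons, pcv_cons, pcv_cons, pcv_cons, pcv_nil]; omega

theorem sq4 (c0 : ℕ) : LocRange H579.parA c0 (15 / 11) (37 / 27) (fun q => 37 * q + 15) := by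
  refine lr_sq 15 11 37 27 37 15 9 3 3 3 8 3 3 32 (by norm_num) (by norm_num) (by norm_num) ?_
  intro p hp s h1 h2 h3 h4
  refine ⟨[(25 * s - 18 * p, 4 * p - 5 * s, 1), (4 * p - 5 * s, 32 * s - 23 * p, 4), (32 * s - 23 * p, 27 * s - 19 * p, 2), (27 * s + 1 - 19 * p, max (27 * s + 1 - 19 * p) (4 * s - 2 * p), 4), (4 * s - 2 * p, p, 2)], fun dd hD hN => ?_, ?_⟩
  · exact
    Pcs.cons (by omega) (by omega) (fun i h5 h6 => wt_ge' dd hD hN h4 20 24 3 23 2 (by norm_num) (by omega)) <|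
    Pcs.cons (by omega) (by omega) (fun i h5 h6 => wt_ge' dd hD hN h4 20 24 3 24 2 (by norm_num) (by omega)) <|
    Pcs.cons (by omega) (by omega) (fun i h5 h6 => wt_ge' dd hD hN h4 20 23 3 24 2 (by norm_num) (by omega)) <|
    Pcs.cons (by omega) (by omega) (fun i h5 h6 => wt_ge' dd hD hN h4 19 23 3 23 1 (by norm_num) (by omega)) <|
    Pcs.cons (by omega) (by omega) (fun i h5 h6 => wt_ge' dd hD hN h4 19 23 2 23 1 (by norm_num) (by omega)) <|
    Pcs.nil (by omega)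
  · rw [pcv_cons, pcv_cons, pcv_cons, pcv_cons, pcv_cons, pcv_nil]; omega

theorem sq5 (c0 : ℕ) : LocRange H579.parA c0 (11 / 8) (25 / 18) (fun q => (-6) * q + 74) := by
  refine lr_sq 11 8 25 18 (-6) 74 9 3 3 3 7 3 3 31 (by norm_num) (by norm_num) (by norm_num) ?_
  intro p hp s h1 h2 h3 h4
  refine ⟨[(4 * p - 5 * s, 27 * s - 19 * p, 1), (27 * s + 1 - 19 * p, max (27 * s + 1 - 19 * p) (4 * s - 2 * p), 3), (4 * s - 2 * p, p, 1)], fun dd hD hN => ?_, ?_⟩
  · exact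
    Pcs.cons (by omega) (by omega) (fun i h5 h6 => wt_ge' dd hD hN h4 20 23 3 24 2 (by norm_num) (by omega)) <|
    Pcs.cons (by omega) (by omega) (fun i h5 h6 => wt_ge' dd hD hN h4 19 23 3 23 1 (by norm_num) (by omega)) <|
    Pcs.cons (by omega) (by omega) (fun i h5 h6 => wt_ge' dd hD hN h4 19 23 2 23 1 (by norm_num) (by omega)) <|
    Pcs.nil (by omega)
  · rw [pcv_cons, pcv_cons, pcv_cons, pcv_nil]; omega

theorem sq6 (c0 : ℕ) : LocRange H579.parA c0 (32 / 23) (7 / 5) (fun q => 32 * q + 21) := by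
  refine lr_sq 32 23 7 5 32 21 9 3 3 3 7 3 3 31 (by norm_num) (by norm_num) (by norm_num) ?_
  intro p hp s h1 h2 h3 h4
  refine ⟨[(4 * p - 5 * s, 4 * s - 2 * p, 3), (4 * s - 2 * p, 25 * s - 17 * p, 1), (25 * s - 17 * p, 32 * s - 22 * p, 4), (32 * s - 22 * p, p, 2)], fun dd hD hN => ?_, ?_⟩
  · exact
    Pcs.cons (by omega) (by omega) (fun i h5 h6 => wt_ge' dd hD hN h4 19 23 3 23 1 (by norm_num) (by omega)) <|
    Pcs.cons (by omega) (by omega) (fun i h5 h6 => wt_ge' dd hD hN h4 19 23 2 23 1 (by norm_num) (by omega)) <|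
    Pcs.cons (by omega) (by omega) (fun i h5 h6 => wt_ge' dd hD hN h4 19 23 2 23 2 (by norm_num) (by omega)) <|
    Pcs.cons (by omega) (by omega) (fun i h5 h6 => wt_ge' dd hD hN h4 19 22 2 23 2 (by norm_num) (by omega)) <|
    Pcs.nil (by omega)
  · rw [pcv_cons, pcv_cons, pcv_cons, pcv_cons, pcv_nil]; omega

theorem sq7 (c0 : ℕ) : LocRange H579.parA c0 (7 / 5) (17 / 12) (fun q => 32 * q + 21) := by
  refine lr_sq 7 5 17 12 32 21 9 3 3 3 7 3 3 31 (by norm_num) (by norm_num) (by norm_num) ?_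
  intro p hp s h1 h2 h3 h4
  refine ⟨[(4 * p - 5 * s, 32 * s - 22 * p, 3), (32 * s - 22 * p, 25 * s - 17 * p, 1), (25 * s - 17 * p, 4 * s - 2 * p, 4), (4 * s - 2 * p, p, 2)], fun dd hD hN => ?_, ?_⟩
  · exact
    Pcs.cons (by omega) (by omega) (fun i h5 h6 => wt_ge' dd hD hN h4 19 23 3 23 1 (by norm_num) (by omega)) <|
    Pcs.cons (by omega) (by omega) (fun i h5 h6 => wt_ge' dd hD hN h4 19 22 3 23 1 (by norm_num) (by omega)) <|
    Pcs.cons (by omega) (by omega) (fun i h5 h6 => wt_ge' dd hD hN h4 19 22 3 23 2 (by norm_num) (by omega)) <|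
    Pcs.cons (by omega) (by omega) (fun i h5 h6 => wt_ge' dd hD hN h4 19 22 2 23 2 (by norm_num) (by omega)) <|
    Pcs.nil (by omega)
  · rw [pcv_cons, pcv_cons, pcv_cons, pcv_cons, pcv_nil]; omega

theorem sq8 (c0 : ℕ) : LocRange H579.parA c0 (9 / 5) (37 / 20) (fun q => (-14) * q + 92) := by
  refine lr_sq 9 5 37 20 (-14) 92 6 2 2 2 5 2 2 21 (by norm_num) (by norm_num) (by norm_num) ?_
  intro p hp s h1 h2 h3 h4
  refine ⟨[(27 * s + 1 - 14 * p, max (27 * s + 1 - 14 * p) (p), 1)], fun dd hD hN => ?_, ?_⟩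
  · exact
    Pcs.cons (by omega) (by omega) (fun i h5 h6 => wt_ge' dd hD hN h4 14 17 2 17 1 (by norm_num) (by omega)) <|
    Pcs.nil (by omega)
  · rw [pcv_cons, pcv_nil]; omega

theorem sq9 (c0 : ℕ) : LocRange H579.parA c0 (37 / 20) (28 / 15) (fun q => (-14) * q + 92) := by
  refine lr_sq 37 20 28 15 (-14) 92 6 2 2 2 5 2 2 21 (by norm_num) (by norm_num) (by norm_num) ?_
  intro p hp s h1 h2 h3 h4
  refine ⟨[(27 * s + 1 - 14 * p, max (27 * s + 1 - 14 * p) (p), 1)], fun dd hD hN => ?_, ?_⟩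
  · exact
    Pcs.cons (by omega) (by omega) (fun i h5 h6 => wt_ge' dd hD hN h4 14 17 2 17 1 (by norm_num) (by omega)) <|
    Pcs.nil (by omega)
  · rw [pcv_cons, pcv_nil]; omega

theorem sq10 (c0 : ℕ) : LocRange H579.parA c0 (28 / 15) (15 / 8) (fun q => (-14) * q + 92) := by
  refine lr_sq 28 15 15 8 (-14) 92 6 2 2 2 5 2 2 21 (by norm_num) (by norm_num) (by norm_num) ?_
  intro p hp s h1 h2 h3 h4
  refine ⟨[(27 * s + 1 - 14 * p, max (27 * s + 1 - 14 * p) (p), 1)], fun dd hD hN => ?_, ?_⟩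
  · exact
    Pcs.cons (by omega) (by omega) (fun i h5 h6 => wt_ge' dd hD hN h4 14 17 2 17 1 (by norm_num) (by omega)) <|
    Pcs.nil (by omega)
  · rw [pcv_cons, pcv_nil]; omega

end Vale.Agent.P030.H641
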