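import Vale.Agent.P030.H641.Sq

/-!
# P030, odd primes: class gain for small quotients, pieces 11 to 21

Generated certificates: for each range of `q = p / s` an explicit list of intervals of classes.
-/

open Finset

namespace Vale.Agent.P030.H641

open Vale.Agent.P030.T Vale.Agent.P030.H792

theorem sq11 (c0 : ℕ) : LocRange H579.parA c0 (15 / 8) (32 / 17) (fun q => (-22) * q + 107) := by
  refine lr_sq 15 8 32 17 (-22) 107 7 2 2 2 5 2 2 22 (by norm_num) (by norm_num) (by norm_num) ?_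
  intro p hp s h1 h2 h3 h4
  refine ⟨[(27 * s + 1 - 14 * p, max (27 * s + 1 - 14 * p) (p), 2)], fun dd hD hN => ?_, ?_⟩
  · exact
    Pcs.cons (by omega) (by omega) (fun i h5 h6 => wt_ge' dd hD hN h4 14 17 2 17 1 (by norm_num) (by omega)) <|
    Pcs.nil (by omega)
  · rw [pcv_cons, pcv_nil]; omega

theorem sq12 (c0 : ℕ) : LocRange H579.parA c0 (27 / 14) (37 / 19) (fun q => (-34) * q + 132) := by
  refine lr_sq 27 14 37 19 (-34) 132 6 2 2 2 5 2 2 21 (by norm_num) (by norm_num) (by norm_num) ?_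
  intro p hp s h1 h2 h3 h4
  refine ⟨[(3 * p - 5 * s, 32 * s - 16 * p, 1), (25 * s - 12 * p, 27 * s - 13 * p, 2), (27 * s + 1 - 13 * p, max (27 * s + 1 - 13 * p) (p), 4)], fun dd hD hN => ?_, ?_⟩
  · exact
    Pcs.cons (by omega) (by omega) (fun i h5 h6 => wt_ge' dd hD hN h4 14 17 2 17 1 (by norm_num) (by omega)) <|
    Pcs.cons (by omega) (by omega) (fun i h5 h6 => wt_ge' dd hD hN h4 14 16 2 17 2 (by norm_num) (by omega)) <|
    Pcs.cons (by omega) (by omega) (fun i h5 h6 => wt_ge' dd hD hN h4 13 16 2 16 1 (by norm_num) (by omega)) <|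
    Pcs.nil (by omega)
  · rw [pcv_cons, pcv_cons, pcv_cons, pcv_nil]; omega

theorem sq13 (c0 : ℕ) : LocRange H579.parA c0 (37 / 19) (2) (fun q => (-53) * q + 169) := by
  refine lr_sq 37 19 2 1 (-53) 169 6 2 2 2 5 2 2 21 (by norm_num) (by norm_num) (by norm_num) ?_
  intro p hp s h1 h2 h3 h4
  refine ⟨[(25 * s - 12 * p, 27 * s - 13 * p, 2), (27 * s + 1 - 13 * p, max (27 * s + 1 - 13 * p) (p), 4)], fun dd hD hN => ?_, ?_⟩
  · exact
    Pcs.cons (by omega) (by omega) (fun i h5 h6 => wt_ge' dd hD hN h4 14 16 2 17 2 (by norm_num) (by omega)) <|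
    Pcs.cons (by omega) (by omega) (fun i h5 h6 => wt_ge' dd hD hN h4 13 16 2 16 1 (by norm_num) (by omega)) <|
    Pcs.nil (by omega)
  · rw [pcv_cons, pcv_cons, pcv_nil]; omega

theorem sq14 (c0 : ℕ) : LocRange H579.parA c0 (2) (37 / 18) (fun q => 51 * q + (-39)) := by
  refine lr_sq 2 1 37 18 51 (-39) 6 2 2 2 5 2 2 21 (by norm_num) (by norm_num) (by norm_num) ?_
  intro p hp s h1 h2 h3 h4
  refine ⟨[(25 * s - 12 * p, 3 * p - 5 * s, 1), (3 * p - 5 * s, 32 * s - 15 * p, 4), (32 * s - 15 * p, 4 * s - p, 2)], fun dd hD hN => ?_, ?_⟩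
  · exact
    Pcs.cons (by omega) (by omega) (fun i h5 h6 => wt_ge' dd hD hN h4 13 16 2 15 1 (by norm_num) (by omega)) <|
    Pcs.cons (by omega) (by omega) (fun i h5 h6 => wt_ge' dd hD hN h4 13 16 2 16 1 (by norm_num) (by omega)) <|
    Pcs.cons (by omega) (by omega) (fun i h5 h6 => wt_ge' dd hD hN h4 13 15 2 16 1 (by norm_num) (by omega)) <|
    Pcs.nil (by omega)
  · rw [pcv_cons, pcv_cons, pcv_cons, pcv_nil]; omega

theorem sq15 (c0 : ℕ) : LocRange H579.parA c0 (37 / 18) (27 / 13) (fun q => 33 * q + (-2)) := by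
  refine lr_sq 37 18 27 13 33 (-2) 6 2 2 2 5 2 2 21 (by norm_num) (by norm_num) (by norm_num) ?_
  intro p hp s h1 h2 h3 h4
  refine ⟨[(25 * s - 12 * p, 32 * s - 15 * p, 1), (3 * p - 5 * s, 4 * s - p, 2)], fun dd hD hN => ?_, ?_⟩
  · exact
    Pcs.cons (by omega) (by omega) (fun i h5 h6 => wt_ge' dd hD hN h4 13 16 2 15 1 (by norm_num) (by omega)) <|
    Pcs.cons (by omega) (by omega) (fun i h5 h6 => wt_ge' dd hD hN h4 13 15 2 16 1 (by norm_num) (by omega)) <|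
    Pcs.nil (by omega)
  · rw [pcv_cons, pcv_cons, pcv_nil]; omega

theorem sq16 (c0 : ℕ) : LocRange H579.parA c0 (23 / 11) (21 / 10) (fun q => (-17) * q + 102) := by
  refine lr_sq 23 11 21 10 (-17) 102 6 2 2 2 5 2 2 21 (by norm_num) (by norm_num) (by norm_num) ?_
  intro p hp s h1 h2 h3 h4
  refine ⟨[(0, 32 * s - 15 * p, 1), (3 * p - 5 * s, 27 * s - 12 * p, 2), (27 * s + 1 - 12 * p, max (27 * s + 1 - 12 * p) (4 * s - p), 4), (4 * s - p, 25 * s - 11 * p, 2), (25 * s - 11 * p, p, 5)], fun dd hD hN => ?_, ?_⟩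
  · exact
    Pcs.cons (by omega) (by omega) (fun i h5 h6 => wt_ge' dd hD hN h4 13 16 2 15 1 (by norm_num) (by omega)) <|
    Pcs.cons (by omega) (by omega) (fun i h5 h6 => wt_ge' dd hD hN h4 13 15 2 16 1 (by norm_num) (by omega)) <|
    Pcs.cons (by omega) (by omega) (fun i h5 h6 => wt_ge' dd hD hN h4 12 15 2 15 0 (by norm_num) (by omega)) <|
    Pcs.cons (by omega) (by omega) (fun i h5 h6 => wt_ge' dd hD hN h4 12 15 1 15 0 (by norm_num) (by omega)) <|
    Pcs.cons (by omega) (by omega) (fun i h5 h6 => wt_ge' dd hD hN h4 12 15 1 15 1 (by norm_num) (by omega)) <|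
    Pcs.nil (by omega)
  · rw [pcv_cons, pcv_cons, pcv_cons, pcv_cons, pcv_cons, pcv_nil]; omega

theorem sq17 (c0 : ℕ) : LocRange H579.parA c0 (21 / 10) (49 / 23) (fun q => (-17) * q + 102) := by
  refine lr_sq 21 10 49 23 (-17) 102 6 2 2 2 5 2 2 21 (by norm_num) (by norm_num) (by norm_num) ?_
  intro p hp s h1 h2 h3 h4
  refine ⟨[(0, 32 * s - 15 * p, 1), (3 * p - 5 * s, 27 * s - 12 * p, 2), (27 * s + 1 - 12 * p, max (27 * s + 1 - 12 * p) (25 * s - 11 * p), 4), (25 * s - 11 * p, 4 * s - p, 7), (4 * s - p, p, 5)], fun dd hD hN => ?_, ?_⟩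
  · exact
    Pcs.cons (by omega) (by omega) (fun i h5 h6 => wt_ge' dd hD hN h4 13 16 2 15 1 (by norm_num) (by omega)) <|
    Pcs.cons (by omega) (by omega) (fun i h5 h6 => wt_ge' dd hD hN h4 13 15 2 16 1 (by norm_num) (by omega)) <|
    Pcs.cons (by omega) (by omega) (fun i h5 h6 => wt_ge' dd hD hN h4 12 15 2 15 0 (by norm_num) (by omega)) <|
    Pcs.cons (by omega) (by omega) (fun i h5 h6 => wt_ge' dd hD hN h4 12 15 2 15 1 (by norm_num) (by omega)) <|
    Pcs.cons (by omega) (by omega) (fun i h5 h6 => wt_ge' dd hD hN h4 12 15 1 15 1 (by norm_num) (by omega)) <|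
    Pcs.nil (by omega)
  · rw [pcv_cons, pcv_cons, pcv_cons, pcv_cons, pcv_cons, pcv_nil]; omega

theorem sq18 (c0 : ℕ) : LocRange H579.parA c0 (32 / 15) (15 / 7) (fun q => 20 * q + 23) := by
  refine lr_sq 32 15 15 7 20 23 5 2 2 2 5 2 2 20 (by norm_num) (by norm_num) (by norm_num) ?_
  intro p hp s h1 h2 h3 h4
  refine ⟨[(3 * p - 5 * s, 25 * s - 11 * p, 3), (25 * s - 11 * p, 4 * s - p, 6), (4 * s - p, 32 * s - 14 * p, 4), (32 * s - 14 * p, p, 2)], fun dd hD hN => ?_, ?_⟩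
  · exact
    Pcs.cons (by omega) (by omega) (fun i h5 h6 => wt_ge' dd hD hN h4 12 15 2 15 0 (by norm_num) (by omega)) <|
    Pcs.cons (by omega) (by omega) (fun i h5 h6 => wt_ge' dd hD hN h4 12 15 2 15 1 (by norm_num) (by omega)) <|
    Pcs.cons (by omega) (by omega) (fun i h5 h6 => wt_ge' dd hD hN h4 12 15 1 15 1 (by norm_num) (by omega)) <|
    Pcs.cons (by omega) (by omega) (fun i h5 h6 => wt_ge' dd hD hN h4 12 14 1 15 1 (by norm_num) (by omega)) <|
    Pcs.nil (by omega)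
  · rw [pcv_cons, pcv_cons, pcv_cons, pcv_cons, pcv_nil]; omega

theorem sq19 (c0 : ℕ) : LocRange H579.parA c0 (15 / 7) (28 / 13) (fun q => 13 * q + 38) := by
  refine lr_sq 15 7 28 13 13 38 6 2 2 2 5 2 2 21 (by norm_num) (by norm_num) (by norm_num) ?_
  intro p hp s h1 h2 h3 h4
  refine ⟨[(27 * s + 1 - 12 * p, max (27 * s + 1 - 12 * p) (25 * s - 11 * p), 1), (25 * s - 11 * p, 3 * p - 5 * s, 4), (3 * p - 5 * s, 4 * s - p, 7), (4 * s - p, 32 * s - 14 * p, 5), (32 * s - 14 * p, p, 3)], fun dd hD hN => ?_, ?_⟩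
  · exact
    Pcs.cons (by omega) (by omega) (fun i h5 h6 => wt_ge' dd hD hN h4 12 15 2 14 0 (by norm_num) (by omega)) <|
    Pcs.cons (by omega) (by omega) (fun i h5 h6 => wt_ge' dd hD hN h4 12 15 2 14 1 (by norm_num) (by omega)) <|
    Pcs.cons (by omega) (by omega) (fun i h5 h6 => wt_ge' dd hD hN h4 12 15 2 15 1 (by norm_num) (by omega)) <|
    Pcs.cons (by omega) (by omega) (fun i h5 h6 => wt_ge' dd hD hN h4 12 15 1 15 1 (by norm_num) (by omega)) <|
    Pcs.cons (by omega) (by omega) (fun i h5 h6 => wt_ge' dd hD hN h4 12 14 1 15 1 (by norm_num) (by omega)) <|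
    Pcs.nil (by omega)
  · rw [pcv_cons, pcv_cons, pcv_cons, pcv_cons, pcv_cons, pcv_nil]; omega

theorem sq20 (c0 : ℕ) : LocRange H579.parA c0 (28 / 13) (37 / 17) (fun q => 13 * q + 38) := by
  refine lr_sq 28 13 37 17 13 38 6 2 2 2 5 2 2 21 (by norm_num) (by norm_num) (by norm_num) ?_
  intro p hp s h1 h2 h3 h4
  refine ⟨[(27 * s + 1 - 12 * p, max (27 * s + 1 - 12 * p) (25 * s - 11 * p), 1), (25 * s - 11 * p, 3 * p - 5 * s, 4), (3 * p - 5 * s, 32 * s - 14 * p, 7), (32 * s - 14 * p, 4 * s - p, 5), (4 * s - p, p, 3)], fun dd hD hN => ?_, ?_⟩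
  · exact
    Pcs.cons (by omega) (by omega) (fun i h5 h6 => wt_ge' dd hD hN h4 12 15 2 14 0 (by norm_num) (by omega)) <|
    Pcs.cons (by omega) (by omega) (fun i h5 h6 => wt_ge' dd hD hN h4 12 15 2 14 1 (by norm_num) (by omega)) <|
    Pcs.cons (by omega) (by omega) (fun i h5 h6 => wt_ge' dd hD hN h4 12 15 2 15 1 (by norm_num) (by omega)) <|
    Pcs.cons (by omega) (by omega) (fun i h5 h6 => wt_ge' dd hD hN h4 12 14 2 15 1 (by norm_num) (by omega)) <|
    Pcs.cons (by omega) (by omega) (fun i h5 h6 => wt_ge' dd hD hN h4 12 14 1 15 1 (by norm_num) (by omega)) <|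
    Pcs.nil (by omega)
  · rw [pcv_cons, pcv_cons, pcv_cons, pcv_cons, pcv_cons, pcv_nil]; omega

theorem sq21 (c0 : ℕ) : LocRange H579.parA c0 (37 / 17) (9 / 4) (fun q => 13 * q + 38) := by
  refine lr_sq 37 17 9 4 13 38 6 2 2 2 5 2 2 21 (by norm_num) (by norm_num) (by norm_num) ?_
  intro p hp s h1 h2 h3 h4
  refine ⟨[(27 * s + 1 - 12 * p, max (27 * s + 1 - 12 * p) (25 * s - 11 * p), 1), (25 * s - 11 * p, 32 * s - 14 * p, 4), (32 * s - 14 * p, 3 * p - 5 * s, 2), (3 * p - 5 * s, 4 * s - p, 5), (4 * s - p, p, 3)], fun dd hD hN => ?_, ?_⟩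
  · exact
    Pcs.cons (by omega) (by omega) (fun i h5 h6 => wt_ge' dd hD hN h4 12 15 2 14 0 (by norm_num) (by omega)) <|
    Pcs.cons (by omega) (by omega) (fun i h5 h6 => wt_ge' dd hD hN h4 12 15 2 14 1 (by norm_num) (by omega)) <|
    Pcs.cons (by omega) (by omega) (fun i h5 h6 => wt_ge' dd hD hN h4 12 14 2 14 1 (by norm_num) (by omega)) <|
    Pcs.cons (by omega) (by omega) (fun i h5 h6 => wt_ge' dd hD hN h4 12 14 2 15 1 (by norm_num) (by omega)) <|
    Pcs.cons (by omega) (by omega) (fun i h5 h6 => wt_ge' dd hD hN h4 12 14 1 15 1 (by norm_num) (by omega)) <|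
    Pcs.nil (by omega)
  · rw [pcv_cons, pcv_cons, pcv_cons, pcv_cons, pcv_cons, pcv_nil]; omega

end Vale.Agent.P030.H641
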