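import Vale.Agent.P030.H641.Sq

/-!
# P030, odd primes: class gain for small quotients, pieces 22 to 32

Generated certificates: for each range of `q = p / s` an explicit list of intervals of classes.
-/

open Finset

namespace Vale.Agent.P030.H641

open Vale.Agent.P030.T Vale.Agent.P030.H792

theorem sq22 (c0 : ℕ) : LocRange H579.parA c0 (37 / 14) (8 / 3) (fun q => (-27) * q + 139) := by
  refine lr_sq 37 14 8 3 (-27) 139 5 2 2 2 4 2 2 19 (by norm_num) (by norm_num) (by norm_num) ?_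
  intro p hp s h1 h2 h3 h4
  refine ⟨[(2 * p - 5 * s, 27 * s - 10 * p, 1), (27 * s + 1 - 10 * p, max (27 * s + 1 - 10 * p) (25 * s - 9 * p), 3), (25 * s - 9 * p, 4 * s - p, 6), (4 * s - p, p, 4)], fun dd hD hN => ?_, ?_⟩
  · exact
    Pcs.cons (by omega) (by omega) (fun i h5 h6 => wt_ge' dd hD hN h4 11 12 2 13 1 (by norm_num) (by omega)) <|
    Pcs.cons (by omega) (by omega) (fun i h5 h6 => wt_ge' dd hD hN h4 10 12 2 12 0 (by norm_num) (by omega)) <|
    Pcs.cons (by omega) (by omega) (fun i h5 h6 => wt_ge' dd hD hN h4 10 12 2 12 1 (by norm_num) (by omega)) <|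
    Pcs.cons (by omega) (by omega) (fun i h5 h6 => wt_ge' dd hD hN h4 10 12 1 12 1 (by norm_num) (by omega)) <|
    Pcs.nil (by omega)
  · rw [pcv_cons, pcv_cons, pcv_cons, pcv_cons, pcv_nil]; omega

theorem sq23 (c0 : ℕ) : LocRange H579.parA c0 (8 / 3) (27 / 10) (fun q => 21 * q + 11) := by
  refine lr_sq 8 3 27 10 21 11 5 2 2 2 4 2 2 19 (by norm_num) (by norm_num) (by norm_num) ?_
  intro p hp s h1 h2 h3 h4
  refine ⟨[(2 * p - 5 * s, 25 * s - 9 * p, 3), (25 * s - 9 * p, 4 * s - p, 6), (4 * s - p, 32 * s - 11 * p, 4), (32 * s - 11 * p, p, 2)], fun dd hD hN => ?_, ?_⟩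
  · exact
    Pcs.cons (by omega) (by omega) (fun i h5 h6 => wt_ge' dd hD hN h4 10 12 2 12 0 (by norm_num) (by omega)) <|
    Pcs.cons (by omega) (by omega) (fun i h5 h6 => wt_ge' dd hD hN h4 10 12 2 12 1 (by norm_num) (by omega)) <|
    Pcs.cons (by omega) (by omega) (fun i h5 h6 => wt_ge' dd hD hN h4 10 12 1 12 1 (by norm_num) (by omega)) <|
    Pcs.cons (by omega) (by omega) (fun i h5 h6 => wt_ge' dd hD hN h4 10 11 1 12 1 (by norm_num) (by omega)) <|
    Pcs.nil (by omega)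
  · rw [pcv_cons, pcv_cons, pcv_cons, pcv_cons, pcv_nil]; omega

theorem sq24 (c0 : ℕ) : LocRange H579.parA c0 (25 / 8) (16 / 5) (fun q => (-15) * q + 115) := by
  refine lr_sq 25 8 16 5 (-15) 115 3 1 1 1 3 1 1 11 (by norm_num) (by norm_num) (by norm_num) ?_
  intro p hp s h1 h2 h3 h4
  refine ⟨[(25 * s - 7 * p, p, 2)], fun dd hD hN => ?_, ?_⟩
  · exact
    Pcs.cons (by omega) (by omega) (fun i h5 h6 => wt_ge' dd hD hN h4 8 10 1 10 1 (by norm_num) (by omega)) <|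
    Pcs.nil (by omega)
  · rw [pcv_cons, pcv_nil]; omega

theorem sq25 (c0 : ℕ) : LocRange H579.parA c0 (16 / 5) (13 / 4) (fun q => 5 * q + 51) := by
  refine lr_sq 16 5 13 4 5 51 3 1 1 1 3 1 1 11 (by norm_num) (by norm_num) (by norm_num) ?_
  intro p hp s h1 h2 h3 h4
  refine ⟨[(25 * s - 7 * p, 32 * s - 9 * p, 2)], fun dd hD hN => ?_, ?_⟩
  · exact
    Pcs.cons (by omega) (by omega) (fun i h5 h6 => wt_ge' dd hD hN h4 8 10 1 10 1 (by norm_num) (by omega)) <|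
    Pcs.nil (by omega)
  · rw [pcv_cons, pcv_nil]; omega

theorem sq26 (c0 : ℕ) : LocRange H579.parA c0 (13 / 4) (23 / 7) (fun q => 1 * q + 64) := by
  refine lr_sq 13 4 23 7 1 64 4 1 1 1 3 1 1 12 (by norm_num) (by norm_num) (by norm_num) ?_
  intro p hp s h1 h2 h3 h4
  refine ⟨[(25 * s - 7 * p, 32 * s - 9 * p, 3), (32 * s - 9 * p, p, 1)], fun dd hD hN => ?_, ?_⟩
  · exact
    Pcs.cons (by omega) (by omega) (fun i h5 h6 => wt_ge' dd hD hN h4 8 10 1 10 1 (by norm_num) (by omega)) <|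
    Pcs.cons (by omega) (by omega) (fun i h5 h6 => wt_ge' dd hD hN h4 8 9 1 10 1 (by norm_num) (by omega)) <|
    Pcs.nil (by omega)
  · rw [pcv_cons, pcv_cons, pcv_nil]; omega

theorem sq27 (c0 : ℕ) : LocRange H579.parA c0 (23 / 7) (10 / 3) (fun q => 1 * q + 64) := by
  refine lr_sq 23 7 10 3 1 64 4 1 1 1 3 1 1 12 (by norm_num) (by norm_num) (by norm_num) ?_
  intro p hp s h1 h2 h3 h4
  refine ⟨[(25 * s - 7 * p, 32 * s - 9 * p, 3), (32 * s - 9 * p, p, 1)], fun dd hD hN => ?_, ?_⟩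
  · exact
    Pcs.cons (by omega) (by omega) (fun i h5 h6 => wt_ge' dd hD hN h4 8 10 1 10 1 (by norm_num) (by omega)) <|
    Pcs.cons (by omega) (by omega) (fun i h5 h6 => wt_ge' dd hD hN h4 8 9 1 10 1 (by norm_num) (by omega)) <|
    Pcs.nil (by omega)
  · rw [pcv_cons, pcv_cons, pcv_nil]; omega

theorem sq28 (c0 : ℕ) : LocRange H579.parA c0 (10 / 3) (37 / 11) (fun q => 31 * q + (-36)) := by
  refine lr_sq 10 3 37 11 31 (-36) 4 1 1 1 3 1 1 12 (by norm_num) (by norm_num) (by norm_num) ?_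
  intro p hp s h1 h2 h3 h4
  refine ⟨[(2 * p - 5 * s, 32 * s - 9 * p, 3), (32 * s - 9 * p, p, 1)], fun dd hD hN => ?_, ?_⟩
  · exact
    Pcs.cons (by omega) (by omega) (fun i h5 h6 => wt_ge' dd hD hN h4 8 10 1 10 1 (by norm_num) (by omega)) <|
    Pcs.cons (by omega) (by omega) (fun i h5 h6 => wt_ge' dd hD hN h4 8 9 1 10 1 (by norm_num) (by omega)) <|
    Pcs.nil (by omega)
  · rw [pcv_cons, pcv_cons, pcv_nil]; omega

theorem sq29 (c0 : ℕ) : LocRange H579.parA c0 (17 / 5) (7 / 2) (fun q => (-12) * q + 109) := by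
  refine lr_sq 17 5 7 2 (-12) 109 3 1 1 1 3 1 1 11 (by norm_num) (by norm_num) (by norm_num) ?_
  intro p hp s h1 h2 h3 h4
  refine ⟨[(27 * s + 1 - 7 * p, max (27 * s + 1 - 7 * p) (p), 2)], fun dd hD hN => ?_, ?_⟩
  · exact
    Pcs.cons (by omega) (by omega) (fun i h5 h6 => wt_ge' dd hD hN h4 7 9 1 9 0 (by norm_num) (by omega)) <|
    Pcs.nil (by omega)
  · rw [pcv_cons, pcv_nil]; omega

theorem sq30 (c0 : ℕ) : LocRange H579.parA c0 (7 / 2) (32 / 9) (fun q => (-12) * q + 109) := by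
  refine lr_sq 7 2 32 9 (-12) 109 3 1 1 1 3 1 1 11 (by norm_num) (by norm_num) (by norm_num) ?_
  intro p hp s h1 h2 h3 h4
  refine ⟨[(27 * s + 1 - 7 * p, max (27 * s + 1 - 7 * p) (p), 2)], fun dd hD hN => ?_, ?_⟩
  · exact
    Pcs.cons (by omega) (by omega) (fun i h5 h6 => wt_ge' dd hD hN h4 7 9 1 9 0 (by norm_num) (by omega)) <|
    Pcs.nil (by omega)
  · rw [pcv_cons, pcv_nil]; omega

theorem sq31 (c0 : ℕ) : LocRange H579.parA c0 (32 / 9) (25 / 7) (fun q => 24 * q + (-19)) := by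
  refine lr_sq 32 9 25 7 24 (-19) 3 1 1 1 3 1 1 11 (by norm_num) (by norm_num) (by norm_num) ?_
  intro p hp s h1 h2 h3 h4
  refine ⟨[(2 * p - 5 * s, 32 * s - 8 * p, 2)], fun dd hD hN => ?_, ?_⟩
  · exact
    Pcs.cons (by omega) (by omega) (fun i h5 h6 => wt_ge' dd hD hN h4 7 9 1 9 0 (by norm_num) (by omega)) <|
    Pcs.nil (by omega)
  · rw [pcv_cons, pcv_nil]; omega

theorem sq32 (c0 : ℕ) : LocRange H579.parA c0 (25 / 7) (11 / 3) (fun q => 3 * q + 56) := by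
  refine lr_sq 25 7 11 3 3 56 3 1 1 1 3 1 1 11 (by norm_num) (by norm_num) (by norm_num) ?_
  intro p hp s h1 h2 h3 h4
  refine ⟨[(2 * p - 5 * s, 32 * s - 8 * p, 2), (25 * s - 6 * p, p, 3)], fun dd hD hN => ?_, ?_⟩
  · exact
    Pcs.cons (by omega) (by omega) (fun i h5 h6 => wt_ge' dd hD hN h4 7 9 1 9 0 (by norm_num) (by omega)) <|
    Pcs.cons (by omega) (by omega) (fun i h5 h6 => wt_ge' dd hD hN h4 7 8 1 9 1 (by norm_num) (by omega)) <|
    Pcs.nil (by omega)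
  · rw [pcv_cons, pcv_cons, pcv_nil]; omega

end Vale.Agent.P030.H641
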