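import Vale.Agent.P030.H641.Sq

/-!
# P030, odd primes: class gain for small quotients, pieces 33 to 43

Generated certificates: for each range of `q = p / s` an explicit list of intervals of classes.
-/

open Finset

namespace Vale.Agent.P030.H641

open Vale.Agent.P030.T Vale.Agent.P030.H792

theorem sq33 (c0 : ℕ) : LocRange H579.parA c0 (11 / 3) (37 / 10) (fun q => (-3) * q + 78) := by
  refine lr_sq 11 3 37 10 (-3) 78 3 1 1 1 2 1 1 10 (by norm_num) (by norm_num) (by norm_num) ?_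
  intro p hp s h1 h2 h3 h4
  refine ⟨[(2 * p - 5 * s, 32 * s - 8 * p, 1), (25 * s - 6 * p, p, 2)], fun dd hD hN => ?_, ?_⟩
  · exact
    Pcs.cons (by omega) (by omega) (fun i h5 h6 => wt_ge' dd hD hN h4 7 9 1 9 0 (by norm_num) (by omega)) <|
    Pcs.cons (by omega) (by omega) (fun i h5 h6 => wt_ge' dd hD hN h4 7 8 1 9 1 (by norm_num) (by omega)) <|
    Pcs.nil (by omega)
  · rw [pcv_cons, pcv_cons, pcv_nil]; omega

theorem sq34 (c0 : ℕ) : LocRange H579.parA c0 (37 / 10) (15 / 4) (fun q => (-13) * q + 115) := by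
  refine lr_sq 37 10 15 4 (-13) 115 3 1 1 1 2 1 1 10 (by norm_num) (by norm_num) (by norm_num) ?_
  intro p hp s h1 h2 h3 h4
  refine ⟨[(25 * s - 6 * p, p, 2)], fun dd hD hN => ?_, ?_⟩
  · exact
    Pcs.cons (by omega) (by omega) (fun i h5 h6 => wt_ge' dd hD hN h4 7 8 1 9 1 (by norm_num) (by omega)) <|
    Pcs.nil (by omega)
  · rw [pcv_cons, pcv_nil]; omega

theorem sq35 (c0 : ℕ) : LocRange H579.parA c0 (15 / 4) (23 / 6) (fun q => 3 * q + 55) := by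
  refine lr_sq 15 4 23 6 3 55 3 1 1 1 2 1 1 10 (by norm_num) (by norm_num) (by norm_num) ?_
  intro p hp s h1 h2 h3 h4
  refine ⟨[(2 * p - 5 * s, p, 2)], fun dd hD hN => ?_, ?_⟩
  · exact
    Pcs.cons (by omega) (by omega) (fun i h5 h6 => wt_ge' dd hD hN h4 7 8 1 9 1 (by norm_num) (by omega)) <|
    Pcs.nil (by omega)
  · rw [pcv_cons, pcv_nil]; omega

theorem sq36 (c0 : ℕ) : LocRange H579.parA c0 (23 / 6) (27 / 7) (fun q => 3 * q + 55) := by
  refine lr_sq 23 6 27 7 3 55 3 1 1 1 2 1 1 10 (by norm_num) (by norm_num) (by norm_num) ?_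
  intro p hp s h1 h2 h3 h4
  refine ⟨[(2 * p - 5 * s, p, 2)], fun dd hD hN => ?_, ?_⟩
  · exact
    Pcs.cons (by omega) (by omega) (fun i h5 h6 => wt_ge' dd hD hN h4 7 8 1 9 1 (by norm_num) (by omega)) <|
    Pcs.nil (by omega)
  · rw [pcv_cons, pcv_nil]; omega

theorem sq37 (c0 : ℕ) : LocRange H579.parA c0 (27 / 7) (4) (fun q => (-11) * q + 109) := by
  refine lr_sq 27 7 4 1 (-11) 109 3 1 1 1 2 1 1 10 (by norm_num) (by norm_num) (by norm_num) ?_
  intro p hp s h1 h2 h3 h4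
  refine ⟨[(2 * p - 5 * s, 27 * s - 6 * p, 2), (27 * s + 1 - 6 * p, max (27 * s + 1 - 6 * p) (p), 4)], fun dd hD hN => ?_, ?_⟩
  · exact
    Pcs.cons (by omega) (by omega) (fun i h5 h6 => wt_ge' dd hD hN h4 7 8 1 9 1 (by norm_num) (by omega)) <|
    Pcs.cons (by omega) (by omega) (fun i h5 h6 => wt_ge' dd hD hN h4 6 8 1 8 0 (by norm_num) (by omega)) <|
    Pcs.nil (by omega)
  · rw [pcv_cons, pcv_cons, pcv_nil]; omega

theorem sq38 (c0 : ℕ) : LocRange H579.parA c0 (4) (37 / 9) (fun q => 23 * q + (-27)) := by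
  refine lr_sq 4 1 37 9 23 (-27) 3 1 1 1 2 1 1 10 (by norm_num) (by norm_num) (by norm_num) ?_
  intro p hp s h1 h2 h3 h4
  refine ⟨[(27 * s + 1 - 6 * p, max (27 * s + 1 - 6 * p) (2 * p - 5 * s), 1), (2 * p - 5 * s, 32 * s - 7 * p, 4), (32 * s - 7 * p, 4 * s, 2)], fun dd hD hN => ?_, ?_⟩
  · exact
    Pcs.cons (by omega) (by omega) (fun i h5 h6 => wt_ge' dd hD hN h4 6 8 1 7 0 (by norm_num) (by omega)) <|
    Pcs.cons (by omega) (by omega) (fun i h5 h6 => wt_ge' dd hD hN h4 6 8 1 8 0 (by norm_num) (by omega)) <|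
    Pcs.cons (by omega) (by omega) (fun i h5 h6 => wt_ge' dd hD hN h4 6 7 1 8 0 (by norm_num) (by omega)) <|
    Pcs.nil (by omega)
  · rw [pcv_cons, pcv_cons, pcv_cons, pcv_nil]; omega

theorem sq39 (c0 : ℕ) : LocRange H579.parA c0 (37 / 9) (25 / 6) (fun q => 14 * q + 10) := by
  refine lr_sq 37 9 25 6 14 10 3 1 1 1 2 1 1 10 (by norm_num) (by norm_num) (by norm_num) ?_
  intro p hp s h1 h2 h3 h4
  refine ⟨[(27 * s + 1 - 6 * p, max (27 * s + 1 - 6 * p) (32 * s - 7 * p), 1), (2 * p - 5 * s, 4 * s, 2)], fun dd hD hN => ?_, ?_⟩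
  · exact
    Pcs.cons (by omega) (by omega) (fun i h5 h6 => wt_ge' dd hD hN h4 6 8 1 7 0 (by norm_num) (by omega)) <|
    Pcs.cons (by omega) (by omega) (fun i h5 h6 => wt_ge' dd hD hN h4 6 7 1 8 0 (by norm_num) (by omega)) <|
    Pcs.nil (by omega)
  · rw [pcv_cons, pcv_cons, pcv_nil]; omega

theorem sq40 (c0 : ℕ) : LocRange H579.parA c0 (25 / 6) (21 / 5) (fun q => (-4) * q + 85) := by
  refine lr_sq 25 6 21 5 (-4) 85 3 1 1 1 2 1 1 10 (by norm_num) (by norm_num) (by norm_num) ?_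
  intro p hp s h1 h2 h3 h4
  refine ⟨[(27 * s + 1 - 6 * p, max (27 * s + 1 - 6 * p) (32 * s - 7 * p), 1), (2 * p - 5 * s, 4 * s, 2), (25 * s - 5 * p, p, 3)], fun dd hD hN => ?_, ?_⟩
  · exact
    Pcs.cons (by omega) (by omega) (fun i h5 h6 => wt_ge' dd hD hN h4 6 8 1 7 0 (by norm_num) (by omega)) <|
    Pcs.cons (by omega) (by omega) (fun i h5 h6 => wt_ge' dd hD hN h4 6 7 1 8 0 (by norm_num) (by omega)) <|
    Pcs.cons (by omega) (by omega) (fun i h5 h6 => wt_ge' dd hD hN h4 6 7 0 8 1 (by norm_num) (by omega)) <|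
    Pcs.nil (by omega)
  · rw [pcv_cons, pcv_cons, pcv_cons, pcv_nil]; omega

theorem sq41 (c0 : ℕ) : LocRange H579.parA c0 (21 / 5) (30 / 7) (fun q => (-4) * q + 85) := by
  refine lr_sq 21 5 30 7 (-4) 85 3 1 1 1 2 1 1 10 (by norm_num) (by norm_num) (by norm_num) ?_
  intro p hp s h1 h2 h3 h4
  refine ⟨[(27 * s + 1 - 6 * p, max (27 * s + 1 - 6 * p) (32 * s - 7 * p), 1), (2 * p - 5 * s, 25 * s - 5 * p, 2), (25 * s - 5 * p, 4 * s, 5), (4 * s, p, 3)], fun dd hD hN => ?_, ?_⟩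
  · exact
    Pcs.cons (by omega) (by omega) (fun i h5 h6 => wt_ge' dd hD hN h4 6 8 1 7 0 (by norm_num) (by omega)) <|
    Pcs.cons (by omega) (by omega) (fun i h5 h6 => wt_ge' dd hD hN h4 6 7 1 8 0 (by norm_num) (by omega)) <|
    Pcs.cons (by omega) (by omega) (fun i h5 h6 => wt_ge' dd hD hN h4 6 7 1 8 1 (by norm_num) (by omega)) <|
    Pcs.cons (by omega) (by omega) (fun i h5 h6 => wt_ge' dd hD hN h4 6 7 0 8 1 (by norm_num) (by omega)) <|
    Pcs.nil (by omega)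
  · rw [pcv_cons, pcv_cons, pcv_cons, pcv_cons, pcv_nil]; omega

theorem sq42 (c0 : ℕ) : LocRange H579.parA c0 (30 / 7) (9 / 2) (fun q => 3 * q + 55) := by
  refine lr_sq 30 7 9 2 3 55 3 1 1 1 2 1 1 10 (by norm_num) (by norm_num) (by norm_num) ?_
  intro p hp s h1 h2 h3 h4
  refine ⟨[(27 * s + 1 - 6 * p, max (27 * s + 1 - 6 * p) (32 * s - 7 * p), 1), (25 * s - 5 * p, 2 * p - 5 * s, 2), (2 * p - 5 * s, 4 * s, 5), (4 * s, p, 3)], fun dd hD hN => ?_, ?_⟩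
  · exact
    Pcs.cons (by omega) (by omega) (fun i h5 h6 => wt_ge' dd hD hN h4 6 8 1 7 0 (by norm_num) (by omega)) <|
    Pcs.cons (by omega) (by omega) (fun i h5 h6 => wt_ge' dd hD hN h4 6 7 1 7 1 (by norm_num) (by omega)) <|
    Pcs.cons (by omega) (by omega) (fun i h5 h6 => wt_ge' dd hD hN h4 6 7 1 8 1 (by norm_num) (by omega)) <|
    Pcs.cons (by omega) (by omega) (fun i h5 h6 => wt_ge' dd hD hN h4 6 7 0 8 1 (by norm_num) (by omega)) <|
    Pcs.nil (by omega)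
  · rw [pcv_cons, pcv_cons, pcv_cons, pcv_cons, pcv_nil]; omega

theorem sq43 (c0 : ℕ) : LocRange H579.parA c0 (9 / 2) (32 / 7) (fun q => (-3) * q + 82) := by
  refine lr_sq 9 2 32 7 (-3) 82 3 1 1 1 2 1 1 10 (by norm_num) (by norm_num) (by norm_num) ?_
  intro p hp s h1 h2 h3 h4
  refine ⟨[(0, 32 * s - 7 * p, 1), (25 * s - 5 * p, 4 * s, 2), (2 * p - 5 * s, 27 * s - 5 * p, 3), (27 * s + 1 - 5 * p, max (27 * s + 1 - 5 * p) (p), 5)], fun dd hD hN => ?_, ?_⟩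
  · exact
    Pcs.cons (by omega) (by omega) (fun i h5 h6 => wt_ge' dd hD hN h4 6 8 1 7 0 (by norm_num) (by omega)) <|
    Pcs.cons (by omega) (by omega) (fun i h5 h6 => wt_ge' dd hD hN h4 6 7 1 7 1 (by norm_num) (by omega)) <|
    Pcs.cons (by omega) (by omega) (fun i h5 h6 => wt_ge' dd hD hN h4 6 7 0 8 1 (by norm_num) (by omega)) <|
    Pcs.cons (by omega) (by omega) (fun i h5 h6 => wt_ge' dd hD hN h4 5 7 0 7 0 (by norm_num) (by omega)) <|
    Pcs.nil (by omega)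
  · rw [pcv_cons, pcv_cons, pcv_cons, pcv_cons, pcv_nil]; omega

end Vale.Agent.P030.H641
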