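import Vale.Agent.P030.H641.Sq

/-!
# P030, odd primes: class gain for small quotients, pieces 44 to 54

Generated certificates: for each range of `q = p / s` an explicit list of intervals of classes.
-/

open Finset

namespace Vale.Agent.P030.H641

open Vale.Agent.P030.T Vale.Agent.P030.H792

theorem sq44 (c0 : ℕ) : LocRange H579.parA c0 (32 / 7) (23 / 5) (fun q => 4 * q + 50) := by
  refine lr_sq 32 7 23 5 4 50 3 1 1 1 2 1 1 10 (by norm_num) (by norm_num) (by norm_num) ?_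
  intro p hp s h1 h2 h3 h4
  refine ⟨[(25 * s - 5 * p, 4 * s, 2), (27 * s + 1 - 5 * p, max (27 * s + 1 - 5 * p) (2 * p - 5 * s), 2), (2 * p - 5 * s, 32 * s - 6 * p, 5), (32 * s - 6 * p, p, 3)], fun dd hD hN => ?_, ?_⟩
  · exact
    Pcs.cons (by omega) (by omega) (fun i h5 h6 => wt_ge' dd hD hN h4 6 7 1 7 1 (by norm_num) (by omega)) <|
    Pcs.cons (by omega) (by omega) (fun i h5 h6 => wt_ge' dd hD hN h4 5 7 0 6 0 (by norm_num) (by omega)) <|
    Pcs.cons (by omega) (by omega) (fun i h5 h6 => wt_ge' dd hD hN h4 5 7 0 7 0 (by norm_num) (by omega)) <|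
    Pcs.cons (by omega) (by omega) (fun i h5 h6 => wt_ge' dd hD hN h4 5 6 0 7 0 (by norm_num) (by omega)) <|
    Pcs.nil (by omega)
  · rw [pcv_cons, pcv_cons, pcv_cons, pcv_cons, pcv_nil]; omega

theorem sq45 (c0 : ℕ) : LocRange H579.parA c0 (23 / 5) (37 / 8) (fun q => 4 * q + 50) := by
  refine lr_sq 23 5 37 8 4 50 3 1 1 1 2 1 1 10 (by norm_num) (by norm_num) (by norm_num) ?_
  intro p hp s h1 h2 h3 h4
  refine ⟨[(25 * s - 5 * p, 27 * s - 5 * p, 2), (27 * s + 1 - 5 * p, max (27 * s + 1 - 5 * p) (4 * s), 4), (4 * s, 2 * p - 5 * s, 2), (2 * p - 5 * s, 32 * s - 6 * p, 5), (32 * s - 6 * p, p, 3)], fun dd hD hN => ?_, ?_⟩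
  · exact
    Pcs.cons (by omega) (by omega) (fun i h5 h6 => wt_ge' dd hD hN h4 6 7 1 7 1 (by norm_num) (by omega)) <|
    Pcs.cons (by omega) (by omega) (fun i h5 h6 => wt_ge' dd hD hN h4 5 7 1 6 0 (by norm_num) (by omega)) <|
    Pcs.cons (by omega) (by omega) (fun i h5 h6 => wt_ge' dd hD hN h4 5 7 0 6 0 (by norm_num) (by omega)) <|
    Pcs.cons (by omega) (by omega) (fun i h5 h6 => wt_ge' dd hD hN h4 5 7 0 7 0 (by norm_num) (by omega)) <|
    Pcs.cons (by omega) (by omega) (fun i h5 h6 => wt_ge' dd hD hN h4 5 6 0 7 0 (by norm_num) (by omega)) <|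
    Pcs.nil (by omega)
  · rw [pcv_cons, pcv_cons, pcv_cons, pcv_cons, pcv_cons, pcv_nil]; omega

theorem sq46 (c0 : ℕ) : LocRange H579.parA c0 (37 / 8) (14 / 3) (fun q => 4 * q + 50) := by
  refine lr_sq 37 8 14 3 4 50 3 1 1 1 2 1 1 10 (by norm_num) (by norm_num) (by norm_num) ?_
  intro p hp s h1 h2 h3 h4
  refine ⟨[(25 * s - 5 * p, 27 * s - 5 * p, 2), (27 * s + 1 - 5 * p, max (27 * s + 1 - 5 * p) (4 * s), 4), (4 * s, 32 * s - 6 * p, 2), (2 * p - 5 * s, p, 3)], fun dd hD hN => ?_, ?_⟩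
  · exact
    Pcs.cons (by omega) (by omega) (fun i h5 h6 => wt_ge' dd hD hN h4 6 7 1 7 1 (by norm_num) (by omega)) <|
    Pcs.cons (by omega) (by omega) (fun i h5 h6 => wt_ge' dd hD hN h4 5 7 1 6 0 (by norm_num) (by omega)) <|
    Pcs.cons (by omega) (by omega) (fun i h5 h6 => wt_ge' dd hD hN h4 5 7 0 6 0 (by norm_num) (by omega)) <|
    Pcs.cons (by omega) (by omega) (fun i h5 h6 => wt_ge' dd hD hN h4 5 6 0 7 0 (by norm_num) (by omega)) <|
    Pcs.nil (by omega)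
  · rw [pcv_cons, pcv_cons, pcv_cons, pcv_cons, pcv_nil]; omega

theorem sq47 (c0 : ℕ) : LocRange H579.parA c0 (14 / 3) (5) (fun q => 4 * q + 50) := by
  refine lr_sq 14 3 5 1 4 50 3 1 1 1 2 1 1 10 (by norm_num) (by norm_num) (by norm_num) ?_
  intro p hp s h1 h2 h3 h4
  refine ⟨[(25 * s - 5 * p, 27 * s - 5 * p, 2), (27 * s + 1 - 5 * p, max (27 * s + 1 - 5 * p) (32 * s - 6 * p), 4), (32 * s - 6 * p, 4 * s, 2), (2 * p - 5 * s, p, 3)], fun dd hD hN => ?_, ?_⟩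
  · exact
    Pcs.cons (by omega) (by omega) (fun i h5 h6 => wt_ge' dd hD hN h4 6 7 1 7 1 (by norm_num) (by omega)) <|
    Pcs.cons (by omega) (by omega) (fun i h5 h6 => wt_ge' dd hD hN h4 5 7 1 6 0 (by norm_num) (by omega)) <|
    Pcs.cons (by omega) (by omega) (fun i h5 h6 => wt_ge' dd hD hN h4 5 6 1 6 0 (by norm_num) (by omega)) <|
    Pcs.cons (by omega) (by omega) (fun i h5 h6 => wt_ge' dd hD hN h4 5 6 0 7 0 (by norm_num) (by omega)) <|
    Pcs.nil (by omega)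
  · rw [pcv_cons, pcv_cons, pcv_cons, pcv_cons, pcv_nil]; omega

theorem sq48 (c0 : ℕ) : LocRange H579.parA c0 (5) (21 / 4) (fun q => 0 * q + 70) := by
  refine lr_sq 5 1 21 4 0 70 3 1 1 1 2 1 1 10 (by norm_num) (by norm_num) (by norm_num) ?_
  intro p hp s h1 h2 h3 h4
  refine ⟨[(p - 5 * s, 32 * s - 6 * p, 2), (27 * s + 1 - 5 * p, max (27 * s + 1 - 5 * p) (4 * s), 2), (25 * s - 4 * p, p, 3)], fun dd hD hN => ?_, ?_⟩
  · exact
    Pcs.cons (by omega) (by omega) (fun i h5 h6 => wt_ge' dd hD hN h4 6 7 1 7 1 (by norm_num) (by omega)) <|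
    Pcs.cons (by omega) (by omega) (fun i h5 h6 => wt_ge' dd hD hN h4 5 6 1 6 0 (by norm_num) (by omega)) <|
    Pcs.cons (by omega) (by omega) (fun i h5 h6 => wt_ge' dd hD hN h4 5 6 0 6 1 (by norm_num) (by omega)) <|
    Pcs.nil (by omega)
  · rw [pcv_cons, pcv_cons, pcv_cons, pcv_nil]; omega

theorem sq49 (c0 : ℕ) : LocRange H579.parA c0 (21 / 4) (37 / 7) (fun q => 0 * q + 70) := by
  refine lr_sq 21 4 37 7 0 70 3 1 1 1 2 1 1 10 (by norm_num) (by norm_num) (by norm_num) ?_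
  intro p hp s h1 h2 h3 h4
  refine ⟨[(p - 5 * s, 32 * s - 6 * p, 2), (27 * s + 1 - 5 * p, max (27 * s + 1 - 5 * p) (25 * s - 4 * p), 2), (25 * s - 4 * p, 4 * s, 5), (4 * s, p, 3)], fun dd hD hN => ?_, ?_⟩
  · exact
    Pcs.cons (by omega) (by omega) (fun i h5 h6 => wt_ge' dd hD hN h4 6 7 1 7 1 (by norm_num) (by omega)) <|
    Pcs.cons (by omega) (by omega) (fun i h5 h6 => wt_ge' dd hD hN h4 5 6 1 6 0 (by norm_num) (by omega)) <|
    Pcs.cons (by omega) (by omega) (fun i h5 h6 => wt_ge' dd hD hN h4 5 6 1 6 1 (by norm_num) (by omega)) <|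
    Pcs.cons (by omega) (by omega) (fun i h5 h6 => wt_ge' dd hD hN h4 5 6 0 6 1 (by norm_num) (by omega)) <|
    Pcs.nil (by omega)
  · rw [pcv_cons, pcv_cons, pcv_cons, pcv_cons, pcv_nil]; omega

theorem sq50 (c0 : ℕ) : LocRange H579.parA c0 (37 / 7) (16 / 3) (fun q => (-14) * q + 144) := by
  refine lr_sq 37 7 16 3 (-14) 144 3 1 1 1 2 1 1 10 (by norm_num) (by norm_num) (by norm_num) ?_
  intro p hp s h1 h2 h3 h4
  refine ⟨[(27 * s + 1 - 5 * p, max (27 * s + 1 - 5 * p) (25 * s - 4 * p), 2), (25 * s - 4 * p, 4 * s, 5), (4 * s, p, 3)], fun dd hD hN => ?_, ?_⟩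
  · exact
    Pcs.cons (by omega) (by omega) (fun i h5 h6 => wt_ge' dd hD hN h4 5 6 1 6 0 (by norm_num) (by omega)) <|
    Pcs.cons (by omega) (by omega) (fun i h5 h6 => wt_ge' dd hD hN h4 5 6 1 6 1 (by norm_num) (by omega)) <|
    Pcs.cons (by omega) (by omega) (fun i h5 h6 => wt_ge' dd hD hN h4 5 6 0 6 1 (by norm_num) (by omega)) <|
    Pcs.nil (by omega)
  · rw [pcv_cons, pcv_cons, pcv_cons, pcv_nil]; omega

theorem sq51 (c0 : ℕ) : LocRange H579.parA c0 (16 / 3) (27 / 5) (fun q => 10 * q + 16) := by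
  refine lr_sq 16 3 27 5 10 16 3 1 1 1 2 1 1 10 (by norm_num) (by norm_num) (by norm_num) ?_
  intro p hp s h1 h2 h3 h4
  refine ⟨[(p - 5 * s, 25 * s - 4 * p, 2), (25 * s - 4 * p, 4 * s, 5), (4 * s, 32 * s - 5 * p, 3), (32 * s - 5 * p, p, 1)], fun dd hD hN => ?_, ?_⟩
  · exact
    Pcs.cons (by omega) (by omega) (fun i h5 h6 => wt_ge' dd hD hN h4 5 6 1 6 0 (by norm_num) (by omega)) <|
    Pcs.cons (by omega) (by omega) (fun i h5 h6 => wt_ge' dd hD hN h4 5 6 1 6 1 (by norm_num) (by omega)) <|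
    Pcs.cons (by omega) (by omega) (fun i h5 h6 => wt_ge' dd hD hN h4 5 6 0 6 1 (by norm_num) (by omega)) <|
    Pcs.cons (by omega) (by omega) (fun i h5 h6 => wt_ge' dd hD hN h4 5 5 0 6 1 (by norm_num) (by omega)) <|
    Pcs.nil (by omega)
  · rw [pcv_cons, pcv_cons, pcv_cons, pcv_cons, pcv_nil]; omega

theorem sq52 (c0 : ℕ) : LocRange H579.parA c0 (27 / 5) (28 / 5) (fun q => 0 * q + 70) := by
  refine lr_sq 27 5 28 5 0 70 3 1 1 1 2 1 1 10 (by norm_num) (by norm_num) (by norm_num) ?_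
  intro p hp s h1 h2 h3 h4
  refine ⟨[(p - 5 * s, 25 * s - 4 * p, 2), (25 * s - 4 * p, 4 * s, 5), (4 * s, 32 * s - 5 * p, 3), (32 * s - 5 * p, 27 * s - 4 * p, 1), (27 * s + 1 - 4 * p, max (27 * s + 1 - 4 * p) (p), 3)], fun dd hD hN => ?_, ?_⟩
  · exact
    Pcs.cons (by omega) (by omega) (fun i h5 h6 => wt_ge' dd hD hN h4 5 6 1 6 0 (by norm_num) (by omega)) <|
    Pcs.cons (by omega) (by omega) (fun i h5 h6 => wt_ge' dd hD hN h4 5 6 1 6 1 (by norm_num) (by omega)) <|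
    Pcs.cons (by omega) (by omega) (fun i h5 h6 => wt_ge' dd hD hN h4 5 6 0 6 1 (by norm_num) (by omega)) <|
    Pcs.cons (by omega) (by omega) (fun i h5 h6 => wt_ge' dd hD hN h4 5 5 0 6 1 (by norm_num) (by omega)) <|
    Pcs.cons (by omega) (by omega) (fun i h5 h6 => wt_ge' dd hD hN h4 4 5 0 5 0 (by norm_num) (by omega)) <|
    Pcs.nil (by omega)
  · rw [pcv_cons, pcv_cons, pcv_cons, pcv_cons, pcv_cons, pcv_nil]; omega

theorem sq53 (c0 : ℕ) : LocRange H579.parA c0 (28 / 5) (17 / 3) (fun q => 0 * q + 70) := by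
  refine lr_sq 28 5 17 3 0 70 3 1 1 1 2 1 1 10 (by norm_num) (by norm_num) (by norm_num) ?_
  intro p hp s h1 h2 h3 h4
  refine ⟨[(p - 5 * s, 25 * s - 4 * p, 2), (25 * s - 4 * p, 32 * s - 5 * p, 5), (32 * s - 5 * p, 4 * s, 3), (4 * s, 27 * s - 4 * p, 1), (27 * s + 1 - 4 * p, max (27 * s + 1 - 4 * p) (p), 3)], fun dd hD hN => ?_, ?_⟩
  · exact
    Pcs.cons (by omega) (by omega) (fun i h5 h6 => wt_ge' dd hD hN h4 5 6 1 6 0 (by norm_num) (by omega)) <|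
    Pcs.cons (by omega) (by omega) (fun i h5 h6 => wt_ge' dd hD hN h4 5 6 1 6 1 (by norm_num) (by omega)) <|
    Pcs.cons (by omega) (by omega) (fun i h5 h6 => wt_ge' dd hD hN h4 5 5 1 6 1 (by norm_num) (by omega)) <|
    Pcs.cons (by omega) (by omega) (fun i h5 h6 => wt_ge' dd hD hN h4 5 5 0 6 1 (by norm_num) (by omega)) <|
    Pcs.cons (by omega) (by omega) (fun i h5 h6 => wt_ge' dd hD hN h4 4 5 0 5 0 (by norm_num) (by omega)) <|
    Pcs.nil (by omega)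
  · rw [pcv_cons, pcv_cons, pcv_cons, pcv_cons, pcv_cons, pcv_nil]; omega

theorem sq54 (c0 : ℕ) : LocRange H579.parA c0 (17 / 3) (23 / 4) (fun q => (-3) * q + 87) := by
  refine lr_sq 17 3 23 4 (-3) 87 2 1 1 1 2 1 1 9 (by norm_num) (by norm_num) (by norm_num) ?_
  intro p hp s h1 h2 h3 h4
  refine ⟨[(p - 5 * s, 25 * s - 4 * p, 1), (25 * s - 4 * p, 32 * s - 5 * p, 4), (32 * s - 5 * p, 4 * s, 2), (27 * s + 1 - 4 * p, max (27 * s + 1 - 4 * p) (p), 2)], fun dd hD hN => ?_, ?_⟩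
  · exact
    Pcs.cons (by omega) (by omega) (fun i h5 h6 => wt_ge' dd hD hN h4 5 6 1 6 0 (by norm_num) (by omega)) <|
    Pcs.cons (by omega) (by omega) (fun i h5 h6 => wt_ge' dd hD hN h4 5 6 1 6 1 (by norm_num) (by omega)) <|
    Pcs.cons (by omega) (by omega) (fun i h5 h6 => wt_ge' dd hD hN h4 5 5 1 6 1 (by norm_num) (by omega)) <|
    Pcs.cons (by omega) (by omega) (fun i h5 h6 => wt_ge' dd hD hN h4 4 5 0 5 0 (by norm_num) (by omega)) <|
    Pcs.nil (by omega)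
  · rw [pcv_cons, pcv_cons, pcv_cons, pcv_cons, pcv_nil]; omega

end Vale.Agent.P030.H641
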