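import Vale.Agent.P030.H641.Sq

/-!
# P030, odd primes: class gain for small quotients, pieces 55 to 63

Generated certificates: for each range of `q = p / s` an explicit list of intervals of classes.
-/

open Finset

namespace Vale.Agent.P030.H641

open Vale.Agent.P030.T Vale.Agent.P030.H792

theorem sq55 (c0 : ℕ) : LocRange H579.parA c0 (23 / 4) (6) (fun q => (-3) * q + 87) := by
  refine lr_sq 23 4 6 1 (-3) 87 2 1 1 1 2 1 1 9 (by norm_num) (by norm_num) (by norm_num) ?_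
  intro p hp s h1 h2 h3 h4
  refine ⟨[(p - 5 * s, 25 * s - 4 * p, 1), (25 * s - 4 * p, 32 * s - 5 * p, 4), (32 * s - 5 * p, 27 * s - 4 * p, 2), (27 * s + 1 - 4 * p, max (27 * s + 1 - 4 * p) (4 * s), 4), (4 * s, p, 2)], fun dd hD hN => ?_, ?_⟩
  · exact
    Pcs.cons (by omega) (by omega) (fun i h5 h6 => wt_ge' dd hD hN h4 5 6 1 6 0 (by norm_num) (by omega)) <|
    Pcs.cons (by omega) (by omega) (fun i h5 h6 => wt_ge' dd hD hN h4 5 6 1 6 1 (by norm_num) (by omega)) <|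
    Pcs.cons (by omega) (by omega) (fun i h5 h6 => wt_ge' dd hD hN h4 5 5 1 6 1 (by norm_num) (by omega)) <|
    Pcs.cons (by omega) (by omega) (fun i h5 h6 => wt_ge' dd hD hN h4 4 5 1 5 0 (by norm_num) (by omega)) <|
    Pcs.cons (by omega) (by omega) (fun i h5 h6 => wt_ge' dd hD hN h4 4 5 0 5 0 (by norm_num) (by omega)) <|
    Pcs.nil (by omega)
  · rw [pcv_cons, pcv_cons, pcv_cons, pcv_cons, pcv_cons, pcv_nil]; omega

theorem sq56 (c0 : ℕ) : LocRange H579.parA c0 (6) (37 / 6) (fun q => 9 * q + 15) := by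
  refine lr_sq 6 1 37 6 9 15 2 1 1 1 2 1 1 9 (by norm_num) (by norm_num) (by norm_num) ?_
  intro p hp s h1 h2 h3 h4
  refine ⟨[(25 * s - 4 * p, p - 5 * s, 1), (p - 5 * s, 32 * s - 5 * p, 4), (32 * s - 5 * p, 27 * s - 4 * p, 2), (27 * s + 1 - 4 * p, max (27 * s + 1 - 4 * p) (4 * s), 4), (4 * s, p, 2)], fun dd hD hN => ?_, ?_⟩
  · exact
    Pcs.cons (by omega) (by omega) (fun i h5 h6 => wt_ge' dd hD hN h4 5 6 1 5 1 (by norm_num) (by omega)) <|
    Pcs.cons (by omega) (by omega) (fun i h5 h6 => wt_ge' dd hD hN h4 5 6 1 6 1 (by norm_num) (by omega)) <|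
    Pcs.cons (by omega) (by omega) (fun i h5 h6 => wt_ge' dd hD hN h4 5 5 1 6 1 (by norm_num) (by omega)) <|
    Pcs.cons (by omega) (by omega) (fun i h5 h6 => wt_ge' dd hD hN h4 4 5 1 5 0 (by norm_num) (by omega)) <|
    Pcs.cons (by omega) (by omega) (fun i h5 h6 => wt_ge' dd hD hN h4 4 5 0 5 0 (by norm_num) (by omega)) <|
    Pcs.nil (by omega)
  · rw [pcv_cons, pcv_cons, pcv_cons, pcv_cons, pcv_cons, pcv_nil]; omega

theorem sq57 (c0 : ℕ) : LocRange H579.parA c0 (37 / 6) (25 / 4) (fun q => 3 * q + 52) := by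
  refine lr_sq 37 6 25 4 3 52 2 1 1 1 2 1 1 9 (by norm_num) (by norm_num) (by norm_num) ?_
  intro p hp s h1 h2 h3 h4
  refine ⟨[(25 * s - 4 * p, 32 * s - 5 * p, 1), (p - 5 * s, 27 * s - 4 * p, 2), (27 * s + 1 - 4 * p, max (27 * s + 1 - 4 * p) (4 * s), 4), (4 * s, p, 2)], fun dd hD hN => ?_, ?_⟩
  · exact
    Pcs.cons (by omega) (by omega) (fun i h5 h6 => wt_ge' dd hD hN h4 5 6 1 5 1 (by norm_num) (by omega)) <|
    Pcs.cons (by omega) (by omega) (fun i h5 h6 => wt_ge' dd hD hN h4 5 5 1 6 1 (by norm_num) (by omega)) <|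
    Pcs.cons (by omega) (by omega) (fun i h5 h6 => wt_ge' dd hD hN h4 4 5 1 5 0 (by norm_num) (by omega)) <|
    Pcs.cons (by omega) (by omega) (fun i h5 h6 => wt_ge' dd hD hN h4 4 5 0 5 0 (by norm_num) (by omega)) <|
    Pcs.nil (by omega)
  · rw [pcv_cons, pcv_cons, pcv_cons, pcv_cons, pcv_nil]; omega

theorem sq58 (c0 : ℕ) : LocRange H579.parA c0 (25 / 4) (32 / 5) (fun q => (-5) * q + 102) := by
  refine lr_sq 25 4 32 5 (-5) 102 2 1 1 1 2 1 1 9 (by norm_num) (by norm_num) (by norm_num) ?_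
  intro p hp s h1 h2 h3 h4
  refine ⟨[(0, 32 * s - 5 * p, 1), (p - 5 * s, 27 * s - 4 * p, 2), (27 * s + 1 - 4 * p, max (27 * s + 1 - 4 * p) (4 * s), 4), (4 * s, 25 * s - 3 * p, 2), (25 * s - 3 * p, p, 5)], fun dd hD hN => ?_, ?_⟩
  · exact
    Pcs.cons (by omega) (by omega) (fun i h5 h6 => wt_ge' dd hD hN h4 5 6 1 5 1 (by norm_num) (by omega)) <|
    Pcs.cons (by omega) (by omega) (fun i h5 h6 => wt_ge' dd hD hN h4 5 5 1 6 1 (by norm_num) (by omega)) <|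
    Pcs.cons (by omega) (by omega) (fun i h5 h6 => wt_ge' dd hD hN h4 4 5 1 5 0 (by norm_num) (by omega)) <|
    Pcs.cons (by omega) (by omega) (fun i h5 h6 => wt_ge' dd hD hN h4 4 5 0 5 0 (by norm_num) (by omega)) <|
    Pcs.cons (by omega) (by omega) (fun i h5 h6 => wt_ge' dd hD hN h4 4 5 0 5 1 (by norm_num) (by omega)) <|
    Pcs.nil (by omega)
  · rw [pcv_cons, pcv_cons, pcv_cons, pcv_cons, pcv_cons, pcv_nil]; omega

theorem sq59 (c0 : ℕ) : LocRange H579.parA c0 (32 / 5) (27 / 4) (fun q => 5 * q + 38) := by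
  refine lr_sq 32 5 27 4 5 38 2 1 1 1 2 1 1 9 (by norm_num) (by norm_num) (by norm_num) ?_
  intro p hp s h1 h2 h3 h4
  refine ⟨[(27 * s + 1 - 4 * p, max (27 * s + 1 - 4 * p) (p - 5 * s), 1), (p - 5 * s, 4 * s, 4), (4 * s, 25 * s - 3 * p, 2), (25 * s - 3 * p, 32 * s - 4 * p, 5), (32 * s - 4 * p, p, 3)], fun dd hD hN => ?_, ?_⟩
  · exact
    Pcs.cons (by omega) (by omega) (fun i h5 h6 => wt_ge' dd hD hN h4 4 5 1 4 0 (by norm_num) (by omega)) <|
    Pcs.cons (by omega) (by omega) (fun i h5 h6 => wt_ge' dd hD hN h4 4 5 1 5 0 (by norm_num) (by omega)) <|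
    Pcs.cons (by omega) (by omega) (fun i h5 h6 => wt_ge' dd hD hN h4 4 5 0 5 0 (by norm_num) (by omega)) <|
    Pcs.cons (by omega) (by omega) (fun i h5 h6 => wt_ge' dd hD hN h4 4 5 0 5 1 (by norm_num) (by omega)) <|
    Pcs.cons (by omega) (by omega) (fun i h5 h6 => wt_ge' dd hD hN h4 4 4 0 5 1 (by norm_num) (by omega)) <|
    Pcs.nil (by omega)
  · rw [pcv_cons, pcv_cons, pcv_cons, pcv_cons, pcv_cons, pcv_nil]; omega

theorem sq60 (c0 : ℕ) : LocRange H579.parA c0 (37 / 5) (15 / 2) (fun q => (-4) * q + 102) := by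
  refine lr_sq 37 5 15 2 (-4) 102 2 1 1 1 2 1 1 9 (by norm_num) (by norm_num) (by norm_num) ?_
  intro p hp s h1 h2 h3 h4
  refine ⟨[(0, 32 * s - 4 * p, 1), (p - 5 * s, 25 * s - 3 * p, 2), (25 * s - 3 * p, 4 * s, 5), (4 * s, 27 * s - 3 * p, 3), (27 * s + 1 - 3 * p, max (27 * s + 1 - 3 * p) (p), 5)], fun dd hD hN => ?_, ?_⟩
  · exact
    Pcs.cons (by omega) (by omega) (fun i h5 h6 => wt_ge' dd hD hN h4 4 5 1 4 0 (by norm_num) (by omega)) <|
    Pcs.cons (by omega) (by omega) (fun i h5 h6 => wt_ge' dd hD hN h4 4 4 1 5 0 (by norm_num) (by omega)) <|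
    Pcs.cons (by omega) (by omega) (fun i h5 h6 => wt_ge' dd hD hN h4 4 4 1 5 1 (by norm_num) (by omega)) <|
    Pcs.cons (by omega) (by omega) (fun i h5 h6 => wt_ge' dd hD hN h4 4 4 0 5 1 (by norm_num) (by omega)) <|
    Pcs.cons (by omega) (by omega) (fun i h5 h6 => wt_ge' dd hD hN h4 3 4 0 4 0 (by norm_num) (by omega)) <|
    Pcs.nil (by omega)
  · rw [pcv_cons, pcv_cons, pcv_cons, pcv_cons, pcv_cons, pcv_nil]; omega

theorem sq61 (c0 : ℕ) : LocRange H579.parA c0 (15 / 2) (23 / 3) (fun q => 0 * q + 72) := by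
  refine lr_sq 15 2 23 3 0 72 2 1 1 1 2 1 1 9 (by norm_num) (by norm_num) (by norm_num) ?_
  intro p hp s h1 h2 h3 h4
  refine ⟨[(0, 32 * s - 4 * p, 1), (25 * s - 3 * p, p - 5 * s, 2), (p - 5 * s, 4 * s, 5), (4 * s, 27 * s - 3 * p, 3), (27 * s + 1 - 3 * p, max (27 * s + 1 - 3 * p) (p), 5)], fun dd hD hN => ?_, ?_⟩
  · exact
    Pcs.cons (by omega) (by omega) (fun i h5 h6 => wt_ge' dd hD hN h4 4 5 1 4 0 (by norm_num) (by omega)) <|
    Pcs.cons (by omega) (by omega) (fun i h5 h6 => wt_ge' dd hD hN h4 4 4 1 4 1 (by norm_num) (by omega)) <|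
    Pcs.cons (by omega) (by omega) (fun i h5 h6 => wt_ge' dd hD hN h4 4 4 1 5 1 (by norm_num) (by omega)) <|
    Pcs.cons (by omega) (by omega) (fun i h5 h6 => wt_ge' dd hD hN h4 4 4 0 5 1 (by norm_num) (by omega)) <|
    Pcs.cons (by omega) (by omega) (fun i h5 h6 => wt_ge' dd hD hN h4 3 4 0 4 0 (by norm_num) (by omega)) <|
    Pcs.nil (by omega)
  · rw [pcv_cons, pcv_cons, pcv_cons, pcv_cons, pcv_cons, pcv_nil]; omega

theorem sq62 (c0 : ℕ) : LocRange H579.parA c0 (23 / 3) (8) (fun q => 0 * q + 72) := by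
  refine lr_sq 23 3 8 1 0 72 2 1 1 1 2 1 1 9 (by norm_num) (by norm_num) (by norm_num) ?_
  intro p hp s h1 h2 h3 h4
  refine ⟨[(0, 32 * s - 4 * p, 1), (25 * s - 3 * p, p - 5 * s, 2), (p - 5 * s, 27 * s - 3 * p, 5), (27 * s + 1 - 3 * p, max (27 * s + 1 - 3 * p) (4 * s), 7), (4 * s, p, 5)], fun dd hD hN => ?_, ?_⟩
  · exact
    Pcs.cons (by omega) (by omega) (fun i h5 h6 => wt_ge' dd hD hN h4 4 5 1 4 0 (by norm_num) (by omega)) <|
    Pcs.cons (by omega) (by omega) (fun i h5 h6 => wt_ge' dd hD hN h4 4 4 1 4 1 (by norm_num) (by omega)) <|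
    Pcs.cons (by omega) (by omega) (fun i h5 h6 => wt_ge' dd hD hN h4 4 4 1 5 1 (by norm_num) (by omega)) <|
    Pcs.cons (by omega) (by omega) (fun i h5 h6 => wt_ge' dd hD hN h4 3 4 1 4 0 (by norm_num) (by omega)) <|
    Pcs.cons (by omega) (by omega) (fun i h5 h6 => wt_ge' dd hD hN h4 3 4 0 4 0 (by norm_num) (by omega)) <|
    Pcs.nil (by omega)
  · rw [pcv_cons, pcv_cons, pcv_cons, pcv_cons, pcv_cons, pcv_nil]; omega

theorem sq63 (c0 : ℕ) : LocRange H579.parA c0 (8) (25 / 3) (fun q => 4 * q + 40) := by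
  refine lr_sq 8 1 25 3 4 40 2 1 1 1 2 1 1 9 (by norm_num) (by norm_num) (by norm_num) ?_
  intro p hp s h1 h2 h3 h4
  refine ⟨[(25 * s - 3 * p, 27 * s - 3 * p, 2), (27 * s + 1 - 3 * p, max (27 * s + 1 - 3 * p) (p - 5 * s), 4), (p - 5 * s, 4 * s, 7), (4 * s, 32 * s - 3 * p, 5), (32 * s - 3 * p, p, 3)], fun dd hD hN => ?_, ?_⟩
  · exact
    Pcs.cons (by omega) (by omega) (fun i h5 h6 => wt_ge' dd hD hN h4 4 4 1 4 1 (by norm_num) (by omega)) <|
    Pcs.cons (by omega) (by omega) (fun i h5 h6 => wt_ge' dd hD hN h4 3 4 1 3 0 (by norm_num) (by omega)) <|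
    Pcs.cons (by omega) (by omega) (fun i h5 h6 => wt_ge' dd hD hN h4 3 4 1 4 0 (by norm_num) (by omega)) <|
    Pcs.cons (by omega) (by omega) (fun i h5 h6 => wt_ge' dd hD hN h4 3 4 0 4 0 (by norm_num) (by omega)) <|
    Pcs.cons (by omega) (by omega) (fun i h5 h6 => wt_ge' dd hD hN h4 3 3 0 4 0 (by norm_num) (by omega)) <|
    Pcs.nil (by omega)
  · rw [pcv_cons, pcv_cons, pcv_cons, pcv_cons, pcv_cons, pcv_nil]; omega

end Vale.Agent.P030.H641
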