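import Vale.Agent.P030.H778.OdB
import Vale.Agent.P030.H641.SqA
import Vale.Agent.P030.H641.SqB
import Vale.Agent.P030.H641.SqC
import Vale.Agent.P030.H641.SqD
import Vale.Agent.P030.H641.SqE
import Vale.Agent.P030.H641.SqF

/-!
# P030, odd primes: the odd part of design A with the class gain for small quotients
-/

open MeasureTheory Set Filter Topology

namespace Vale.Agent.P030.H641

open Vale.Agent.P030.T Vale.Agent.P030.H778 Vale.Agent.P030.H792

/-- the pieces up to `9` -/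
noncomputable def sqL : List (ℝ × ℝ × ℝ) :=
  [(30 / 23, (-7), 75),
    (37 / 28, 1, 65),
    (4 / 3, (-69), 157),
    (27 / 20, 33, 21),
    (23 / 17, 1, 65),
    (15 / 11, (-7), 75),
    (37 / 27, 37, 15),
    (11 / 8, 1, 65),
    (25 / 18, (-6), 74),
    (32 / 23, 1, 65),
    (7 / 5, 32, 21),
    (17 / 12, 32, 21),
    (9 / 5, 1, 65),
    (37 / 20, (-14), 92),
    (28 / 15, (-14), 92),
    (15 / 8, (-14), 92),
    (32 / 17, (-22), 107),
    (27 / 14, 1, 65),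
    (37 / 19, (-34), 132),
    (2, (-53), 169),
    (37 / 18, 51, (-39)),
    (27 / 13, 33, (-2)),
    (23 / 11, 1, 65),
    (21 / 10, (-17), 102),
    (49 / 23, (-17), 102),
    (32 / 15, 1, 65),
    (15 / 7, 20, 23),
    (28 / 13, 13, 38),
    (37 / 17, 13, 38),
    (9 / 4, 13, 38),
    (37 / 14, 1, 65),
    (8 / 3, (-27), 139),
    (27 / 10, 21, 11),
    (25 / 8, 1, 65),
    (16 / 5, (-15), 115),
    (13 / 4, 5, 51),
    (23 / 7, 1, 64),
    (10 / 3, 1, 64),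
    (37 / 11, 31, (-36)),
    (17 / 5, 1, 65),
    (7 / 2, (-12), 109),
    (32 / 9, (-12), 109),
    (25 / 7, 24, (-19)),
    (11 / 3, 3, 56),
    (37 / 10, (-3), 78),
    (15 / 4, (-13), 115),
    (23 / 6, 3, 55),
    (27 / 7, 3, 55),
    (4, (-11), 109),
    (37 / 9, 23, (-27)),
    (25 / 6, 14, 10),
    (21 / 5, (-4), 85),
    (30 / 7, (-4), 85),
    (9 / 2, 3, 55),
    (32 / 7, (-3), 82),
    (23 / 5, 4, 50),
    (37 / 8, 4, 50),
    (14 / 3, 4, 50),
    (5, 4, 50),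
    (21 / 4, 0, 70),
    (37 / 7, 0, 70),
    (16 / 3, (-14), 144),
    (27 / 5, 10, 16),
    (28 / 5, 0, 70),
    (17 / 3, 0, 70),
    (23 / 4, (-3), 87),
    (6, (-3), 87),
    (37 / 6, 9, 15),
    (25 / 4, 3, 52),
    (32 / 5, (-5), 102),
    (27 / 4, 5, 38),
    (37 / 5, 1, 65),
    (15 / 2, (-4), 102),
    (23 / 3, 0, 72),
    (8, 0, 72),
    (25 / 3, 4, 40),
    (9, 1, 65)]

theorem locP_append {P : Par} {c0 : ℕ} {L M : List (ℝ × ℝ × ℝ)} : ∀ {a : ℝ},
    LocP P c0 a L → LocP P c0 (pwE a L) M → LocP P c0 a (L ++ M) := by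
  induction L with
  | nil => intro a _ h; exact h
  | cons e L ih => intro a h1 h2; exact ⟨h1.1, ih h1.2 h2⟩

theorem pwS_append {L M : List (ℝ × ℝ × ℝ)} : ∀ {a : ℝ},
    pwS a L → pwS (pwE a L) M → pwS a (L ++ M) := by
  induction L with
  | nil => intro a _ h; exact h
  | cons e L ih => intro a h1 h2; exact ⟨h1.1, ih h1.2 h2⟩

theorem pwE_append {L M : List (ℝ × ℝ × ℝ)} : ∀ {a : ℝ}, pwE a (L ++ M) = pwE (pwE a L) M := by
  induction L with
  | nil => intro a; rfl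
  | cons e L ih => intro a; exact ih

theorem pwI_append {L M : List (ℝ × ℝ × ℝ)} : ∀ {a : ℝ},
    pwI a (L ++ M) = pwI a L + pwI (pwE a L) M := by
  induction L with
  | nil => intro a; simp [pwI, pwE]
  | cons e L ih =>
    intro a
    show _ + pwI e.1 (L ++ M) = _ + pwI e.1 L + pwI (pwE e.1 L) M
    rw [ih]
    ring

theorem pwE_sqL : pwE (9 / 7) sqL = 9 := rfl

theorem pwS_sqL : pwS (9 / 7) sqL := by
  norm_num [pwS, sqL]

theorem pwI_sqL : pwI 0 ((9 / 7, 1, 65) :: sqL) = 156014578620328520947 / 251471639468649600 := by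
  norm_num [pwI, sqL]

theorem locP_sqL (c0 : ℕ) : LocP H579.parA c0 (9 / 7) sqL :=
  ⟨sq0 c0,
    lr0 c0 (by norm_num) (by norm_num),
    sq1 c0,
    sq2 c0,
    lr0 c0 (by norm_num) (by norm_num),
    sq3 c0,
    sq4 c0,
    lr0 c0 (by norm_num) (by norm_num),
    sq5 c0,
    lr0 c0 (by norm_num) (by norm_num),
    sq6 c0,
    sq7 c0,
    lr0 c0 (by norm_num) (by norm_num),
    sq8 c0,
    sq9 c0,
    sq10 c0,
    sq11 c0,
    lr0 c0 (by norm_num) (by norm_num),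
    sq12 c0,
    sq13 c0,
    sq14 c0,
    sq15 c0,
    lr0 c0 (by norm_num) (by norm_num),
    sq16 c0,
    sq17 c0,
    lr0 c0 (by norm_num) (by norm_num),
    sq18 c0,
    sq19 c0,
    sq20 c0,
    sq21 c0,
    lr0 c0 (by norm_num) (by norm_num),
    sq22 c0,
    sq23 c0,
    lr0 c0 (by norm_num) (by norm_num),
    sq24 c0,
    sq25 c0,
    sq26 c0,
    sq27 c0,
    sq28 c0,
    lr0 c0 (by norm_num) (by norm_num),
    sq29 c0,
    sq30 c0,
    sq31 c0,
    sq32 c0,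
    sq33 c0,
    sq34 c0,
    sq35 c0,
    sq36 c0,
    sq37 c0,
    sq38 c0,
    sq39 c0,
    sq40 c0,
    sq41 c0,
    sq42 c0,
    sq43 c0,
    sq44 c0,
    sq45 c0,
    sq46 c0,
    sq47 c0,
    sq48 c0,
    sq49 c0,
    sq50 c0,
    sq51 c0,
    sq52 c0,
    sq53 c0,
    sq54 c0,
    sq55 c0,
    sq56 c0,
    sq57 c0,
    sq58 c0,
    sq59 c0,
    lr0 c0 (by norm_num) (by norm_num),
    sq60 c0,
    sq61 c0,
    sq62 c0,
    sq63 c0,
    lr0 c0 (by norm_num) (by norm_num), trivial⟩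

/-- **`StOD` from a list of pieces above `9`** -/
theorem stOD_sq (c0 : ℕ) {L : List (ℝ × ℝ × ℝ)} (hS : pwS 9 L) (hL : LocP H579.parA c0 9 L)
    (hH : pwE 9 L = 32) {I : ℝ} (hI : 156014578620328520947 / 251471639468649600 + pwI 9 L = I) : StOD H579.parA c0 I := by
  refine stOD_pw H579.parA c0 (b0 := 9 / 7) (c := 1) (d := 65) (L := sqL ++ L) (by norm_num)
    (loc0 c0 (by norm_num)) (pwS_append pwS_sqL (by rw [pwE_sqL]; exact hS))
    (locP_append (locP_sqL c0) (by rw [pwE_sqL]; exact hL)) (fun g => ?_) ?_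
  · rw [pwE_append, pwE_sqL, hH]
    exact ht_le32 g
  · rw [← hI, ← pwI_sqL]
    show _ + pwI _ (sqL ++ L) = (_ + pwI _ sqL) + _
    rw [pwI_append, pwE_sqL]
    ring

end Vale.Agent.P030.H641
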